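import Crest.Agent.WLX.SUDef

/-!
# Row 290: the numeric system is decidable in polynomial time

CHUNK R290-X-SUU (all lemmas of this file; tactic `up_auto` of `WLX/Auto.lean`, one closure lemma for every
function of `SUDef.lean`: `seldN`, `flN`, `freshN`, `roleN`, `clS` (12 projections), `rlN`, `olN`, `gu`..`gκ`, `prjN`,
`closedVN`, `clokN`, `sok`, `okNN`, `okRowN`, `ca'`, `ca`, `cm`, `cc`, `bG`, `nG`, `bV`, `cV`, `nV`, `nBH`, `nBO`,
`nBV`, `nBC`, `hN`, `oN`, `vN`, `slotV`).  For `List.getD` of a fixed list prove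
`UN n → UN (fun z => l.getD (n z) d)` by induction on `l`.
-/

set_option autoImplicit false
set_option linter.unusedVariables false

namespace Crest.Agent.WLX.SU

open Crest.Agent.WLH Crest.Agent.CHR Crest.CountHier

/-- closure under the basic operations, reducible unification only -/
syntax "ua" " [" term,* "]" : tactic

macro_rules
  | `(tactic| ua [$ts,*]) => do
    let ts := ts.getElems
    `(tactic| repeat' (with_reducible first
      | assumption
      $[| apply $ts]*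
      | exact UN.const _
      | exact UP.const _
      | apply UN.add
      | apply UN.mul
      | apply UN.sub
      | apply UN.div
      | apply UN.mod
      | apply UN.min
      | apply UN.iteI
      | apply UP.and
      | apply UP.or
      | apply UP.not
      | apply UP.imp
      | apply UP.le
      | apply UP.lt
      | apply UP.ge
      | apply UP.gt
      | apply UP.eqN
      | apply UP.ne))

/-- accessor functions -/
def AccUN (ac : W → ℕ → ℕ → ℕ) : Prop := ∀ (f : ℕ) (p : W → ℕ), UN p → UN (fun z => ac z f (p z))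

theorem u_ac {ac : W → ℕ → ℕ → ℕ} (hac : AccUN ac) {f : ℕ} {p : W → ℕ} (hp : UN p) :
    UN (fun z => ac z f (p z)) := hac f p hp

theorem u_getD (l : List ℕ) (d : ℕ) : ∀ {n : W → ℕ}, UN n → UN (fun z => l.getD (n z) d) := by
  induction l with
  | nil => intro n _; simpa using UN.const d
  | cons x l ih =>
    intro n hn
    have h := ih (hn.sub (UN.const 1))
    refine (UN.ite (p := fun z => n z = 0) (UP.eqN hn (UN.const 0)) (UN.const x) h).congr fun z => ?_
    by_cases h0 : n z = 0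
    · simp [h0]
    · obtain ⟨k, hk⟩ := Nat.exists_eq_succ_of_ne_zero h0
      simp [hk]

section
variable {L N b : W → ℕ}

theorem u_bG (hL : UN L) (hN : UN N) (hb : UN b) : UN (fun z => bG (L z) (N z) (b z)) := by
  unfold bG; ua []
theorem u_nG (hL : UN L) (hN : UN N) (hb : UN b) : UN (fun z => nG (L z) (N z) (b z)) := by
  unfold nG; ua [u_bG]
theorem u_bV (hL : UN L) (hb : UN b) : UN (fun z => bV (L z) (b z)) := by
  unfold bV; ua []
theorem u_cV (hL : UN L) (hN : UN N) (hb : UN b) : UN (fun z => cV (L z) (N z) (b z)) := by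
  unfold cV; ua []
theorem u_nV (hL : UN L) (hN : UN N) (hb : UN b) : UN (fun z => nV (L z) (N z) (b z)) := by
  unfold nV; ua [u_bV, u_cV]
theorem u_nBH (hL : UN L) (hN : UN N) (hb : UN b) : UN (fun z => nBH (L z) (N z) (b z)) := by
  unfold nBH; ua [u_nG]
theorem u_nBO (hL : UN L) (hN : UN N) (hb : UN b) : UN (fun z => nBO (L z) (N z) (b z)) := by
  unfold nBO; ua [u_nV]
theorem u_nBV (hL : UN L) (hN : UN N) (hb : UN b) : UN (fun z => nBV (L z) (N z) (b z)) := by
  unfold nBV; ua [u_nG]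

end

section

variable {ac : W → ℕ → ℕ → ℕ} {L N b : W → ℕ} {k t t' s u i a c κ p x j h ρ m a' v v' col : W → ℕ}

theorem u_seldN (hk : UN k) (ht : UN t) (ht' : UN t') (hs : UN s) (hu : UN u) :
    UN (fun z => seldN (k z) (t z) (t' z) (s z) (u z)) := by
  unfold seldN; ua []

theorem u_flN (hL : UN L) (hb : UN b) (hk : UN k) (hi : UN i) (ha : UN a) (hc : UN c) (ht : UN t) (ht' : UN t')
    (hs : UN s) (hu : UN u) :
    UN (fun z => flN (L z) (b z) (k z) (i z) (a z) (c z) (t z) (t' z) (s z) (u z)) := by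
  unfold flN; ua [u_seldN]

theorem u_freshN (hL : UN L) (hN : UN N) (hb : UN b) (hκ : UN κ) (hp : UN p) (hx : UN x) (hj : UN j)
    (hh : UN h) (ht : UN t) (ht' : UN t') (hs : UN s) (hu : UN u) :
    UN (fun z => freshN (L z) (N z) (b z) (κ z) (p z) (x z) (j z) (h z) (t z) (t' z) (s z) (u z)) := by
  unfold freshN; ua [u_bV]

theorem u_roleN (hh : UN h) (hi : UN i) : UN (fun z => roleN (h z) (i z)) := by
  unfold roleN
  exact u_getD _ _ (((UN.const 3).mul hh).add hi)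

theorem u_clokN (hac : AccUN ac) (hκ : UN κ) (hp : UN p) (hx : UN x) :
    UP (fun z => clokN (ac z) (κ z) (p z) (x z)) := by
  unfold clokN; ua [u_ac hac]

theorem u_cl_Xk (hac : AccUN ac) (hL : UN L) (hκ : UN κ) (hp : UN p) (hx : UN x) :
    UN (fun z => (clS (ac z) (L z) (κ z) (p z) (x z)).Xk) := by
  simp only [clS, apply_ite Cl.Xk]; ua [u_ac hac]

theorem u_cl_Xi (hac : AccUN ac) (hL : UN L) (hκ : UN κ) (hp : UN p) (hx : UN x) :
    UN (fun z => (clS (ac z) (L z) (κ z) (p z) (x z)).Xi) := by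
  simp only [clS, apply_ite Cl.Xi]; ua [u_ac hac]

theorem u_cl_x1 (hac : AccUN ac) (hL : UN L) (hκ : UN κ) (hp : UN p) (hx : UN x) :
    UN (fun z => (clS (ac z) (L z) (κ z) (p z) (x z)).x1) := by
  simp only [clS, apply_ite Cl.x1]; ua [u_ac hac]

theorem u_cl_x2 (hac : AccUN ac) (hL : UN L) (hκ : UN κ) (hp : UN p) (hx : UN x) :
    UN (fun z => (clS (ac z) (L z) (κ z) (p z) (x z)).x2) := by
  simp only [clS, apply_ite Cl.x2]; ua [u_ac hac]

theorem u_cl_Yk (hac : AccUN ac) (hL : UN L) (hκ : UN κ) (hp : UN p) (hx : UN x) :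
    UN (fun z => (clS (ac z) (L z) (κ z) (p z) (x z)).Yk) := by
  simp only [clS, apply_ite Cl.Yk]; ua [u_ac hac]

theorem u_cl_Yi (hac : AccUN ac) (hL : UN L) (hκ : UN κ) (hp : UN p) (hx : UN x) :
    UN (fun z => (clS (ac z) (L z) (κ z) (p z) (x z)).Yi) := by
  simp only [clS, apply_ite Cl.Yi]; ua [u_ac hac]

theorem u_cl_y1 (hac : AccUN ac) (hL : UN L) (hκ : UN κ) (hp : UN p) (hx : UN x) :
    UN (fun z => (clS (ac z) (L z) (κ z) (p z) (x z)).y1) := by
  simp only [clS, apply_ite Cl.y1]; ua [u_ac hac]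

theorem u_cl_y2 (hac : AccUN ac) (hL : UN L) (hκ : UN κ) (hp : UN p) (hx : UN x) :
    UN (fun z => (clS (ac z) (L z) (κ z) (p z) (x z)).y2) := by
  simp only [clS, apply_ite Cl.y2]; ua [u_ac hac]

theorem u_cl_Zk (hac : AccUN ac) (hL : UN L) (hκ : UN κ) (hp : UN p) (hx : UN x) :
    UN (fun z => (clS (ac z) (L z) (κ z) (p z) (x z)).Zk) := by
  simp only [clS, apply_ite Cl.Zk]; ua [u_ac hac]

theorem u_cl_Zi (hac : AccUN ac) (hL : UN L) (hκ : UN κ) (hp : UN p) (hx : UN x) :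
    UN (fun z => (clS (ac z) (L z) (κ z) (p z) (x z)).Zi) := by
  simp only [clS, apply_ite Cl.Zi]; ua [u_ac hac]

theorem u_cl_z1 (hac : AccUN ac) (hL : UN L) (hκ : UN κ) (hp : UN p) (hx : UN x) :
    UN (fun z => (clS (ac z) (L z) (κ z) (p z) (x z)).z1) := by
  simp only [clS, apply_ite Cl.z1]; ua [u_ac hac]

theorem u_cl_z2 (hac : AccUN ac) (hL : UN L) (hκ : UN κ) (hp : UN p) (hx : UN x) :
    UN (fun z => (clS (ac z) (L z) (κ z) (p z) (x z)).z2) := by
  simp only [clS, apply_ite Cl.z2]; ua [u_ac hac]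

theorem u_rlN (hac : AccUN ac) (hL : UN L) (hN : UN N) (hb : UN b) (hρ : UN ρ) (hκ : UN κ) (hp : UN p)
    (hx : UN x) (hj : UN j) (ht : UN t) (ht' : UN t') (hs : UN s) (hu : UN u) :
    UN (fun z => rlN (ac z) (L z) (N z) (b z) (ρ z) (κ z) (p z) (x z) (j z) (t z) (t' z) (s z) (u z)) := by
  unfold rlN
  ua [u_flN, u_freshN, u_bV, u_cV, u_cl_Xk hac, u_cl_Xi hac, u_cl_x1 hac, u_cl_x2 hac, u_cl_Yk hac, u_cl_Yi hac, u_cl_y1 hac, u_cl_y2 hac, u_cl_Zk hac, u_cl_Zi hac, u_cl_z1 hac, u_cl_z2 hac]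

theorem u_olN (hL : UN L) (hN : UN N) (hb : UN b) (hh : UN h) (hi : UN i) :
    UN (fun z => olN (L z) (N z) (b z) (h z) (i z)) := by
  have hg := u_getD [0, 1, 2, 0, 2, 1, 2, 1, 1] 0 (((UN.const 3).mul hh).add hi)
  unfold olN
  ua [hg, u_bV, u_cV]

theorem u_gu (hb : UN b) (ha : UN a) : UN (fun z => gu (b z) (a z)) := by
  unfold gu; ua []
theorem u_gs (hb : UN b) (ha : UN a) : UN (fun z => gs (b z) (a z)) := by
  unfold gs; ua []
theorem u_gt' (hb : UN b) (ha : UN a) : UN (fun z => gt' (b z) (a z)) := by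
  unfold gt'; ua []
theorem u_gt (hb : UN b) (ha : UN a) : UN (fun z => gt (b z) (a z)) := by
  unfold gt; ua []
theorem u_gq (hb : UN b) (ha : UN a) : UN (fun z => gq (b z) (a z)) := by
  unfold gq; ua []
theorem u_gh (hb : UN b) (ha : UN a) : UN (fun z => gh (b z) (a z)) := by
  unfold gh; ua [u_gq]
theorem u_gj (hN : UN N) (hb : UN b) (ha : UN a) : UN (fun z => gj (N z) (b z) (a z)) := by
  unfold gj; ua [u_gq]
theorem u_gx (hL : UN L) (hN : UN N) (hb : UN b) (ha : UN a) :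
    UN (fun z => gx (L z) (N z) (b z) (a z)) := by
  unfold gx; ua [u_gq]
theorem u_gp (hL : UN L) (hN : UN N) (hb : UN b) (ha : UN a) :
    UN (fun z => gp (L z) (N z) (b z) (a z)) := by
  unfold gp; ua [u_gq]
theorem u_gκ (hL : UN L) (hN : UN N) (hb : UN b) (ha : UN a) :
    UN (fun z => gκ (L z) (N z) (b z) (a z)) := by
  unfold gκ; ua [u_gq]

theorem u_prjN (hac : AccUN ac) (hL : UN L) (hN : UN N) (hb : UN b) (hi : UN i) (ha : UN a) :
    UN (fun z => prjN (ac z) (L z) (N z) (b z) (i z) (a z)) := by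
  unfold prjN
  ua [u_rlN hac, u_olN, u_roleN, u_gh, u_gκ, u_gp, u_gx, u_gj, u_gt, u_gt', u_gs, u_gu, u_bG]

theorem u_closedVN (hL : UN L) (hN : UN N) (hb : UN b) (hi : UN i) (hv : UN v) :
    UP (fun z => closedVN (L z) (N z) (b z) (i z) (v z)) := by
  unfold closedVN; ua [u_bV, u_cV]

theorem u_sok (hb : UN b) (hj : UN j) (hm : UN m) (ha : UN a) (hv : UN v) :
    UP (fun z => sok (b z) (j z) (m z) (a z) (v z)) := by
  unfold sok; ua []

theorem u_okNN (hac : AccUN ac) (hL : UN L) (hN : UN N) (hb : UN b) (hm : UN m) (ha : UN a) :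
    UP (fun z => okNN (ac z) (L z) (N z) (b z) (m z) (a z)) := by
  unfold okNN
  ua [u_clokN hac, u_sok, u_bG, u_gκ, u_gp, u_gx, u_gj, u_gt, u_gt']

theorem u_okRowN (hac : AccUN ac) (hL : UN L) (hN : UN N) (hb : UN b) (hm : UN m) (ha : UN a)
    (ha' : UN a') : UP (fun z => okRowN (ac z) (L z) (N z) (b z) (m z) (a z) (a' z)) := by
  unfold okRowN
  ua [u_okNN hac, u_bG, u_gq]

theorem u_ca' (hL : UN L) (hN : UN N) (hb : UN b) (hc : UN c) :
    UN (fun z => ca' (L z) (N z) (b z) (c z)) := by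
  unfold ca'; ua [u_nG]
theorem u_ca (hL : UN L) (hN : UN N) (hb : UN b) (hc : UN c) :
    UN (fun z => ca (L z) (N z) (b z) (c z)) := by
  unfold ca; ua [u_nG]
theorem u_cm (hL : UN L) (hN : UN N) (hb : UN b) (hc : UN c) :
    UN (fun z => cm (L z) (N z) (b z) (c z)) := by
  unfold cm; ua [u_nG]
theorem u_cc (hL : UN L) (hN : UN N) (hb : UN b) (hc : UN c) :
    UN (fun z => cc (L z) (N z) (b z) (c z)) := by
  unfold cc; ua [u_nG]

theorem u_hN (hL : UN L) (hN' : UN N) (hb : UN b) (hi : UN i) (hj : UN j) (hm : UN m) (ha : UN a)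
    (ha' : UN a') : UN (fun z => hN (L z) (N z) (b z) (i z) (j z) (m z) (a z) (a' z)) := by
  unfold hN; ua [u_nG]
theorem u_oN (hL : UN L) (hN' : UN N) (hb : UN b) (hi : UN i) (hm : UN m) (hv : UN v)
    (hv' : UN v') : UN (fun z => oN (L z) (N z) (b z) (i z) (m z) (v z) (v' z)) := by
  unfold oN; ua [u_nV, u_nBH]
theorem u_vN (hL : UN L) (hN' : UN N) (hb : UN b) (hcol : UN col) (hk : UN k) (ha : UN a) :
    UN (fun z => vN (L z) (N z) (b z) (col z) (k z) (a z)) := by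
  unfold vN; ua [u_nG, u_nBH, u_nBO]

theorem u_slotV (hac : AccUN ac) (hL : UN L) (hN' : UN N) (hb : UN b) (hcol : UN col) (hm : UN m)
    (ha : UN a) (ha' : UN a') (hs : UN s) :
    UN (fun z => slotV (ac z) (L z) (N z) (b z) (col z) (m z) (a z) (a' z) (s z)) := by
  unfold slotV
  ua [u_vN, u_hN, u_oN, u_closedVN, u_prjN hac]

end

theorem UP.SLN {ac : W → ℕ → ℕ → ℕ} {L N b c s e : W → ℕ} (hac : AccUN ac) (hL : UN L) (hN : UN N)
    (hb : UN b) (hc : UN c) (hs : UN s) (he : UN e) :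
    UP (fun z => SU.SLN (ac z) (L z) (N z) (b z) (c z) (s z) (e z)) := by
  unfold SU.SLN slotN
  ua [u_slotV hac, u_cc, u_cm, u_ca, u_ca']

theorem UP.ALN {ac : W → ℕ → ℕ → ℕ} {L N b c : W → ℕ} (hac : AccUN ac) (hL : UN L) (hN : UN N)
    (hb : UN b) (hc : UN c) : UP (fun z => SU.ALN (ac z) (L z) (N z) (b z) (c z)) := by
  unfold SU.ALN
  ua [u_okRowN hac, u_cm, u_ca, u_ca']

theorem UP.TWN {L N b c : W → ℕ} (hL : UN L) (hN : UN N) (hb : UN b) (hc : UN c) :
    UP (fun z => SU.TWN (L z) (N z) (b z) (c z)) := by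
  unfold SU.TWN
  ua [u_cc, u_cm, u_ca, u_bG]

theorem UN.nBC {L N b : W → ℕ} (hL : UN L) (hN : UN N) (hb : UN b) :
    UN (fun z => WLH.nBC (L z) (N z) (b z)) := by
  unfold WLH.nBC
  ua [u_nG]

theorem UN.nEN {L N b : W → ℕ} (hL : UN L) (hN : UN N) (hb : UN b) :
    UN (fun z => SU.nEN (L z) (N z) (b z)) := by
  unfold SU.nEN
  ua [u_nBH, u_nBO, u_nBV]

end Crest.Agent.WLX.SU
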