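import Crest.Agent.WLX.SUC
import Crest.Agent.WLX.SUU

/-!
# Row 290: `SysUP bsys btw`
-/

set_option autoImplicit false

namespace Crest.Agent.WLX.SU

open Crest.Agent.WLH Crest.Agent.WLM Crest.Agent.WL Crest.Agent.CHR Crest.CountHier

/-- accessor of `inpT z T` from the code, total version -/
def acT (z c : W) (f p : ℕ) : ℕ := accZ z c (min f 5) p

theorem acT_eq (z : W) {T : Tab} (hT : T.Ok) : acT z (tc T) = fldT (inpT z T) := by
  funext f p
  unfold acT
  rw [accZ_eq z hT (by omega)]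
  rcases Nat.lt_or_ge f 6 with h | h
  · rw [min_eq_left (by omega)]
  · rw [min_eq_right (by omega)]
    unfold fldT
    rw [if_neg (by omega), if_neg (by omega), if_neg (by omega), if_neg (by omega),
      if_neg (by omega), if_neg (by omega), if_neg (by omega), if_neg (by omega),
      if_neg (by omega), if_neg (by omega)]

theorem sysUP : SysUP bsys WLH.btw := by
  intro zf cf N b hz hc hN hb
  have hac : ∀ f : W → W, CHR.PolyTime f → AccUN (fun z => acT (zf (f z)) (cf (f z))) :=
    fun f hf i p hp => UN.accZ (CHR.PT.comp hz hf) (CHR.PT.comp hc hf) hp (min i 5)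
  have hL : UN (fun z => lenZ (zf z) (cf z)) := UN.lenZ hz hc
  refine ⟨fun w => nBC (lenZ (zf w) (cf w)) (N w) (b w), fun w => nEN (lenZ (zf w) (cf w)) (N w) (b w),
    fun w => SLN (acT (zf w) (cf w)) (lenZ (zf w) (cf w)) (N w) (b w),
    fun w => ALN (acT (zf w) (cf w)) (lenZ (zf w) (cf w)) (N w) (b w),
    fun w => TWN (lenZ (zf w) (cf w)) (N w) (b w), UN.nBC hL hN hb, UN.nEN hL hN hb, ?_, ?_, ?_, ?_⟩
  · intro f c s e hf hc' hs he
    exact UP.SLN (hac f hf) (hL.comp hf) (hN.comp hf) (hb.comp hf) hc' hs he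
  · intro f c hf hc'
    exact UP.ALN (hac f hf) (hL.comp hf) (hN.comp hf) (hb.comp hf) hc'
  · intro f c hf hc'
    exact UP.TWN (hL.comp hf) (hN.comp hf) (hb.comp hf) hc'
  · intro w T hT hcw hNw
    have hl : lenZ (zf w) (cf w) = (inpT (zf w) T).length := by rw [hcw, lenZ_eq]
    have ha : acT (zf w) (cf w) = fldT (inpT (zf w) T) := by rw [hcw, acT_eq _ hT]
    beta_reduce
    rw [hl, ha]
    refine ⟨rfl, rfl, ?_, ?_, ?_⟩
    · intro c s e
      exact slot_iff _ c s e
    · rintro ⟨⟨⟨x, m⟩, a⟩, a'⟩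
      obtain ⟨h1, h2, h3, h4⟩ := dec_check (L := (inpT (zf w) T).length) (N := N w) (b := b w) x m a a'
      show ALN _ _ _ _ (eBC _ _ _ _).val ↔ bal _ _ _ _ = true
      unfold ALN
      rw [h2, h3, h4, okRow_iff]
      unfold bal
      simp
    · rintro ⟨⟨⟨x, m⟩, a⟩, a'⟩
      obtain ⟨h1, h2, h3, h4⟩ := dec_check (L := (inpT (zf w) T).length) (N := N w) (b := b w) x m a a'
      show TWN _ _ _ (eBC _ _ _ _).val ↔ WLH.btw _ _ _ _ = 1
      unfold TWN WLH.btw
      rw [h1, h2, h3, odd_iff]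
      have hx : (eCol (N w) x).val = 0 ↔ x = none := by
        rcases x with _ | ⟨i, j⟩
        · simp [eCol_none]
        · simp [eCol_some]
      rw [hx]
      by_cases h : x = none ∧ m.val = 0 ∧ oddN (gn a)
      · simp [h]
      · rw [if_neg h]
        simp only [zero_ne_one, iff_false]
        exact h

theorem nC_pos (T : Tab) (N b : ℕ) : 0 < (bsys T N b).nC := by
  show 0 < nBC T.length N b
  unfold nBC nG
  positivity

end Crest.Agent.WLX.SU
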