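import Crest.Agent.WLX.AlgUC

/-!
# Row 290, module A

CHUNK R290-X-UJ (all lemmas of this file; `UP.HistEq` of AlgUC may be used).
-/

set_option autoImplicit false

namespace Crest.Agent.WLX

open Crest.Agent.CHR Crest.CountHier

theorem UN.pw {B n i : W → ℕ} (hB : UN B) (hn : UN n) (hi : UN i) :
    UN (fun w => WLX.pw (B w) (n w) (i w)) := UN.powMin hn hi hB

theorem UN.dig {B n a i : W → ℕ} (hB : UN B) (hn : UN n) (ha : UN a) (hi : UN i) :
    UN (fun w => WLX.dig (B w) (n w) (a w) (i w)) := (ha.div (UN.pw hB hn hi)).mod hn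

theorem UN.upd {B n a i z : W → ℕ} (hB : UN B) (hn : UN n) (ha : UN a) (hi : UN i) (hz : UN z) :
    UN (fun w => WLX.upd (B w) (n w) (a w) (i w) (z w)) :=
  (ha.add (hz.mul (UN.pw hB hn hi))).sub ((UN.dig hB hn ha hi).mul (UN.pw hB hn hi))

theorem UN.upg {B n M a i z : W → ℕ} (hB : UN B) (hn : UN n) (hM : UN M) (ha : UN a) (hi : UN i)
    (hz : UN z) : UN (fun w => WLX.upg (B w) (n w) (M w) (a w) (i w) (z w)) :=
  ((ha.div hM).mul hM).add (UN.upd hB hn (ha.mod hM) hi hz)

/-- PROOF. `UP.all`, `UP.iff`, `UP.eqN`, `UN.dig`, `UP3.app`. -/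
theorem UP.J0 {B n k M a b : W → ℕ} {A : W → ℕ → ℕ → ℕ → Prop} (hB : UN B) (hn : UN n) (hk : UN k)
    (hM : UN M) (ha : UN a) (hb : UN b) (hA : UP3 A) :
    UP (fun w => WLX.J0 (B w) (n w) (k w) (M w) (A w) (a w) (b w)) := by
  unfold WLX.J0
  refine UP.all (P := fun w i => ∀ j < k w,
    (WLX.dig (B w) (n w) (a w % M w) i = WLX.dig (B w) (n w) (a w % M w) j ↔
      WLX.dig (B w) (n w) (b w % M w) i = WLX.dig (B w) (n w) (b w % M w) j) ∧
    (A w (a w / M w) (WLX.dig (B w) (n w) (a w % M w) i) (WLX.dig (B w) (n w) (a w % M w) j) ↔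
      A w (b w / M w) (WLX.dig (B w) (n w) (b w % M w) i)
        (WLX.dig (B w) (n w) (b w % M w) j))) hk ?_
  refine UP.all (P := fun z j =>
    (WLX.dig (B (fstB z)) (n (fstB z)) (a (fstB z) % M (fstB z)) (sndB z).length =
        WLX.dig (B (fstB z)) (n (fstB z)) (a (fstB z) % M (fstB z)) j ↔
      WLX.dig (B (fstB z)) (n (fstB z)) (b (fstB z) % M (fstB z)) (sndB z).length =
        WLX.dig (B (fstB z)) (n (fstB z)) (b (fstB z) % M (fstB z)) j) ∧
    (A (fstB z) (a (fstB z) / M (fstB z))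
        (WLX.dig (B (fstB z)) (n (fstB z)) (a (fstB z) % M (fstB z)) (sndB z).length)
        (WLX.dig (B (fstB z)) (n (fstB z)) (a (fstB z) % M (fstB z)) j) ↔
      A (fstB z) (b (fstB z) / M (fstB z))
        (WLX.dig (B (fstB z)) (n (fstB z)) (b (fstB z) % M (fstB z)) (sndB z).length)
        (WLX.dig (B (fstB z)) (n (fstB z)) (b (fstB z) % M (fstB z)) j))) hk.fst ?_
  have hi : UN (fun z => (sndB (fstB z)).length) := UN.var.fst
  have hj : UN (fun z => (sndB z).length) := UN.var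
  have hB' := hB.fst.fst
  have hn' := hn.fst.fst
  have hM' := hM.fst.fst
  have ha' := ha.fst.fst
  have hb' := hb.fst.fst
  have hf : PolyTime (fun z => fstB (fstB z)) := PT.comp PT.fst PT.fst
  have hai := UN.dig hB' hn' (ha'.mod hM') hi
  have haj := UN.dig hB' hn' (ha'.mod hM') hj
  have hbi := UN.dig hB' hn' (hb'.mod hM') hi
  have hbj := UN.dig hB' hn' (hb'.mod hM') hj
  exact ((UP.eqN hai haj).iff (UP.eqN hbi hbj)).and
    ((UP3.app hA hf (ha'.div hM') hai haj).iff (UP3.app hA hf (hb'.div hM') hbi hbj))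

/-- auxiliary: the counting function of `JStep` -/
theorem UN.JCount {B n k M a b z : W → ℕ} {R : W → ℕ → ℕ → Prop} (hB : UN B) (hn : UN n)
    (hk : UN k) (hM : UN M) (ha : UN a) (hb : UN b) (hz : UN z)
    (hR : UP (fun z => R (fstB (fstB z)) (sndB (fstB z)).length (sndB z).length)) :
    UN (fun w => (@Finset.filter ℕ (fun z' => ∀ i < k w,
      R w (WLX.upg (B w) (n w) (M w) (a w) i z') (WLX.upg (B w) (n w) (M w) (b w) i (z w)))
      (fun _ => Classical.propDecidable _) (Finset.range (n w))).card) := by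
  refine UN.card (N := n) (P := fun w z' => ∀ i < k w,
      R w (WLX.upg (B w) (n w) (M w) (a w) i z') (WLX.upg (B w) (n w) (M w) (b w) i (z w))) hn ?_
  refine UP.all (P := fun y i => R (fstB y)
      (WLX.upg (B (fstB y)) (n (fstB y)) (M (fstB y)) (a (fstB y)) i (sndB y).length)
      (WLX.upg (B (fstB y)) (n (fstB y)) (M (fstB y)) (b (fstB y)) i (z (fstB y)))) hk.fst ?_
  have hf : PolyTime (fun z => fstB (fstB z)) := PT.comp PT.fst PT.fst
  exact UP.app2 hR hf
    (UN.upg hB.fst.fst hn.fst.fst hM.fst.fst ha.fst.fst UN.var UN.var.fst)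
    (UN.upg hB.fst.fst hn.fst.fst hM.fst.fst hb.fst.fst UN.var hz.fst.fst)

/-- PROOF. `UP.all`, `UN.card`, `UN.upg`; `hR`: the relation is decidable at all polynomial-time
number arguments in extended contexts (use `R w a b` with `w` the ORIGINAL context reached by `fstB`'s). -/
theorem UP.JStep {B n k M a b : W → ℕ} {R : W → ℕ → ℕ → Prop} (hB : UN B) (hn : UN n) (hk : UN k)
    (hM : UN M) (ha : UN a) (hb : UN b)
    (hR : UP (fun z => R (fstB (fstB z)) (sndB (fstB z)).length (sndB z).length)) :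
    UP (fun w => WLX.JStep (B w) (n w) (k w) (M w) (R w) (a w) (b w)) := by
  unfold WLX.JStep
  refine UP.and (UP.app2 hR PT.id ha hb) ?_
  have hR' : UP (fun z => (fun w => R (fstB w)) (fstB (fstB z)) (sndB (fstB z)).length
      (sndB z).length) :=
    UP.app2 hR (PT.comp PT.fst (PT.comp PT.fst PT.fst)) UN.var.fst UN.var
  have key := UP.all (N := n) (P := fun w z =>
    (@Finset.filter ℕ (fun z' => ∀ i < k w,
      R w (WLX.upg (B w) (n w) (M w) (a w) i z') (WLX.upg (B w) (n w) (M w) (a w) i z))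
      (fun _ => Classical.propDecidable _) (Finset.range (n w))).card =
    (@Finset.filter ℕ (fun z' => ∀ i < k w,
      R w (WLX.upg (B w) (n w) (M w) (b w) i z') (WLX.upg (B w) (n w) (M w) (a w) i z))
      (fun _ => Classical.propDecidable _) (Finset.range (n w))).card) hn ?_
  · refine key.congr fun w => ?_
    constructor
    · intro h z hz
      convert h z hz
    · intro h z hz
      convert h z hz
  exact UP.eqN
    (UN.JCount (R := fun w => R (fstB w)) hB.fst hn.fst hk.fst hM.fst ha.fst ha.fst UN.var hR')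
    (UN.JCount (R := fun w => R (fstB w)) hB.fst hn.fst hk.fst hM.fst hb.fst ha.fst UN.var hR')

/-- PROOF. `PT.runT` with `UP.J0`, `UP.JStep`, `UP.rd`; `UP.HistEq`. -/
theorem UP.JDec {B n k : W → ℕ} {A : W → ℕ → ℕ → ℕ → Prop} (hB : UN B) (hn : UN n) (hk : UN k)
    (hA : UP3 A) : UP (fun w => WLX.JDec (B w) (n w) (k w) (A w)) := by
  unfold WLX.JDec
  have hM : UN (fun w => WLX.pw (B w) (n w) (k w)) := UN.pw hB hn hk
  have hL : UN (fun w => 2 * WLX.pw (B w) (n w) (k w)) := (UN.const 2).mul hM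
  have hS : UN (fun w => 2 * WLX.pw (B w) (n w) (k w) * (2 * WLX.pw (B w) (n w) (k w))) :=
    hL.mul hL
  have hff : PolyTime (fun z => fstB (fstB z)) := PT.comp PT.fst PT.fst
  have hfff : PolyTime (fun z => fstB (fstB (fstB z))) := PT.comp PT.fst hff
  have hffff : PolyTime (fun z => fstB (fstB (fstB (fstB z)))) := PT.comp PT.fst hfff
  have hfffff : PolyTime (fun z => fstB (fstB (fstB (fstB (fstB z))))) := PT.comp PT.fst hffff
  have hA2 : UP3 (fun z => A (fstB (fstB z))) :=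
    UP3.app hA hfffff UN.var.fst.fst UN.var.fst UN.var
  have hT : PolyTime (fun w => WLX.runT (2 * WLX.pw (B w) (n w) (k w))
      (WLX.JStep (B w) (n w) (k w) (WLX.pw (B w) (n w) (k w)))
      (WLX.J0 (B w) (n w) (k w) (WLX.pw (B w) (n w) (k w)) (A w))
      (2 * WLX.pw (B w) (n w) (k w) * (2 * WLX.pw (B w) (n w) (k w)))) := by
    refine PT.runT (L := fun w => 2 * WLX.pw (B w) (n w) (k w))
      (S := fun w => 2 * WLX.pw (B w) (n w) (k w) * (2 * WLX.pw (B w) (n w) (k w)))
      (F := fun w => WLX.JStep (B w) (n w) (k w) (WLX.pw (B w) (n w) (k w)))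
      (R0 := fun w => WLX.J0 (B w) (n w) (k w) (WLX.pw (B w) (n w) (k w)) (A w)) hL hS ?_ ?_
    · exact UP.J0 hB.fst.fst hn.fst.fst hk.fst.fst hM.fst.fst UN.var.fst UN.var hA2
    · refine UP.JStep (R := fun z => WLX.rd
        (2 * WLX.pw (B (fstB (fstB (fstB z)))) (n (fstB (fstB (fstB z))))
          (k (fstB (fstB (fstB z)))))
        (sndB (fstB (fstB z)))) hB.fst.fst.fst hn.fst.fst.fst hk.fst.fst.fst hM.fst.fst.fst
        UN.var.fst UN.var ?_
      exact UP.rd hL.fst.fst.fst.fst.fst (PT.comp PT.snd hffff) UN.var.fst UN.var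
  refine UP.HistEq (M := fun w => WLX.pw (B w) (n w) (k w)) (R := fun w =>
    WLX.rd (2 * WLX.pw (B w) (n w) (k w)) (WLX.runT (2 * WLX.pw (B w) (n w) (k w))
      (WLX.JStep (B w) (n w) (k w) (WLX.pw (B w) (n w) (k w)))
      (WLX.J0 (B w) (n w) (k w) (WLX.pw (B w) (n w) (k w)) (A w))
      (2 * WLX.pw (B w) (n w) (k w) * (2 * WLX.pw (B w) (n w) (k w))))) hM ?_
  exact UP.rd hL.fst.fst (PT.comp hT hff) UN.var.fst UN.var

end Crest.Agent.WLX
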