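import Crest.Agent.WLX.Mem1
import Crest.Agent.WLX.AlgUJ

/-!
# Row 290, module A: the numeric predicates are polynomial-time decidable

CHUNK R290-X-MEMU (all lemmas of this file).
-/

set_option autoImplicit false

namespace Crest.Agent.WLX

open Crest.Agent.CHR Crest.CountHier Crest.WLRefine Finset Classical

/-- decidability of a binary number predicate in the context `pu (pu w u) v` -/
def UP2 (A : W → ℕ → ℕ → Prop) : Prop :=
  UP (fun z => A (fstB (fstB z)) (sndB (fstB z)).length (sndB z).length)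

theorem UP2.app {A : W → ℕ → ℕ → Prop} (hA : UP2 A) {f : W → W} {u v : W → ℕ}
    (hf : PolyTime f) (hu : UN u) (hv : UN v) : UP (fun z => A (f z) (u z) (v z)) := by
  have h : PolyTime (fun z => pu (pu (f z) (u z)) (v z)) := PT.pair (PT.pair hf hu) hv
  refine (UP.comp hA h).congr fun z => ?_
  simp

theorem UN.cl {n : W → ℕ} (hn : UN n) : UN (fun w => WLX.cl (n w)) :=
  UN.len (PT.natCode hn)

theorem UP.gm {w : W → W} {o n u v : W → ℕ} (hw : PolyTime w) (ho : UN o) (hn : UN n)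
    (hu : UN u) (hv : UN v) : UP (fun x => WLX.gm (w x) (o x) (n x) (u x) (v x)) :=
  UP.bit hw (ho.add ((hu.mul hn).add hv))

theorem UP.bm {P n h u v : W → ℕ} (hP : UN P) (hn : UN n) (hh : UN h)
    (hu : UN u) (hv : UN v) : UP (fun x => WLX.bm (P x) (n x) (h x) (u x) (v x)) :=
  UP.eqN ((hh.div (UN.pw hP (UN.const 2) ((hu.mul hn).add hv))).mod (UN.const 2)) (UN.const 1)

theorem UP.simpleN {n : W → ℕ} {A : W → ℕ → ℕ → Prop} (hn : UN n) (hA : UP2 A) :
    UP (fun x => WLX.simpleN (n x) (A x)) := by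
  unfold WLX.simpleN
  refine UP.all (P := fun x u => ∀ v < n x, (A x u v ↔ A x v u) ∧ ¬ A x u u) hn ?_
  refine UP.all (P := fun x v => (A (fstB x) (sndB x).length v ↔ A (fstB x) v (sndB x).length) ∧
    ¬ A (fstB x) (sndB x).length (sndB x).length) hn.fst ?_
  have hf : PolyTime (fun z => fstB (fstB z)) := CHR.PT.comp CHR.PT.fst CHR.PT.fst
  have hu : UN (fun z => (sndB (fstB z)).length) := UN.var.fst
  exact ((hA.app hf hu UN.var).iff (hA.app hf UN.var hu)).and (hA.app hf hu hu).not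

theorem UP.degN {n : W → ℕ} {A : W → ℕ → ℕ → Prop} (hn : UN n) (hA : UP2 A) :
    UP (fun x => WLX.degN (n x) (A x)) := by
  have hf : PolyTime (fun z => fstB (fstB z)) := CHR.PT.comp CHR.PT.fst CHR.PT.fst
  have hu : UN (fun z => (sndB (fstB z)).length) := UN.var.fst
  have h1 : UN (fun z => ((range (n (fstB z))).filter fun v => A (fstB z) (sndB z).length v).card) :=
    UN.card (N := fun z => n (fstB z)) (P := fun z v => A (fstB z) (sndB z).length v) hn.fst
      (hA.app hf hu UN.var)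
  exact UP.all (P := fun x u => ((range (n x)).filter fun v => A x u v).card ≤ 3) hn
    (UP.le h1 (UN.const 3))

theorem UP.connN {P n : W → ℕ} {A : W → ℕ → ℕ → Prop} (hP : UN P) (hn : UN n) (hA : UP2 A) :
    UP (fun x => WLX.connN (P x) (n x) (A x)) := by
  have hff : PolyTime (fun z => fstB (fstB z)) := CHR.PT.comp CHR.PT.fst CHR.PT.fst
  have hfff : PolyTime (fun z => fstB (fstB (fstB z))) := CHR.PT.comp CHR.PT.fst hff
  -- bit `u` of the bound number `S` in the context `pu x S`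
  have hbit : ∀ {c : W → W} {S u : W → ℕ}, PolyTime c → UN S → UN u →
      UP (fun z => S z / WLX.pw (P (c z)) 2 (u z) % 2 = 1) := by
    intro c S u hc hS hu
    exact UP.eqN ((hS.div (UN.pw (hP.comp hc) (UN.const 2) hu)).mod (UN.const 2)) (UN.const 1)
  refine UP.and (UP.lt (UN.const 0) hn) ?_
  refine UP.all (P := fun x S => (∃ u < n x, S / WLX.pw (P x) 2 u % 2 = 1) →
    (∃ v < n x, S / WLX.pw (P x) 2 v % 2 ≠ 1) →
    ∃ u < n x, ∃ v < n x, S / WLX.pw (P x) 2 u % 2 = 1 ∧ S / WLX.pw (P x) 2 v % 2 ≠ 1 ∧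
      (A x u v ∨ A x v u)) (UN.pw hP (UN.const 2) hn) ?_
  refine UP.imp ?_ (UP.imp ?_ ?_)
  · exact UP.ex (P := fun z u => (sndB z).length / WLX.pw (P (fstB z)) 2 u % 2 = 1) hn.fst
      (hbit hff UN.var.fst UN.var)
  · exact UP.ex (P := fun z u => (sndB z).length / WLX.pw (P (fstB z)) 2 u % 2 ≠ 1) hn.fst
      (hbit hff UN.var.fst UN.var).not
  · refine UP.ex (P := fun z u => ∃ v < n (fstB z), (sndB z).length / WLX.pw (P (fstB z)) 2 u % 2 = 1 ∧
      (sndB z).length / WLX.pw (P (fstB z)) 2 v % 2 ≠ 1 ∧ (A (fstB z) u v ∨ A (fstB z) v u)) hn.fst ?_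
    refine UP.ex (P := fun y v => (sndB (fstB y)).length / WLX.pw (P (fstB (fstB y))) 2 (sndB y).length % 2 = 1 ∧
      (sndB (fstB y)).length / WLX.pw (P (fstB (fstB y))) 2 v % 2 ≠ 1 ∧
      (A (fstB (fstB y)) (sndB y).length v ∨ A (fstB (fstB y)) v (sndB y).length)) hn.fst.fst ?_
    have hS : UN (fun z => (sndB (fstB (fstB z))).length) := UN.var.fst.fst
    have hu : UN (fun z => (sndB (fstB z)).length) := UN.var.fst
    exact (hbit hfff hS hu).and ((hbit hfff hS UN.var).not.and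
      ((hA.app hfff hu UN.var).or (hA.app hfff UN.var hu)))

theorem UP.isoN {P n : W → ℕ} {A B : W → ℕ → ℕ → Prop} (hP : UN P) (hn : UN n) (hA : UP2 A)
    (hB : UP2 B) : UP (fun x => WLX.isoN (P x) (n x) (A x) (B x)) := by
  have hff : PolyTime (fun z => fstB (fstB z)) := CHR.PT.comp CHR.PT.fst CHR.PT.fst
  have hfff : PolyTime (fun z => fstB (fstB (fstB z))) := CHR.PT.comp CHR.PT.fst hff
  have hfu : UN (fun z => WLX.dig (P (fstB (fstB (fstB z)))) (n (fstB (fstB (fstB z))))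
      (sndB (fstB (fstB z))).length (sndB (fstB z)).length) :=
    UN.dig (hP.comp hfff) (hn.comp hfff) UN.var.fst.fst UN.var.fst
  have hfv : UN (fun z => WLX.dig (P (fstB (fstB (fstB z)))) (n (fstB (fstB (fstB z))))
      (sndB (fstB (fstB z))).length (sndB z).length) :=
    UN.dig (hP.comp hfff) (hn.comp hfff) UN.var.fst.fst UN.var
  refine UP.ex (P := fun x f => (∀ u < n x, ∀ v < n x, WLX.dig (P x) (n x) f u =
      WLX.dig (P x) (n x) f v → u = v) ∧
    ∀ u < n x, ∀ v < n x, (B x (WLX.dig (P x) (n x) f u) (WLX.dig (P x) (n x) f v) ↔ A x u v))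
    (UN.pw hP hn hn) ?_
  refine UP.and ?_ ?_
  · refine UP.all (P := fun z u => ∀ v < n (fstB z),
      WLX.dig (P (fstB z)) (n (fstB z)) (sndB z).length u =
        WLX.dig (P (fstB z)) (n (fstB z)) (sndB z).length v → u = v) hn.fst ?_
    refine UP.all (P := fun y v =>
      WLX.dig (P (fstB (fstB y))) (n (fstB (fstB y))) (sndB (fstB y)).length (sndB y).length =
        WLX.dig (P (fstB (fstB y))) (n (fstB (fstB y))) (sndB (fstB y)).length v →
          (sndB y).length = v) hn.fst.fst ?_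
    exact (UP.eqN hfu hfv).imp (UP.eqN UN.var.fst UN.var)
  · refine UP.all (P := fun z u => ∀ v < n (fstB z),
      (B (fstB z) (WLX.dig (P (fstB z)) (n (fstB z)) (sndB z).length u)
        (WLX.dig (P (fstB z)) (n (fstB z)) (sndB z).length v) ↔ A (fstB z) u v)) hn.fst ?_
    refine UP.all (P := fun y v =>
      (B (fstB (fstB y)) (WLX.dig (P (fstB (fstB y))) (n (fstB (fstB y))) (sndB (fstB y)).length
          (sndB y).length)
        (WLX.dig (P (fstB (fstB y))) (n (fstB (fstB y))) (sndB (fstB y)).length v) ↔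
        A (fstB (fstB y)) (sndB y).length v)) hn.fst.fst ?_
    exact (hB.app hfff hfu hfv).iff (hA.app hfff UN.var.fst UN.var)

/-- the code of the graph read from the string -/
theorem PT.grCode {w : W → W} {o n : W → ℕ} (hw : PolyTime w) (ho : UN o) (hn : UN n) :
    PolyTime (fun x => adjMatrixCode (gr (w x) (o x) (n x))) :=
  PT.adjCode (n := n) (A := fun x u v => WLX.gm (w x) (o x) (n x) u v) hn
    (UP.gm (CHR.PT.comp hw (CHR.PT.comp CHR.PT.fst CHR.PT.fst)) ho.fst.fst hn.fst.fst UN.var.fst UN.var)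

theorem UN.o1 {k n : W → ℕ} (hk : UN k) (hn : UN n) : UN (fun x => WLX.o1 (k x) (n x)) :=
  (UN.cl hk).add (UN.cl hn)

theorem UN.o2 {k n : W → ℕ} (hk : UN k) (hn : UN n) : UN (fun x => WLX.o2 (k x) (n x)) :=
  (((UN.cl hk).add (UN.cl hn)).add (hn.mul hn)).add (UN.cl hn)

/-- the graph read from the string, as a binary predicate in context -/
theorem UP2.gm {w : W → W} {o n : W → ℕ} (hw : PolyTime w) (ho : UN o) (hn : UN n) :
    UP2 (fun x => WLX.gm (w x) (o x) (n x)) :=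
  UP.gm (CHR.PT.comp hw (CHR.PT.comp CHR.PT.fst CHR.PT.fst)) ho.fst.fst hn.fst.fst UN.var.fst
    UN.var

theorem UP3.A2 {w : W → W} {k n : W → ℕ} (hw : PolyTime w) (hk : UN k) (hn : UN n) :
    UP3 (fun x => WLX.A2 (w x) (k x) (n x)) := by
  have hff : PolyTime (fun z => fstB (fstB z)) := CHR.PT.comp CHR.PT.fst CHR.PT.fst
  have hfff : PolyTime (fun z => fstB (fstB (fstB z))) := CHR.PT.comp CHR.PT.fst hff
  have hg : UN (fun z => (sndB (fstB (fstB z))).length) := UN.var.fst.fst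
  refine (UP.gm (CHR.PT.comp hw hfff)
    (UN.ite (UP.eqN hg (UN.const 0)) (UN.o1 (hk.comp hfff) (hn.comp hfff))
      (UN.o2 (hk.comp hfff) (hn.comp hfff))) (hn.comp hfff) UN.var.fst UN.var).congr fun z => ?_
  by_cases h0 : (sndB (fstB (fstB z))).length = 0
  · simp [WLX.A2, h0]
  · simp [WLX.A2, h0]

theorem UP.VD {w : W → W} {B k n : W → ℕ} (hw : PolyTime w) (hB : UN B) (hk : UN k) (hn : UN n) :
    UP (fun x => WLX.VD (w x) (B x) (k x) (n x)) := by
  refine (UP.le (UN.const 2) hk).and (UP.and ?_ (UP.and ?_ (UP.and ?_ ?_)))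
  · exact UP.eqS hw (CHR.PT.append (CHR.PT.append (PT.natCode hk)
      (PT.grCode hw (UN.o1 hk hn) hn)) (PT.grCode hw (UN.o2 hk hn) hn))
  · exact UP.simpleN hn (UP2.gm hw (UN.o1 hk hn) hn)
  · exact UP.simpleN hn (UP2.gm hw (UN.o2 hk hn) hn)
  · exact UP.JDec hB hn (UN.min hk (hn.add (UN.const 2))) (UP3.A2 hw hk hn)

theorem UP.SD {w : W → W} {B k n : W → ℕ} (hw : PolyTime w) (hB : UN B) (hk : UN k) (hn : UN n) :
    UP (fun x => WLX.SD (w x) (B x) (k x) (n x)) :=
  (UP.VD hw hB hk hn).and ((UP.connN hB hn (UP2.gm hw (UN.o1 hk hn) hn)).and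
    ((UP.connN hB hn (UP2.gm hw (UN.o2 hk hn) hn)).and
      ((UP.degN hn (UP2.gm hw (UN.o1 hk hn) hn)).and (UP.degN hn (UP2.gm hw (UN.o2 hk hn) hn)))))

theorem UP3.A3 {w : W → W} {B k n h : W → ℕ} (hw : PolyTime w) (hB : UN B) (hk : UN k)
    (hn : UN n) (hh : UN h) : UP3 (fun x => WLX.A3 (w x) (B x) (k x) (n x) (h x)) := by
  have hff : PolyTime (fun z => fstB (fstB z)) := CHR.PT.comp CHR.PT.fst CHR.PT.fst
  have hfff : PolyTime (fun z => fstB (fstB (fstB z))) := CHR.PT.comp CHR.PT.fst hff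
  have hg : UP (fun z => (sndB (fstB (fstB z))).length = 0) := UP.eqN UN.var.fst.fst (UN.const 0)
  refine ((hg.and (UP.gm (CHR.PT.comp hw hfff) (UN.o1 (hk.comp hfff) (hn.comp hfff)) (hn.comp hfff)
    UN.var.fst UN.var)).or (hg.not.and (UP.bm (hB.comp hfff) (hn.comp hfff) (hh.comp hfff)
    UN.var.fst UN.var))).congr fun z => ?_
  by_cases h0 : (sndB (fstB (fstB z))).length = 0
  · simp [WLX.A3, h0]
  · simp [WLX.A3, h0]

theorem UP.WD {w : W → W} {B k n : W → ℕ} (hw : PolyTime w) (hB : UN B) (hk : UN k) (hn : UN n) :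
    UP (fun x => WLX.WD (w x) (B x) (k x) (n x)) := by
  have hff : PolyTime (fun z => fstB (fstB z)) := CHR.PT.comp CHR.PT.fst CHR.PT.fst
  refine (UP.le (UN.const 1) hk).and ((UP.lt (UN.const 0) hn).and (UP.and ?_ (UP.and ?_ ?_)))
  · exact UP.eqS hw (CHR.PT.append (PT.natCode hk) (PT.grCode hw (UN.o1 hk hn) hn))
  · exact UP.simpleN hn (UP2.gm hw (UN.o1 hk hn) hn)
  · refine UP.ex (P := fun x k' => 1 ≤ k' ∧ k' ≤ k x ∧ ∀ h < WLX.pw (B x) 2 (n x * n x),
      WLX.simpleN (n x) (WLX.bm (B x) (n x) h) →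
      ((k' = 1 ∧ WLX.CDec (n x) (WLX.A3 (w x) (B x) (k x) (n x) h)) ∨
        (k' ≠ 1 ∧ WLX.JDec (B x) (n x) k' (WLX.A3 (w x) (B x) (k x) (n x) h))) →
        WLX.isoN (B x) (n x) (WLX.gm (w x) (WLX.o1 (k x) (n x)) (n x)) (WLX.bm (B x) (n x) h))
      (hn.add (UN.const 3)) ?_
    refine (UP.le (UN.const 1) UN.var).and ((UP.le UN.var hk.fst).and ?_)
    refine UP.all (P := fun z h => WLX.simpleN (n (fstB z)) (WLX.bm (B (fstB z)) (n (fstB z)) h) →
      (((sndB z).length = 1 ∧ WLX.CDec (n (fstB z)) (WLX.A3 (w (fstB z)) (B (fstB z)) (k (fstB z)) (n (fstB z)) h)) ∨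
        ((sndB z).length ≠ 1 ∧ WLX.JDec (B (fstB z)) (n (fstB z)) (sndB z).length
          (WLX.A3 (w (fstB z)) (B (fstB z)) (k (fstB z)) (n (fstB z)) h))) →
        WLX.isoN (B (fstB z)) (n (fstB z)) (WLX.gm (w (fstB z)) (WLX.o1 (k (fstB z)) (n (fstB z))) (n (fstB z)))
          (WLX.bm (B (fstB z)) (n (fstB z)) h))
      (UN.pw hB.fst (UN.const 2) (hn.fst.mul hn.fst)) ?_
    have hw' : PolyTime (fun z => w (fstB (fstB z))) := CHR.PT.comp hw hff
    have hB' := hB.comp hff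
    have hk' := hk.comp hff
    have hn' := hn.comp hff
    have hbm : UP2 (fun z => WLX.bm (B (fstB (fstB z))) (n (fstB (fstB z))) (sndB z).length) :=
      UP.bm (hB'.comp hff) (hn'.comp hff) (UN.var.comp hff) UN.var.fst UN.var
    have hA3 := UP3.A3 hw' hB' hk' hn' UN.var
    refine (UP.simpleN hn' hbm).imp (UP.imp (UP.or (UP.and ?_ ?_) (UP.and ?_ ?_)) ?_)
    · exact UP.eqN UN.var.fst (UN.const 1)
    · exact UP.CDec hn' hA3
    · exact (UP.eqN UN.var.fst (UN.const 1)).not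
    · exact UP.JDec hB' hn' UN.var.fst hA3
    · exact UP.isoN hB' hn' (UP2.gm hw' (UN.o1 hk' hn') hn') hbm

end Crest.Agent.WLX
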