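import Crest.Agent.WLX.Codes
import Crest.Agent.WLX.MemU

/-!
# Row 290, module A: automation for `UN`, `UP`, `PolyTime` goals

`up_auto [t₁, t₂, ...]`: repeatedly applies the closure lemmas; `tᵢ` are extra terms which are
tried by `apply` (for instance `UN.comp hn` for `hn : UN n`, `UPb.app hA` for `hA : UPb A`).
-/

set_option autoImplicit false

namespace Crest.Agent.WLX

open Crest.Agent.CHR Crest.CountHier

theorem UN.iteI {p : W → Prop} {inst : ∀ w, Decidable (p w)} {f g : W → ℕ} (hp : UP p)
    (hf : UN f) (hg : UN g) : UN (fun w => @_root_.ite ℕ (p w) (inst w) (f w) (g w)) := by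
  refine (UN.ite hp hf hg).congr fun w => ?_
  by_cases h : p w <;> simp [h]

theorem UP.iteI {p q r : W → Prop} {inst : ∀ w, Decidable (p w)} (hp : UP p)
    (hf : UP q) (hg : UP r) : UP (fun w => @ite Prop (p w) (inst w) (q w) (r w)) := by
  refine ((hp.and hf).or (hp.not.and hg)).congr fun w => ?_
  by_cases h : p w <;> simp [h]

theorem UN.cardI {N : W → ℕ} {P : W → ℕ → Prop} {inst : ∀ w, DecidablePred (P w)} (hN : UN N)
    (hP : UP (fun z => P (fstB z) (sndB z).length)) :
    UN (fun w => (@Finset.filter ℕ (P w) (inst w) (Finset.range (N w))).card) := by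
  refine (UN.card hN hP).congr fun w => ?_
  congr

theorem UP.gt {f g : W → ℕ} (hf : UN f) (hg : UN g) : UP (fun w => f w > g w) := UP.lt hg hf
theorem UP.ge {f g : W → ℕ} (hf : UN f) (hg : UN g) : UP (fun w => f w ≥ g w) := UP.le hg hf
theorem UP.ne {f g : W → ℕ} (hf : UN f) (hg : UN g) : UP (fun w => f w ≠ g w) :=
  (UP.eqN hf hg).not
theorem UP.exLe {N : W → ℕ} {P : W → ℕ → Prop} (hN : UN N)
    (hP : UP (fun z => P (fstB z) (sndB z).length)) : UP (fun w => ∃ i ≤ N w, P w i) :=
  (UP.ex (hN.add (UN.const 1)) hP).congr fun w =>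
    ⟨fun ⟨i, h, h'⟩ => ⟨i, by omega, h'⟩, fun ⟨i, h, h'⟩ => ⟨i, by omega, h'⟩⟩
theorem UP.allLe {N : W → ℕ} {P : W → ℕ → Prop} (hN : UN N)
    (hP : UP (fun z => P (fstB z) (sndB z).length)) : UP (fun w => ∀ i ≤ N w, P w i) :=
  (UP.all (hN.add (UN.const 1)) hP).congr fun w =>
    ⟨fun h i h' => h i (by omega), fun h i h' => h i (by omega)⟩

/-- closure under the basic operations -/
syntax "up_auto" " [" term,* "]" : tactic

macro_rules
  | `(tactic| up_auto [$ts,*]) => do
    let ts := ts.getElems
    `(tactic| repeat' (first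
      | assumption
      $[| apply $ts]*
      | exact PT.id
      | apply PT.comp PT.fst
      | apply PT.comp PT.snd
      | exact UN.const _
      | exact UP.const _
      | apply UN.len
      | apply UN.add
      | apply UN.mul
      | apply UN.sub
      | apply UN.div
      | apply UN.mod
      | apply UN.min
      | apply UN.max
      | apply UN.iteI
      | apply UP.all
      | apply UP.allLe
      | apply UP.ex
      | apply UP.exLe
      | apply UP.and
      | apply UP.or
      | apply UP.not
      | apply UP.iff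
      | apply UP.le
      | apply UP.lt
      | apply UP.ge
      | apply UP.gt
      | apply UP.eqN
      | apply UP.ne
      | apply UP.imp
      | apply UP.bit
      | apply UP.iteI
      | apply UN.cardI
      | apply PT.pair
      | apply PT.append))

section test

example {n m : W → ℕ} (hn : UN n) (hm : UN m) : UN (fun z => n (fstB (fstB z)) + 3 * m z) := by
  up_auto [UN.comp hn, UN.comp hm]

example {P n : W → ℕ} {A : W → ℕ → ℕ → Prop} (hP : UN P) (hn : UN n) (hA : UP2 A) :
    UP (fun x => WLX.connN (P x) (n x) (A x)) := by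
  unfold WLX.connN
  up_auto [UN.comp hn, UN.comp hP, UP2.app hA, UN.pw]

example {P n : W → ℕ} {A B : W → ℕ → ℕ → Prop} (hP : UN P) (hn : UN n) (hA : UP2 A)
    (hB : UP2 B) : UP (fun x => WLX.isoN (P x) (n x) (A x) (B x)) := by
  unfold WLX.isoN
  up_auto [UN.comp hn, UN.comp hP, UP2.app hA, UP2.app hB, UN.pw, UN.dig]

end test

end Crest.Agent.WLX
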