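import Crest.Agent.WLH.Inp
import Crest.Agent.WLX.Auto

/-!
# Row 290: codes of table machines, accessor functions computable in polynomial time
-/

set_option autoImplicit false

namespace Crest.Agent.WLX

open Crest.Agent.CHR Crest.CountHier Crest.Agent.WLM Crest.Agent.WLH

/-- field `f` of the instruction `p` -/
def fldT (T : Tab) (f p : ℕ) : ℕ :=
  if f = 0 then kd T p else if f = 1 then rg T p else if f = 2 then bt T p
  else if f = 3 then l0 T p else if f = 4 then l1 T p else l2 T p

/-- code of a table -/
def tc (T : Tab) : W := pairBits (un T.length)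
  ((List.range (T.length * 6 * (T.length + 6))).map fun i =>
    decide (i % (T.length + 6) < fldT T (i / (T.length + 6) % 6) (i / (T.length + 6) / 6)))

/-- field `f` of the instruction `p` of the table with code `c` -/
def accC (c : W) (f p : ℕ) : ℕ :=
  ((Finset.range ((fstB c).length + 6)).filter fun v => p < (fstB c).length ∧
    (sndB c).getD ((p * 6 + f) * ((fstB c).length + 6) + v) false = true).card

/-- field `f` of the instruction `p` of `inpT z T`, `c` the code of `T` -/
def accZ (z c : W) (f p : ℕ) : ℕ :=
  if p < z.length then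
    (if f = 0 then 1 else if f = 1 then 0
      else if f = 2 then (if z.reverse.getD p false = true then 1 else 0)
      else if f = 3 then p + 1 else 0)
  else
    (if f < 3 then accC c f (p - z.length)
      else if f = 3 then
        (if accC c 0 (p - z.length) = 0 then 0 else accC c 3 (p - z.length) + z.length)
      else (if accC c 0 (p - z.length) = 2 then accC c f (p - z.length) + z.length else 0))

theorem fldT_ge {T : Tab} {f p : ℕ} (h : T.length ≤ p) : fldT T f p = 0 := by
  have h1 : T[p]? = none := List.getElem?_eq_none h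
  unfold fldT
  simp [kd, rg, bt, l0, l1, l2, h1]

theorem fldT_lt {T : Tab} (hT : T.Ok) (f p : ℕ) : fldT T f p < T.length + 6 := by
  have h1 := rg_lt hT p
  have h2 := l0_lt hT p
  have h3 := l1_lt hT p
  have h4 := l2_lt hT p
  unfold MM at h1 h2 h3 h4
  have h5 : kd T p ≤ 2 := by unfold kd; split <;> omega
  have h6 : bt T p ≤ 1 := by unfold bt; split <;> omega
  unfold fldT
  split_ifs <;> omega

theorem accC_eq {T : Tab} (hT : T.Ok) {f : ℕ} (hf : f < 6) (p : ℕ) :
    accC (tc T) f p = fldT T f p := by
  unfold accC tc
  rw [fstB_pairBits, sndB_pairBits, un_length]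
  rcases Nat.lt_or_ge p T.length with hp | hp
  · have hlt := fldT_lt hT f p
    have key : ((Finset.range (T.length + 6)).filter fun v => p < T.length ∧
        ((List.range (T.length * 6 * (T.length + 6))).map fun i =>
          decide (i % (T.length + 6) < fldT T (i / (T.length + 6) % 6) (i / (T.length + 6) / 6))).getD
          ((p * 6 + f) * (T.length + 6) + v) false = true) = Finset.range (fldT T f p) := by
      ext v
      rw [Finset.mem_filter, Finset.mem_range, Finset.mem_range]
      constructor
      · rintro ⟨hv, -, h⟩
        have hR : 0 < T.length + 6 := by omega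
        have e1 : ((p * 6 + f) * (T.length + 6) + v) / (T.length + 6) = p * 6 + f := by
          rw [Nat.mul_comm, Nat.mul_add_div hR, Nat.div_eq_of_lt hv, Nat.add_zero]
        have e2 : ((p * 6 + f) * (T.length + 6) + v) % (T.length + 6) = v := by
          rw [Nat.mul_comm, Nat.mul_add_mod, Nat.mod_eq_of_lt hv]
        have hidx : (p * 6 + f) * (T.length + 6) + v < T.length * 6 * (T.length + 6) := by
          calc (p * 6 + f) * (T.length + 6) + v < (p * 6 + f) * (T.length + 6) + (T.length + 6) := by
                omega
            _ = (p * 6 + f + 1) * (T.length + 6) := by ring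
            _ ≤ T.length * 6 * (T.length + 6) := Nat.mul_le_mul_right _ (by omega)
        rw [List.getD_eq_getElem?_getD, List.getElem?_map, List.getElem?_range hidx] at h
        simp only [Option.map_some, Option.getD_some, decide_eq_true_eq] at h
        rw [e1, e2, show (p * 6 + f) % 6 = f by omega, show (p * 6 + f) / 6 = p by omega] at h
        exact h
      · intro hv
        have hv' : v < T.length + 6 := by omega
        have hR : 0 < T.length + 6 := by omega
        have e1 : ((p * 6 + f) * (T.length + 6) + v) / (T.length + 6) = p * 6 + f := by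
          rw [Nat.mul_comm, Nat.mul_add_div hR, Nat.div_eq_of_lt hv', Nat.add_zero]
        have e2 : ((p * 6 + f) * (T.length + 6) + v) % (T.length + 6) = v := by
          rw [Nat.mul_comm, Nat.mul_add_mod, Nat.mod_eq_of_lt hv']
        have hidx : (p * 6 + f) * (T.length + 6) + v < T.length * 6 * (T.length + 6) := by
          calc (p * 6 + f) * (T.length + 6) + v < (p * 6 + f) * (T.length + 6) + (T.length + 6) := by
                omega
            _ = (p * 6 + f + 1) * (T.length + 6) := by ring
            _ ≤ T.length * 6 * (T.length + 6) := Nat.mul_le_mul_right _ (by omega)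
        refine ⟨hv', hp, ?_⟩
        rw [List.getD_eq_getElem?_getD, List.getElem?_map, List.getElem?_range hidx]
        simp only [Option.map_some, Option.getD_some, decide_eq_true_eq]
        rw [e1, e2, show (p * 6 + f) % 6 = f by omega, show (p * 6 + f) / 6 = p by omega]
        exact hv
    rw [key, Finset.card_range]
  · rw [fldT_ge hp]
    rw [Finset.card_eq_zero, Finset.filter_eq_empty_iff]
    intro v _ h
    omega

theorem accZ_eq (z : W) {T : Tab} (hT : T.Ok) {f : ℕ} (hf : f < 6) (p : ℕ) :
    accZ z (tc T) f p = fldT (inpT z T) f p := by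
  unfold accZ
  simp only [accC_eq hT (show 0 < 6 by norm_num), accC_eq hT (show 3 < 6 by norm_num),
    accC_eq hT hf]
  rcases Nat.lt_or_ge p z.length with hp | hp
  · rw [if_pos hp]
    have h1 := inpT_get_left (T := T) hp
    unfold fldT
    simp only [kd, rg, bt, l0, l1, l2, h1]
    cases hb : z.reverse.getD p false <;> simp
  · rw [if_neg (by omega)]
    obtain ⟨q, rfl⟩ := Nat.exists_eq_add_of_le' hp
    have h1 := inpT_get_right z T q
    rw [Nat.add_sub_cancel]
    unfold fldT
    rcases h : T[q]? with _ | (⟨r, b, l⟩ | ⟨r, le, lf, lt⟩)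
    · rw [h] at h1
      simp [kd, rg, bt, l0, l1, l2, h1, h]
    · rw [h] at h1
      simp only [Option.map_some, TI.shift] at h1
      cases b <;> simp only [kd, rg, bt, l0, l1, l2, h1, h] <;> interval_cases f <;> simp
    · rw [h] at h1
      simp only [Option.map_some, TI.shift] at h1
      simp only [kd, rg, bt, l0, l1, l2, h1, h]
      interval_cases f <;> simp

theorem UN.accC {c : W → W} {p : W → ℕ} (hc : PolyTime c) (hp : UN p) (f : ℕ) :
    UN (fun w => WLX.accC (c w) f (p w)) := by
  have hc1 : PolyTime (fun z => fstB (c (fstB z))) := CHR.PT.comp CHR.PT.fst (CHR.PT.comp hc CHR.PT.fst)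
  have hc2 : PolyTime (fun z => sndB (c (fstB z))) := CHR.PT.comp CHR.PT.snd (CHR.PT.comp hc CHR.PT.fst)
  refine UN.cardI (N := fun w => (fstB (c w)).length + 6)
    (P := fun w v => p w < (fstB (c w)).length ∧
      (sndB (c w)).getD ((p w * 6 + f) * ((fstB (c w)).length + 6) + v) false = true)
    ((UN.len (CHR.PT.comp CHR.PT.fst hc)).add (UN.const 6)) ?_
  exact (UP.lt hp.fst (UN.len hc1)).and (UP.bit hc2
    ((((hp.fst.mul (UN.const 6)).add (UN.const f)).mul ((UN.len hc1).add (UN.const 6))).add UN.var))

theorem UN.accZ {z c : W → W} {p : W → ℕ} (hz : PolyTime z) (hc : PolyTime c) (hp : UN p) (f : ℕ) :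
    UN (fun w => WLX.accZ (z w) (c w) f (p w)) := by
  have hzl : UN (fun w => (z w).length) := UN.len hz
  have hq : UN (fun w => p w - (z w).length) := hp.sub hzl
  have h0 := UN.accC hc hq 0
  have h3 := UN.accC hc hq 3
  have hf := UN.accC hc hq f
  unfold WLX.accZ
  refine UN.iteI (UP.lt hp hzl) (UN.iteI (UP.const _) (UN.const _) (UN.iteI (UP.const _) (UN.const _)
    (UN.iteI (UP.const _) (UN.iteI (UP.bit (PT.reverse hz) hp) (UN.const _) (UN.const _))
      (UN.iteI (UP.const _) (hp.add (UN.const 1)) (UN.const _))))) ?_
  exact UN.iteI (UP.const _) hf (UN.iteI (UP.const _)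
    (UN.iteI (UP.eqN h0 (UN.const 0)) (UN.const _) (h3.add hzl))
    (UN.iteI (UP.eqN h0 (UN.const 2)) (hf.add hzl) (UN.const _)))

/-- length of the table `inpT z T`, `c` the code of `T` -/
def lenZ (z c : W) : ℕ := (fstB c).length + z.length

theorem lenZ_eq (z : W) (T : Tab) : lenZ z (tc T) = (inpT z T).length := by
  unfold lenZ tc
  rw [fstB_pairBits, un_length, inpT_length]

theorem UN.lenZ {z c : W → W} (hz : PolyTime z) (hc : PolyTime c) :
    UN (fun w => WLX.lenZ (z w) (c w)) :=
  (UN.len (CHR.PT.comp CHR.PT.fst hc)).add (UN.len hz)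

end Crest.Agent.WLX
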