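import Crest.Agent.WLX.UNCode

/-!
# Row 290, module A: graphs on code numbers, exact numbering by rank

A family of graphs `V w` whose vertices have code numbers `< M w` (valid codes: a `UP` predicate,
adjacency on codes: a `UP` predicate) is turned into adjacency matrices on `Fin (card (V w))`,
computable in polynomial time.  Vertex number = number of smaller valid codes.
-/

set_option autoImplicit false

namespace Crest.Agent.WLX

open Crest.Agent.CHR Crest.CountHier Crest.WLRefine Finset Classical

/-- number of valid codes below `M` -/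
noncomputable def cntV (val : ℕ → Prop) (M : ℕ) : ℕ := ((range M).filter fun c => val c).card

/-- adjacency of the vertices number `u`, `v` -/
def resG (M : ℕ) (val : ℕ → Prop) (A : ℕ → ℕ → Prop) (u v : ℕ) : Prop :=
  ∃ c < M, ∃ d < M, (val c ∧ cntV val c = u) ∧ (val d ∧ cntV val d = v) ∧ A c d

theorem cntV_mono (val : ℕ → Prop) {a b : ℕ} (h : a ≤ b) : cntV val a ≤ cntV val b := by
  unfold cntV
  exact card_le_card (filter_subset_filter _ (range_subset_range.2 h))

theorem cntV_lt {val : ℕ → Prop} {a b : ℕ} (ha : val a) (h : a < b) :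
    cntV val a < cntV val b := by
  unfold cntV
  refine card_lt_card ?_
  rw [ssubset_iff_of_subset (filter_subset_filter _ (range_subset_range.2 h.le))]
  exact ⟨a, by simp [ha, h], by simp⟩

theorem cntV_inj {val : ℕ → Prop} {a b : ℕ} (ha : val a) (hb : val b)
    (h : cntV val a = cntV val b) : a = b := by
  rcases lt_trichotomy a b with h1 | h1 | h1
  · have := cntV_lt ha h1; omega
  · exact h1
  · have := cntV_lt hb h1; omega

/-- the numbering is a bijection -/
theorem cntV_equiv (val : ℕ → Prop) (M : ℕ) :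
    ∃ e : Fin (cntV val M) ≃ {c // c < M ∧ val c}, ∀ u : Fin (cntV val M), cntV val (e u).1 = u := by
  let f : {c // c < M ∧ val c} → Fin (cntV val M) := fun c => ⟨cntV val c.1, cntV_lt c.2.2 c.2.1⟩
  have hinj : Function.Injective f := by
    intro a b h
    have h1 : cntV val a.1 = cntV val b.1 := congrArg Fin.val h
    exact Subtype.ext (cntV_inj a.2.2 b.2.2 h1)
  have hfin : Fintype {c // c < M ∧ val c} :=
    Fintype.subtype ((range M).filter fun c => val c) (by simp)
  have hcard : Fintype.card {c // c < M ∧ val c} = Fintype.card (Fin (cntV val M)) := by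
    rw [Fintype.card_fin]
    exact Fintype.card_of_subtype _ (by simp)
  have hbij : Function.Bijective f := (Fintype.bijective_iff_injective_and_card f).2 ⟨hinj, hcard⟩
  refine ⟨(Equiv.ofBijective f hbij).symm, fun u => ?_⟩
  have h := (Equiv.ofBijective f hbij).apply_symm_apply u
  exact congrArg Fin.val h

theorem resG_iff {val : ℕ → Prop} {M : ℕ} (e : Fin (cntV val M) ≃ {c // c < M ∧ val c})
    (he : ∀ u : Fin (cntV val M), cntV val (e u).1 = u) (A : ℕ → ℕ → Prop)
    (u v : Fin (cntV val M)) : resG M val A u v ↔ A (e u).1 (e v).1 := by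
  constructor
  · rintro ⟨c, hc, d, hd, ⟨hvc, hcu⟩, ⟨hvd, hdv⟩, h⟩
    have h1 : (e u).1 = c := cntV_inj (e u).2.2 hvc (by rw [he u, hcu])
    have h2 : (e v).1 = d := cntV_inj (e v).2.2 hvd (by rw [he v, hdv])
    rw [h1, h2]; exact h
  · intro h
    exact ⟨_, (e u).2.1, _, (e v).2.1, ⟨(e u).2.2, he u⟩, ⟨(e v).2.2, he v⟩, h⟩

/-- decidability of a binary number predicate in the context `pu (pu w u) v` -/
def UPb (A : W → ℕ → ℕ → Prop) : Prop :=
  UP (fun z => A (fstB (fstB z)) (sndB (fstB z)).length (sndB z).length)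

theorem UPb.app {A : W → ℕ → ℕ → Prop} (hA : UPb A) {f : W → W} {u v : W → ℕ}
    (hf : PolyTime f) (hu : UN u) (hv : UN v) : UP (fun z => A (f z) (u z) (v z)) := by
  have h : PolyTime (fun z => pu (pu (f z) (u z)) (v z)) := CHR.PT.pair (CHR.PT.pair hf hu) hv
  refine (UP.comp hA h).congr fun z => ?_
  simp

/-- decidability of a number predicate in the context `pu w u` -/
def UPa (A : W → ℕ → Prop) : Prop := UP (fun z => A (fstB z) (sndB z).length)

theorem UPa.app {A : W → ℕ → Prop} (hA : UPa A) {f : W → W} {u : W → ℕ}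
    (hf : PolyTime f) (hu : UN u) : UP (fun z => A (f z) (u z)) := by
  have h : PolyTime (fun z => pu (f z) (u z)) := CHR.PT.pair hf hu
  refine (UP.comp hA h).congr fun z => ?_
  simp

theorem UN.cntV {val : W → ℕ → Prop} (hv : UPa val) {f : W → W} {M : W → ℕ}
    (hf : PolyTime f) (hM : UN M) : UN (fun z => WLX.cntV (val (f z)) (M z)) := by
  refine UN.card (P := fun z c => val (f z) c) hM ?_
  exact hv.app (CHR.PT.comp hf CHR.PT.fst) UN.var

theorem UPb.resG {M : W → ℕ} {val : W → ℕ → Prop} {A : W → ℕ → ℕ → Prop} (hM : UN M)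
    (hv : UPa val) (hA : UPb A) : UPb (fun w => WLX.resG (M w) (val w) (A w)) := by
  have hff : PolyTime (fun z => fstB (fstB z)) := CHR.PT.comp CHR.PT.fst CHR.PT.fst
  have hfff : PolyTime (fun z => fstB (fstB (fstB z))) := CHR.PT.comp CHR.PT.fst hff
  have hffff : PolyTime (fun z => fstB (fstB (fstB (fstB z)))) := CHR.PT.comp CHR.PT.fst hfff
  refine UP.ex (N := fun z => M (fstB (fstB z))) (P := fun z c => ∃ d < M (fstB (fstB z)),
    (val (fstB (fstB z)) c ∧ WLX.cntV (val (fstB (fstB z))) c = (sndB (fstB z)).length) ∧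
    (val (fstB (fstB z)) d ∧ WLX.cntV (val (fstB (fstB z))) d = (sndB z).length) ∧
      A (fstB (fstB z)) c d) (hM.comp hff) ?_
  refine UP.ex (N := fun z => M (fstB (fstB (fstB z)))) (P := fun z d =>
    (val (fstB (fstB (fstB z))) (sndB z).length ∧
      WLX.cntV (val (fstB (fstB (fstB z)))) (sndB z).length = (sndB (fstB (fstB z))).length) ∧
    (val (fstB (fstB (fstB z))) d ∧
      WLX.cntV (val (fstB (fstB (fstB z)))) d = (sndB (fstB z)).length) ∧
      A (fstB (fstB (fstB z))) (sndB z).length d) (hM.comp hfff) ?_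
  have hc : UN (fun z => (sndB (fstB z)).length) := UN.var.fst
  have hd : UN (fun z => (sndB z).length) := UN.var
  exact ((hv.app hffff hc).and (UP.eqN (UN.cntV hv hffff hc) UN.var.fst.fst.fst)).and
    (((hv.app hffff hd).and (UP.eqN (UN.cntV hv hffff hd) UN.var.fst.fst)).and
      (hA.app hffff hc hd))

/-- MAIN LEMMA: matrices of a family of graphs given by codes. -/
theorem PT.graphCode {V : W → Type} [∀ w, Fintype (V w)] (code : ∀ w, V w → ℕ)
    (hinj : ∀ w, Function.Injective (code w)) {M : W → ℕ} (hM : UN M)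
    (hlt : ∀ w v, code w v < M w) {val : W → ℕ → Prop} (hval : UPa val)
    (hv : ∀ w c, val w c ↔ ∃ v, code w v = c) :
    UN (fun w => Fintype.card (V w)) ∧
    ∀ (A : W → ℕ → ℕ → Prop) (adj : ∀ w, V w → V w → Bool), UPb A →
      (∀ w u v, A w (code w u) (code w v) ↔ adj w u v = true) →
      ∃ G : ∀ w, Fin (Fintype.card (V w)) → Fin (Fintype.card (V w)) → Bool,
        PolyTime (fun w => adjMatrixCode (G w)) ∧
        (∃ A' : W → ℕ → ℕ → Prop, UPb A' ∧
          ∀ w (u v : Fin (Fintype.card (V w))), G w u v = true ↔ A' w u v) ∧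
        ∀ w, ∃ e : Fin (Fintype.card (V w)) ≃ V w, ∀ u v, G w u v = adj w (e u) (e v) := by
  have hVe : ∀ w, ∃ e : V w ≃ {c // c < M w ∧ val w c}, ∀ v, (e v).1 = code w v := by
    intro w
    let g : V w → {c // c < M w ∧ val w c} := fun v => ⟨code w v, hlt w v, (hv w _).2 ⟨v, rfl⟩⟩
    have hg : Function.Bijective g := by
      constructor
      · intro a b h
        exact hinj w (congrArg Subtype.val h)
      · rintro ⟨c, hc, hvc⟩
        obtain ⟨v, hv'⟩ := (hv w c).1 hvc
        exact ⟨v, Subtype.ext hv'⟩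
    exact ⟨Equiv.ofBijective g hg, fun v => rfl⟩
  have hcard : ∀ w, Fintype.card (V w) = WLX.cntV (val w) (M w) := by
    intro w
    obtain ⟨e, -⟩ := hVe w
    obtain ⟨e', -⟩ := cntV_equiv (val w) (M w)
    have h := Fintype.card_congr (e.trans e'.symm)
    rwa [Fintype.card_fin] at h
  have hN : UN (fun w => Fintype.card (V w)) :=
    (UN.cntV hval CHR.PT.id hM).congr fun w => (hcard w).symm
  refine ⟨hN, fun A adj hA hadj => ?_⟩
  refine ⟨fun w u v => decide (WLX.resG (M w) (val w) (A w) u v), ?_,
    ⟨fun w => WLX.resG (M w) (val w) (A w), UPb.resG hM hval hA, fun w u v => by simp⟩, fun w => ?_⟩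
  · exact PT.adjCode (n := fun w => Fintype.card (V w))
      (A := fun w => WLX.resG (M w) (val w) (A w)) hN (UPb.resG hM hval hA)
  · obtain ⟨e, he⟩ := hVe w
    obtain ⟨e', he'⟩ := cntV_equiv (val w) (M w)
    refine ⟨(finCongr (hcard w)).trans (e'.trans e.symm), fun u v => ?_⟩
    have h1 : ∀ u : Fin (Fintype.card (V w)), code w (((finCongr (hcard w)).trans
        (e'.trans e.symm)) u) = (e' (finCongr (hcard w) u)).1 := by
      intro u
      rw [← he]
      simp
    have h2 : WLX.resG (M w) (val w) (A w) u v ↔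
        adj w (((finCongr (hcard w)).trans (e'.trans e.symm)) u)
          (((finCongr (hcard w)).trans (e'.trans e.symm)) v) = true := by
      rw [← hadj, h1, h1]
      have := resG_iff e' he' (A w) (finCongr (hcard w) u) (finCongr (hcard w) v)
      simpa using this
    by_cases h3 : WLX.resG (M w) (val w) (A w) u v
    · rw [h2.1 h3]; simpa using h3
    · have h4 : adj w (((finCongr (hcard w)).trans (e'.trans e.symm)) u)
          (((finCongr (hcard w)).trans (e'.trans e.symm)) v) = false := by
        rw [Bool.eq_false_iff]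
        exact fun h => h3 (h2.2 h)
      rw [h4]; simpa using h3

end Crest.Agent.WLX
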