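import Crest.Agent.WLX.PadA

/-!
# Row 290, module A: exponential padding

CHUNK R290-X-PAD (all lemmas of this file).
-/

set_option autoImplicit false

namespace Crest.Agent.WLX

open Crest.Agent.CHR Crest.CountHier

private theorem pad_polyBound (q : Polynomial ℕ) :
    ∃ a d : ℕ, ∀ x : ℕ, q.eval x ≤ 2 ^ a * (x + 1) ^ d := by
  induction q using Polynomial.induction_on' with
  | add p q hp hq =>
    obtain ⟨a, d, h⟩ := hp
    obtain ⟨a', d', h'⟩ := hq
    refine ⟨a + a' + 1, d + d', fun x => ?_⟩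
    have h1 := h x
    have h2 := h' x
    have e1 : (x + 1) ^ d ≤ (x + 1) ^ (d + d') :=
      Nat.pow_le_pow_right (Nat.succ_pos _) (Nat.le_add_right _ _)
    have e2 : (x + 1) ^ d' ≤ (x + 1) ^ (d + d') :=
      Nat.pow_le_pow_right (Nat.succ_pos _) (Nat.le_add_left _ _)
    have e3 : 2 ^ a ≤ 2 ^ (a + a') := Nat.pow_le_pow_right (by norm_num) (Nat.le_add_right _ _)
    have e4 : 2 ^ a' ≤ 2 ^ (a + a') := Nat.pow_le_pow_right (by norm_num) (Nat.le_add_left _ _)
    rw [Polynomial.eval_add]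
    calc p.eval x + q.eval x ≤ 2 ^ a * (x + 1) ^ d + 2 ^ a' * (x + 1) ^ d' := Nat.add_le_add h1 h2
      _ ≤ 2 ^ (a + a') * (x + 1) ^ (d + d') + 2 ^ (a + a') * (x + 1) ^ (d + d') :=
          Nat.add_le_add (Nat.mul_le_mul e3 e1) (Nat.mul_le_mul e4 e2)
      _ = 2 ^ (a + a' + 1) * (x + 1) ^ (d + d') := by ring
  | monomial k b =>
    refine ⟨b, k, fun x => ?_⟩
    rw [Polynomial.eval_monomial]
    exact Nat.mul_le_mul Nat.lt_two_pow_self.le (Nat.pow_le_pow_left (Nat.le_succ _) _)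

/-- PROOF. polynomials `q1, q2, q3` are `≤ a * (x + 1) ^ d` with one `a ≥ 1`, `d ≥ 1`. For `n ≥ 2`:
`n + 2 ≤ n ^ 2`, `2 * n + 2 + 2 ^ m ≤ 2 ^ (m + 3)` with `m = (n + 2) ^ k`, `m ≥ n`.. if `k ≥ 1`
(`k = 0`: everything is polynomial in `n`, or use `k+1` instead of `k` since
`(n+2)^k ≤ (n+2)^(k+1)`), so the left side is at most `2 ^ (C + C' * (n + 2) ^ k)`, which is `≤ 2 ^ (n ^ K)` for
`n ≥ 2` and `K` large; `n = 0, 1`: take `c` large. -/
theorem exp_bound (q1 q2 q3 : Polynomial ℕ) (k : ℕ) : ∃ K c : ℕ, ∀ n : ℕ,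
    q1.eval n * (q2.eval (2 * n + 1 + 2 ^ ((n + 2) ^ k)) + 1) +
      q3.eval (2 * n + 1 + 2 ^ ((n + 2) ^ k)) ≤ c * 2 ^ (n ^ K) + c := by
  obtain ⟨a1, d1, h1⟩ := pad_polyBound q1
  obtain ⟨a2, d2, h2⟩ := pad_polyBound q2
  obtain ⟨a3, d3, h3⟩ := pad_polyBound q3
  set a := a1 + a2 + a3 with ha
  set d := d1 + d2 + d3 with hd
  set b := 2 * a + 2 + 6 * d with hb
  -- main bound
  have main : ∀ n : ℕ, q1.eval n * (q2.eval (2 * n + 1 + 2 ^ ((n + 2) ^ k)) + 1) +
      q3.eval (2 * n + 1 + 2 ^ ((n + 2) ^ k)) ≤ 2 ^ (b * (n + 2) ^ (k + 1)) := by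
    intro n
    set m := (n + 2) ^ (k + 1) with hm
    set X := 2 * n + 1 + 2 ^ ((n + 2) ^ k) with hX
    have hm1 : n + 2 ≤ m := by
      calc n + 2 = (n + 2) ^ 1 := (pow_one _).symm
        _ ≤ (n + 2) ^ (k + 1) := Nat.pow_le_pow_right (by omega) (by omega)
    have hXm : X + 1 ≤ 2 ^ (m + 2) := by
      have e1 : 2 ^ ((n + 2) ^ k) ≤ 2 ^ m :=
        Nat.pow_le_pow_right (by norm_num) (Nat.pow_le_pow_right (by omega) (by omega))
      have e2 : m ≤ 2 ^ m := Nat.lt_two_pow_self.le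
      have e3 : 2 ^ (m + 2) = 4 * 2 ^ m := by ring
      omega
    have hnX : n ≤ X := by
      rw [hX]
      exact le_trans (by omega) (Nat.le_add_right (2 * n + 1) _)
    have hn1 : n + 1 ≤ 2 ^ (m + 2) := (Nat.succ_le_succ hnX).trans hXm
    have key : ∀ (q : Polynomial ℕ) (a' d' : ℕ), (∀ x, q.eval x ≤ 2 ^ a' * (x + 1) ^ d') →
        a' ≤ a → d' ≤ d → ∀ x, x + 1 ≤ 2 ^ (m + 2) → q.eval x ≤ 2 ^ (a + (m + 2) * d) := by
      intro q a' d' hq ha' hd' x hx
      calc q.eval x ≤ 2 ^ a' * (x + 1) ^ d' := hq x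
        _ ≤ 2 ^ a * (2 ^ (m + 2)) ^ d := by
            refine Nat.mul_le_mul (Nat.pow_le_pow_right (by norm_num) ha') ?_
            exact (Nat.pow_le_pow_left hx _).trans
              (Nat.pow_le_pow_right (by positivity) hd')
        _ = 2 ^ (a + (m + 2) * d) := by rw [← pow_mul, ← pow_add]
    have k1 := key q1 a1 d1 h1 (by omega) (by omega) n hn1
    have k2 := key q2 a2 d2 h2 (by omega) (by omega) X hXm
    have k3 := key q3 a3 d3 h3 (by omega) (by omega) X hXm
    set e := a + (m + 2) * d with he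
    have hpos : 1 ≤ 2 ^ e := Nat.one_le_two_pow
    have k4 : q1.eval n * (q2.eval X + 1) + q3.eval X ≤ 2 ^ (2 * e + 2) := by
      calc q1.eval n * (q2.eval X + 1) + q3.eval X ≤ 2 ^ e * (2 ^ e + 2 ^ e) + 2 ^ e :=
            Nat.add_le_add (Nat.mul_le_mul k1 (Nat.add_le_add k2 hpos)) k3
        _ ≤ 2 ^ e * (2 ^ e + 2 ^ e) + 2 ^ e * (2 ^ e + 2 ^ e) := by
            refine Nat.add_le_add_left ?_ _
            exact Nat.le_mul_of_pos_right _ (by positivity)
        _ = 2 ^ (2 * e + 2) := by ring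
    refine k4.trans (Nat.pow_le_pow_right (by norm_num) ?_)
    have hm2 : 1 ≤ m := by omega
    calc 2 * e + 2 = (2 * a + 2 + 4 * d) * 1 + 2 * d * m := by rw [he]; ring
      _ ≤ (2 * a + 2 + 4 * d) * m + 2 * d * m := by gcongr
      _ = b * m := by rw [hb]; ring
  refine ⟨b + 2 * (k + 1), 2 ^ (b * 3 ^ (k + 1)), fun n => (main n).trans ?_⟩
  rcases Nat.lt_or_ge n 2 with hn | hn
  · refine le_trans ?_ (Nat.le_add_left _ _)
    refine Nat.pow_le_pow_right (by norm_num) (Nat.mul_le_mul_left _ ?_)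
    exact Nat.pow_le_pow_left (by omega) _
  · have e1 : b * (n + 2) ^ (k + 1) ≤ n ^ (b + 2 * (k + 1)) := by
      have e2 : n + 2 ≤ n ^ 2 := by nlinarith
      have e3 : b ≤ n ^ b := (Nat.lt_two_pow_self.le).trans (Nat.pow_le_pow_left hn _)
      calc b * (n + 2) ^ (k + 1) ≤ n ^ b * (n ^ 2) ^ (k + 1) :=
            Nat.mul_le_mul e3 (Nat.pow_le_pow_left e2 _)
        _ = n ^ (b + 2 * (k + 1)) := by rw [← pow_mul, ← pow_add]
    calc 2 ^ (b * (n + 2) ^ (k + 1)) ≤ 2 ^ (n ^ (b + 2 * (k + 1))) :=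
          Nat.pow_le_pow_right (by norm_num) e1
      _ ≤ 2 ^ (b * 3 ^ (k + 1)) * 2 ^ (n ^ (b + 2 * (k + 1))) :=
          Nat.le_mul_of_pos_left _ (by positivity)
      _ ≤ _ := Nat.le_add_right _ _

/-- doubling of the second component: `(fun z => pairBits (fstB z) (sndB z ++ sndB z))^[m]`. -/
theorem dbl_iter (w : W) (m : ℕ) :
    (fun z => pairBits (fstB z) (sndB z ++ sndB z))^[m] (pairBits w [true]) =
      pairBits w (List.replicate (2 ^ m) true) := by
  induction m with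
  | zero => simp
  | succ m ih =>
    rw [Function.iterate_succ_apply', ih]
    simp only [fstB_pairBits, sndB_pairBits, List.replicate_append_replicate]
    congr 2
    ring

private theorem pad_length (x y : W) : (pairBits x y).length = 2 * x.length + 1 + y.length := by
  have h : (x.flatMap fun b => [true, b]).length = 2 * x.length := by
    induction x with
    | nil => simp
    | cons b x ih => simp only [List.flatMap_cons, List.length_append, ih, List.length_cons,
        List.length_nil]; ring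
  simp only [pairBits, List.length_append, List.length_cons, h]
  ring

/-- THE PADDING LEMMA.
PROOF. `iterTime` with `s z = pairBits (fstB z) (sndB z ++ sndB z)`, `i w = pairBits w [true]`,
`c w = 1 ^ ((|w| + 2) ^ k)` (`PT.unary` with the polynomial `(X + 2) ^ k`),
`M = 2 * |w| + 1 + 2 ^ ((|w| + 2) ^ k)` (`dbl_iter`); then the program of `p`; `exp_bound`;
`InEXP_of_time`. -/
theorem InEXP_of_pad (k : ℕ) {p : W → Bool} (hp : PolyTimePred p) {L : Set W}
    (h : ∀ w, w ∈ L ↔ p (pairBits w (List.replicate (2 ^ ((w.length + 2) ^ k)) true)) = true) :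
    Crest.ExpTime.InEXP L := by
  have hs : PolyTime (fun z => pairBits (fstB z) (sndB z ++ sndB z)) :=
    PT.pair PT.fst (PT.append PT.snd PT.snd)
  have hi : PolyTime (fun w => pairBits w [true]) := PT.pair PT.id (PT.const [true])
  have hc : PolyTime (fun w : W =>
      List.replicate (((Polynomial.X + 2) ^ k : Polynomial ℕ).eval w.length) true) :=
    PT.unary PT.id ((Polynomial.X + 2) ^ k)
  have hev : ∀ n : ℕ, ((Polynomial.X + 2) ^ k : Polynomial ℕ).eval n = (n + 2) ^ k := by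
    intro n
    simp
  obtain ⟨P, q1, q2, hP⟩ := iterTime hs hi hc
  obtain ⟨Q, q3, hQ⟩ := hp
  obtain ⟨K, c, hKc⟩ := exp_bound q1 q2 q3 k
  have hL : L = {w | (fun w => p (pairBits w
      (List.replicate (2 ^ ((w.length + 2) ^ k)) true))) w = true} := by
    ext w
    exact h w
  rw [hL]
  refine InEXP_of_time (P := P ;; Q) (K := K) (c := c) (fun w => ?_)
  have hlen : (pairBits w (List.replicate (2 ^ ((w.length + 2) ^ k)) true)).length =
      2 * w.length + 1 + 2 ^ ((w.length + 2) ^ k) := by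
    rw [pad_length, List.length_replicate]
  obtain ⟨t1, ht1, h1⟩ := hP (2 * w.length + 1 + 2 ^ ((w.length + 2) ^ k)) w (by
    intro j hj
    rw [List.length_replicate, hev] at hj
    rw [dbl_iter, pad_length, List.length_replicate]
    exact Nat.add_le_add_left (Nat.pow_le_pow_right (by norm_num) hj) _)
  rw [List.length_replicate, hev, dbl_iter] at h1
  obtain ⟨t2, ht2, h2⟩ := hQ (pairBits w (List.replicate (2 ^ ((w.length + 2) ^ k)) true))
  rw [hlen] at ht2
  refine ⟨t1 + t2, (Nat.add_le_add ht1 ht2).trans (hKc w.length), ?_⟩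
  exact Ev.seq h1 h2

end Crest.Agent.WLX
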