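import Crest.Agent.WLX.Mem2
import Crest.Agent.WLX.MemU
import Crest.Agent.WLX.Pad

/-!
# Row 290, module A: the three languages are in EXPTIME
-/

set_option autoImplicit false

namespace Crest.Agent.WLX

open Crest.Agent.CHR Crest.CountHier Crest.WLRefine Classical

theorem inEXP_aux {L : Set W} {D : W → ℕ → ℕ → ℕ → Prop}
    (hU : ∀ {w : W → W} {B k n : W → ℕ}, PolyTime w → UN B → UN k → UN n →
      UP (fun x => D (w x) (B x) (k x) (n x)))
    (hL : ∀ {w : W} {N B : ℕ}, 2 ^ ((w.length + 2) ^ 2) ≤ N → 2 ^ ((w.length + 2) ^ 2) ≤ B →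
      (w ∈ L ↔ ∃ k < N, ∃ n < w.length + 1, D w B k n)) : Crest.ExpTime.InEXP L := by
  have h1 : UP (fun z => ∃ k < (sndB z).length, ∃ n < (fstB z).length + 1,
      D (fstB z) (sndB z).length k n) := by
    refine UP.ex UN.var ?_
    refine UP.ex (N := fun z => (fstB (fstB z)).length + 1)
      (P := fun z n => D (fstB (fstB z)) (sndB (fstB z)).length (sndB z).length n)
      ((UN.len (CHR.PT.comp CHR.PT.fst CHR.PT.fst)).add (UN.const 1)) ?_
    exact hU (CHR.PT.comp CHR.PT.fst (CHR.PT.comp CHR.PT.fst CHR.PT.fst))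
      (UN.len (CHR.PT.comp CHR.PT.snd (CHR.PT.comp CHR.PT.fst CHR.PT.fst)))
      UN.var.fst UN.var
  obtain ⟨q, hq, hq'⟩ : ∃ q : W → Bool, PolyTimePred q ∧ ∀ z, (q z = true ↔
      ∃ k < (sndB z).length, ∃ n < (fstB z).length + 1, D (fstB z) (sndB z).length k n) :=
    ⟨_, h1, fun z => @decide_eq_true_iff _ (propDecidable _)⟩
  refine InEXP_of_pad 2 hq fun w => ?_
  rw [hq']
  simp only [fstB_pairBits, sndB_pairBits, List.length_replicate]
  exact hL le_rfl le_rfl

theorem varDim_inEXP : Crest.ExpTime.InEXP varDimEquivLang := inEXP_aux UP.VD VD_iff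

theorem subcubic_inEXP : Crest.ExpTime.InEXP subcubicVarDimEquivLang := inEXP_aux UP.SD SD_iff

theorem wlDim_inEXP : Crest.ExpTime.InEXP wlDimLeLang := inEXP_aux UP.WD WD_iff

end Crest.Agent.WLX
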