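import Crest.Agent.WLX.Hard
import Crest.Agent.WLX.Mem
import Crest.Agent.WLX.Codes
import Crest.Agent.WLD.PadCode

/-!
# Row 290: S0436 and S0437 from the core properties

`CoreV` (variable dimension, joint), `CoreSub` (connected subcubic graphs), `CoreD` (dimension).
-/

set_option autoImplicit false

namespace Crest.Agent.WLX

open Crest.Agent.CHR Crest.CountHier Crest.Agent.WLM Crest.Agent.WLD Crest.WLRefine

/-- Variable dimension: two simple graphs of the same order `m x`, dimension `k x` (unary). -/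
def CoreV : Prop :=
  ∀ T : Tab, T.Ok → ∀ d : ℕ, ∃ (k m : W → ℕ) (A A' : W → ℕ → ℕ → Prop),
    UN k ∧ UN m ∧ UPb A ∧ UPb A' ∧
    ∀ x : W, 2 ≤ k x ∧ IsSimple (mat (m x) (A x)) ∧ IsSimple (mat (m x) (A' x)) ∧
      ∃ t : ℕ, 2 ^ ((x.length + d) ^ d) ≤ t ∧
        (JEquiv (k x) (mat (m x) (A x)) (mat (m x) (A' x)) ↔ ¬ T.Acc x t)

/-- The same with connected graphs of maximum degree at most three. -/
def CoreSub : Prop :=
  ∀ T : Tab, T.Ok → ∀ d : ℕ, ∃ (k m : W → ℕ) (A A' : W → ℕ → ℕ → Prop),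
    UN k ∧ UN m ∧ UPb A ∧ UPb A' ∧
    ∀ x : W, 2 ≤ k x ∧ SimpleConnSubcubic (mat (m x) (A x)) ∧
      SimpleConnSubcubic (mat (m x) (A' x)) ∧
      ∃ t : ℕ, 2 ^ ((x.length + d) ^ d) ≤ t ∧
        (JEquiv (k x) (mat (m x) (A x)) (mat (m x) (A' x)) ↔ ¬ T.Acc x t)

/-- Weisfeiler-Leman dimension: acceptance iff some dimension `≤ k x` identifies the graph. -/
def CoreD : Prop :=
  ∀ T : Tab, T.Ok → ∀ d : ℕ, ∃ (k m : W → ℕ) (A : W → ℕ → ℕ → Prop),
    UN k ∧ UN m ∧ UPb A ∧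
    ∀ x : W, 1 ≤ k x ∧ 0 < m x ∧ IsSimple (mat (m x) (A x)) ∧
      ∃ t : ℕ, 2 ^ ((x.length + d) ^ d) ≤ t ∧
        ((∃ k', 1 ≤ k' ∧ k' ≤ k x ∧ Identifies k' (mat (m x) (A x))) ↔ T.Acc x t)

theorem natCode_append_inj {a b : ℕ} {R S : W}
    (h : Crest.Enc.natCode a ++ R = Crest.Enc.natCode b ++ S) : a = b ∧ R = S := by
  rw [natCode_append, natCode_append] at h
  have h1 := congrArg fstB h
  have h2 := congrArg sndB h
  rw [fstB_pairBits, fstB_pairBits] at h1
  rw [sndB_pairBits, sndB_pairBits] at h2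
  have h3 : a = b := by
    have := congrArg val h1
    simpa using this
  exact ⟨h3, (List.cons.inj h2).2⟩

theorem adj_inj {n m : ℕ} {G : Fin n → Fin n → Bool} {H : Fin m → Fin m → Bool}
    (h : adjMatrixCode G = adjMatrixCode H) : ∃ e : n = m, (e ▸ G) = H := by
  have h' : adjMatrixCode G ++ [] = adjMatrixCode H ++ [] := by simpa using h
  obtain ⟨e, h1, -⟩ := adjMatrixCode_append_inj h'
  exact ⟨e, h1⟩

theorem varDim_mem {k n m : ℕ} {G : Fin n → Fin n → Bool} {H : Fin m → Fin m → Bool}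
    (hk : 2 ≤ k) (hG : IsSimple G) (hH : IsSimple H) :
    Crest.Enc.natCode k ++ adjMatrixCode G ++ adjMatrixCode H ∈ varDimEquivLang ↔
      JEquiv k G H := by
  constructor
  · rintro ⟨k', n', m', G', H', -, -, -, hE, he⟩
    rw [List.append_assoc, List.append_assoc] at he
    obtain ⟨rfl, he2⟩ := natCode_append_inj he
    obtain ⟨e1, h1, h2⟩ := adjMatrixCode_append_inj he2
    subst e1
    simp only at h1
    subst h1
    obtain ⟨e2, h4⟩ := adj_inj h2
    subst e2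
    simp only at h4
    subst h4
    exact hE
  · intro h
    exact ⟨k, n, m, G, H, hk, hG, hH, h, rfl⟩

theorem subcubic_mem {k n : ℕ} {G H : Fin n → Fin n → Bool}
    (hk : 2 ≤ k) (hG : SimpleConnSubcubic G) (hH : SimpleConnSubcubic H) :
    Crest.Enc.natCode k ++ adjMatrixCode G ++ adjMatrixCode H ∈ subcubicVarDimEquivLang ↔
      JEquiv k G H := by
  constructor
  · rintro ⟨k', n', G', H', -, -, -, -, hE, he⟩
    rw [List.append_assoc, List.append_assoc] at he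
    obtain ⟨rfl, he2⟩ := natCode_append_inj he
    obtain ⟨e1, h1, h2⟩ := adjMatrixCode_append_inj he2
    subst e1
    simp only at h1
    subst h1
    obtain ⟨e2, h4⟩ := adj_inj h2
    simp only at h4
    subst h4
    exact hE
  · intro h
    obtain ⟨v⟩ := hG.2.1.nonempty
    exact ⟨k, n, G, H, hk, v.pos, hG, hH, h, rfl⟩

theorem wlDim_mem {k n : ℕ} {G : Fin n → Fin n → Bool}
    (hk : 1 ≤ k) (hn : 0 < n) (hG : IsSimple G) :
    Crest.Enc.natCode k ++ adjMatrixCode G ∈ wlDimLeLang ↔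
      ∃ k', 1 ≤ k' ∧ k' ≤ k ∧ Identifies k' G := by
  constructor
  · rintro ⟨k', n', G', -, -, -, hE, he⟩
    obtain ⟨rfl, he2⟩ := natCode_append_inj he
    obtain ⟨e1, h1⟩ := adj_inj he2
    subst e1
    simp only at h1
    subst h1
    exact hE
  · intro h
    exact ⟨k, n, G, hk, hn, hG, h, rfl⟩

theorem varDim_hard (h : CoreV) : HardNeg varDimEquivLang := by
  intro T hT d
  obtain ⟨k, m, A, A', hk, hm, hA, hA', hx⟩ := h T hT d
  refine ⟨fun x => Crest.Enc.natCode (k x) ++ adjMatrixCode (mat (m x) (A x)) ++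
    adjMatrixCode (mat (m x) (A' x)), ?_, fun x => ?_⟩
  · exact CHR.PT.append (CHR.PT.append (PT.natCode hk) (PT.adjCode hm hA)) (PT.adjCode hm hA')
  · obtain ⟨h2, h3, h4, t, ht, h5⟩ := hx x
    exact ⟨t, ht, (varDim_mem h2 h3 h4).trans h5⟩

theorem subcubic_hard (h : CoreSub) : HardNeg subcubicVarDimEquivLang := by
  intro T hT d
  obtain ⟨k, m, A, A', hk, hm, hA, hA', hx⟩ := h T hT d
  refine ⟨fun x => Crest.Enc.natCode (k x) ++ adjMatrixCode (mat (m x) (A x)) ++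
    adjMatrixCode (mat (m x) (A' x)), ?_, fun x => ?_⟩
  · exact CHR.PT.append (CHR.PT.append (PT.natCode hk) (PT.adjCode hm hA)) (PT.adjCode hm hA')
  · obtain ⟨h2, h3, h4, t, ht, h5⟩ := hx x
    exact ⟨t, ht, (subcubic_mem h2 h3 h4).trans h5⟩

theorem wlDim_hard (h : CoreD) : HardPos wlDimLeLang := by
  intro T hT d
  obtain ⟨k, m, A, hk, hm, hA, hx⟩ := h T hT d
  refine ⟨fun x => Crest.Enc.natCode (k x) ++ adjMatrixCode (mat (m x) (A x)), ?_, fun x => ?_⟩
  · exact CHR.PT.append (PT.natCode hk) (PT.adjCode hm hA)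
  · obtain ⟨h2, h3, h4, t, ht, h5⟩ := hx x
    exact ⟨t, ht, (wlDim_mem h2 h3 h4).trans h5⟩

/-- S0436 from the cores -/
theorem s0436_of (hTM : TM2Prop) (hV : CoreV) (hS : CoreSub) :
    Crest.ExpTime.EXPComplete Crest.WLRefine.varDimEquivLang ∧
      Crest.ExpTime.EXPComplete Crest.WLRefine.subcubicVarDimEquivLang :=
  ⟨⟨varDim_inEXP, expHard_of_neg hTM (varDim_hard hV)⟩,
    ⟨subcubic_inEXP, expHard_of_neg hTM (subcubic_hard hS)⟩⟩

/-- S0437 from the core -/
theorem s0437_of (hTM : TM2Prop) (hD : CoreD) :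
    Crest.ExpTime.EXPComplete Crest.WLRefine.wlDimLeLang :=
  ⟨wlDim_inEXP, expHard_of_pos hTM (wlDim_hard hD)⟩

end Crest.Agent.WLX
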