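import Crest.Agent.WLX.Auto

/-!
# Row 290, module A: families of graphs whose vertices are tuples of numbers

`UPt r P`, `UPt2 r P`: predicates of a string and one / two `r`-tuples of numbers, decidable in
polynomial time for all polynomial-time arguments (prove them by
`intro f a hf ha; up_auto [ha _, UN.comp (ha _), ...]`).
-/

set_option autoImplicit false

namespace Crest.Agent.WLX

open Crest.Agent.CHR Crest.CountHier Crest.WLRefine Finset Classical

def UPt (r : ℕ) (P : W → (Fin r → ℕ) → Prop) : Prop :=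
  ∀ (f : W → W) (a : Fin r → W → ℕ), PolyTime f → (∀ i, UN (a i)) →
    UP (fun z => P (f z) (fun i => a i z))

def UPt2 (r : ℕ) (P : W → (Fin r → ℕ) → (Fin r → ℕ) → Prop) : Prop :=
  ∀ (f : W → W) (a b : Fin r → W → ℕ), PolyTime f → (∀ i, UN (a i)) → (∀ i, UN (b i)) →
    UP (fun z => P (f z) (fun i => a i z) (fun i => b i z))

theorem UN.powC {N : W → ℕ} (hN : UN N) (i : ℕ) : UN (fun w => N w ^ i) := by
  induction i with
  | zero => exact (UN.const 1).congr fun w => by simp
  | succ i ih => exact (ih.mul hN).congr fun w => by rw [pow_succ]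

/-- MAIN LEMMA: matrices of a family of graphs with tuple vertices. -/
theorem PT.graphTup {r : ℕ} {V : W → Type} [∀ w, Fintype (V w)] (tup : ∀ w, V w → Fin r → ℕ)
    (hinj : ∀ w, Function.Injective (tup w)) {N : W → ℕ} (hN : UN N)
    (hlt : ∀ w v i, tup w v i < N w) {VAL : W → (Fin r → ℕ) → Prop} (hVAL : UPt r VAL)
    (hv : ∀ w t, (∀ i, t i < N w) → (VAL w t ↔ ∃ v, tup w v = t)) :
    UN (fun w => Fintype.card (V w)) ∧
    ∀ (ADJ : W → (Fin r → ℕ) → (Fin r → ℕ) → Prop) (adj : ∀ w, V w → V w → Bool), UPt2 r ADJ →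
      (∀ w u v, ADJ w (tup w u) (tup w v) ↔ adj w u v = true) →
      ∃ G : ∀ w, Fin (Fintype.card (V w)) → Fin (Fintype.card (V w)) → Bool,
        PolyTime (fun w => adjMatrixCode (G w)) ∧
        (∃ A' : W → ℕ → ℕ → Prop, UPb A' ∧
          ∀ w (u v : Fin (Fintype.card (V w))), G w u v = true ↔ A' w u v) ∧
        ∀ w, ∃ e : Fin (Fintype.card (V w)) ≃ V w, ∀ u v, G w u v = adj w (e u) (e v) := by
  let code : ∀ w, V w → ℕ := fun w v =>
    (finFunctionFinEquiv (fun i => (⟨tup w v i, hlt w v i⟩ : Fin (N w))) : ℕ)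
  have hcd : ∀ w v (i : Fin r), code w v / N w ^ (i : ℕ) % N w = tup w v i := by
    intro w v i
    have h := congrFun (finFunctionFinEquiv.symm_apply_apply
      (fun i => (⟨tup w v i, hlt w v i⟩ : Fin (N w)))) i
    have h' := congrArg Fin.val h
    rwa [finFunctionFinEquiv_symm_apply_val] at h'
  have key := PT.graphCode (V := V) code (M := fun w => N w ^ r)
    (val := fun w c => c < N w ^ r ∧ VAL w (fun i => c / N w ^ (i : ℕ) % N w))
    (fun w u v h => by
      apply hinj w
      funext i
      rw [← hcd w u i, ← hcd w v i, h])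
    (UN.powC hN r) (fun w v => Fin.is_lt _)
    (by
      refine UP.and (UP.lt UN.var (UN.powC hN r).fst) ?_
      exact hVAL fstB (fun i z => (sndB z).length / N (fstB z) ^ (i : ℕ) % N (fstB z)) PT.fst
        (fun i => (UN.var.div (UN.powC hN i).fst).mod hN.fst))
    (fun w c => by
      constructor
      · rintro ⟨hc, h⟩
        have hN0 : ∀ i : Fin r, c / N w ^ (i : ℕ) % N w < N w := by
          intro i
          have h2 := (finFunctionFinEquiv.symm (⟨c, hc⟩ : Fin (N w ^ r)) i).is_lt
          rwa [finFunctionFinEquiv_symm_apply_val] at h2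
        obtain ⟨v, hv'⟩ := (hv w _ hN0).1 h
        refine ⟨v, ?_⟩
        have h3 : (fun i => (⟨tup w v i, hlt w v i⟩ : Fin (N w))) =
            finFunctionFinEquiv.symm (⟨c, hc⟩ : Fin (N w ^ r)) := by
          funext i
          apply Fin.ext
          rw [finFunctionFinEquiv_symm_apply_val]
          exact congrFun hv' i
        show (finFunctionFinEquiv (fun i => (⟨tup w v i, hlt w v i⟩ : Fin (N w))) : ℕ) = c
        rw [h3, Equiv.apply_symm_apply]
      · rintro ⟨v, rfl⟩
        refine ⟨Fin.is_lt _, ?_⟩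
        have h4 : (fun i : Fin r => code w v / N w ^ (i : ℕ) % N w) = tup w v := by
          funext i; exact hcd w v i
        show VAL w (fun i : Fin r => code w v / N w ^ (i : ℕ) % N w)
        rw [h4]
        exact (hv w _ (hlt w v)).2 ⟨v, rfl⟩)
  refine ⟨key.1, fun ADJ adj hADJ hadj => ?_⟩
  refine key.2 (fun w c d => ADJ w (fun i => c / N w ^ (i : ℕ) % N w)
    (fun i => d / N w ^ (i : ℕ) % N w)) adj ?_ ?_
  · have hff : PolyTime (fun z => fstB (fstB z)) := CHR.PT.comp CHR.PT.fst CHR.PT.fst
    exact hADJ (fun z => fstB (fstB z))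
      (fun i z => (sndB (fstB z)).length / N (fstB (fstB z)) ^ (i : ℕ) % N (fstB (fstB z)))
      (fun i z => (sndB z).length / N (fstB (fstB z)) ^ (i : ℕ) % N (fstB (fstB z))) hff
      (fun i => (UN.var.fst.div ((UN.powC hN i).comp hff)).mod (hN.comp hff))
      (fun i => (UN.var.div ((UN.powC hN i).comp hff)).mod (hN.comp hff))
  · intro w u v
    have h4 : (fun i : Fin r => code w u / N w ^ (i : ℕ) % N w) = tup w u := by
      funext i; exact hcd w u i
    have h5 : (fun i : Fin r => code w v / N w ^ (i : ℕ) % N w) = tup w v := by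
      funext i; exact hcd w v i
    simp only [h4, h5]
    exact hadj w u v

end Crest.Agent.WLX
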