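import Crest.Agent.WLX.GX
import Crest.Agent.WLX.Acc
import Crest.Agent.WLX.Tup
import Crest.Agent.WLX.Final

/-!
# Row 290: CoreV, CoreSub (and one convention of the fixed dimension core) from the finite system of a table

`SysUP`: the finite system `bsys T' N b` with parity `btw` is given by polynomial-time predicates.
`SysEqJ`, `SysEqS`: equivalence of the two graphs iff the table does not accept.
-/

set_option autoImplicit false

namespace Crest.Agent.WLX

open Crest.Agent.CHR Crest.CountHier Crest.Agent.WLM Crest.Agent.WLD Crest.WLRefine Crest.Agent.WL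
open Crest.Agent.WLH

/-- the finite system of a table is polynomial-time computable -/
def SysUP (bsys : Tab → ℕ → ℕ → Sys) (btw : ∀ T N b, (bsys T N b).C → ZMod 2) : Prop :=
  ∀ (zf cf : W → W) (N b : W → ℕ), CHR.PolyTime zf → CHR.PolyTime cf → UN N → UN b →
    ∃ (nC nE : W → ℕ) (SL : W → ℕ → ℕ → ℕ → Prop) (AL TW : W → ℕ → Prop),
      UN nC ∧ UN nE ∧ GX.UPs3 SL ∧ GX.UPs1 AL ∧ GX.UPs1 TW ∧
      ∀ (w : W) (T : Tab), T.Ok → cf w = tc T → 1 ≤ N w →
        (bsys (inpT (zf w) T) (N w) (b w)).nC = nC w ∧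
        (bsys (inpT (zf w) T) (N w) (b w)).nE = nE w ∧
        (∀ c (s : Fin 5) e, SL w ((bsys (inpT (zf w) T) (N w) (b w)).eC c).val s.val
          ((bsys (inpT (zf w) T) (N w) (b w)).eE e).val ↔
            (bsys (inpT (zf w) T) (N w) (b w)).slot c s = some e) ∧
        (∀ c, AL w ((bsys (inpT (zf w) T) (N w) (b w)).eC c).val ↔
          (bsys (inpT (zf w) T) (N w) (b w)).al c = true) ∧
        (∀ c, TW w ((bsys (inpT (zf w) T) (N w) (b w)).eC c).val ↔
          btw (inpT (zf w) T) (N w) (b w) c = 1)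

/-- joint convention: the two graphs are equivalent iff the table does not accept in time -/
def SysEqJ (bsys : Tab → ℕ → ℕ → Sys) (btw : ∀ T N b, (bsys T N b).C → ZMod 2) : Prop :=
  ∀ (T : Tab), T.Ok → ∀ N b : ℕ, 1 ≤ N → ∀ (m : ℕ) (G H : Fin m → Fin m → Bool)
    (e : Fin m ≃ X.V (bsys T N b)),
    (∀ u v, G u v = X.adj (bsys T N b) (fun _ => 0) (e u) (e v)) →
    (∀ u v, H u v = X.adj (bsys T N b) (btw T N b) (e u) (e v)) →
      (JEquiv (N + 1) G H ↔ ∀ t, t + 1 < (b + 1) ^ N → ¬ T.Acc [] t)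

/-- separate convention -/
def SysEqS (bsys : Tab → ℕ → ℕ → Sys) (btw : ∀ T N b, (bsys T N b).C → ZMod 2) : Prop :=
  ∀ (T : Tab), T.Ok → ∀ N b : ℕ, 1 ≤ N → ∀ (m : ℕ) (G H : Fin m → Fin m → Bool)
    (e : Fin m ≃ X.V (bsys T N b)),
    (∀ u v, G u v = X.adj (bsys T N b) (fun _ => 0) (e u) (e v)) →
    (∀ u v, H u v = X.adj (bsys T N b) (btw T N b) (e u) (e v)) →
      (SEquiv (N + 2) G H ↔ ∀ t, t + 1 < (b + 1) ^ N → ¬ T.Acc [] t)

/-- the graphs `X S b` are simple, connected, subcubic (numbered form) -/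
def ShapeOK : Prop :=
  ∀ (S : Sys) (b : S.C → ZMod 2) (m : ℕ) (e : Fin m ≃ X.V S) (G : Fin m → Fin m → Bool),
    (∀ u v, G u v = X.adj S b (e u) (e v)) → 0 < S.nC → SimpleConnSubcubic G

theorem not_acc_iff {T : Tab} (hT : T.Ok) (z : W) {B : ℕ} (hB : 2 + z.length ≤ B) :
    (∀ t, t + 1 < B → ¬ (inpT z T).Acc [] t) ↔ ¬ T.Acc z (B - z.length - 2) := by
  have h := acc_bound z hT (B - z.length)
  rw [Nat.sub_add_cancel (by omega)] at h
  have h' : (∀ t, t + 1 < B → ¬ (inpT z T).Acc [] t) ↔ ¬ ∃ t, t + 1 < B ∧ (inpT z T).Acc [] t := by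
    push Not
    rfl
  rw [h', h, not_iff_not]
  constructor
  · rintro ⟨t, ht, ha⟩
    exact ha.mono (by omega)
  · intro ha
    exact ⟨_, by omega, ha⟩

/-- polynomial-time matrices of the two graphs -/
theorem graphs_of_sys {bsys : Tab → ℕ → ℕ → Sys} {btw : ∀ T N b, (bsys T N b).C → ZMod 2}
    (hUP : SysUP bsys btw) {zf cf : W → W} {N b : W → ℕ} (hz : CHR.PolyTime zf)
    (hc : CHR.PolyTime cf) (hN : UN N) (hb : UN b) :
    ∃ (m : W → ℕ) (A A' : W → ℕ → ℕ → Prop), UN m ∧ UPb A ∧ UPb A' ∧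
      ∀ (w : W) (T : Tab), T.Ok → cf w = tc T → 1 ≤ N w →
        m w = GX.NX (bsys (inpT (zf w) T) (N w) (b w)).nC (bsys (inpT (zf w) T) (N w) (b w)).nE ∧
        ∃ e : Fin (m w) ≃ X.V (bsys (inpT (zf w) T) (N w) (b w)),
          (∀ u v, mat (m w) (A w) u v =
            X.adj (bsys (inpT (zf w) T) (N w) (b w)) (fun _ => 0) (e u) (e v)) ∧
          (∀ u v, mat (m w) (A' w) u v =
            X.adj (bsys (inpT (zf w) T) (N w) (b w)) (btw (inpT (zf w) T) (N w) (b w))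
              (e u) (e v)) := by
  obtain ⟨nC, nE, SL, AL, TW, hnC, hnE, hSL, hAL, hTW, h⟩ := hUP zf cf N b hz hc hN hb
  refine ⟨fun w => GX.NX (nC w) (nE w),
    fun w => GX.adjN (nC w) (nE w) (AL w) (SL w) (fun _ => False),
    fun w => GX.adjN (nC w) (nE w) (AL w) (SL w) (TW w), GX.UN.NX hnC hnE,
    GX.UP.adjN (B := fun _ _ => False) hnC hnE hAL (fun _ _ _ _ => UP.const False) hSL,
    GX.UP.adjN hnC hnE hAL hTW hSL, fun w T hT hcw hNw => ?_⟩
  obtain ⟨h1, h2, h3, h4, h5⟩ := h w T hT hcw hNw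
  obtain ⟨e, he⟩ := GX.mat_adjN (S := bsys (inpT (zf w) T) (N w) (b w)) (AL := AL w) (SL := SL w)
    h4 h3
  have e0 := he (fun _ => 0) (fun _ => False) (by simp)
  have e1 := he (btw (inpT (zf w) T) (N w) (b w)) (TW w) h5
  have key : ∀ (a c : ℕ) (_ : (bsys (inpT (zf w) T) (N w) (b w)).nC = a)
      (_ : (bsys (inpT (zf w) T) (N w) (b w)).nE = c),
      GX.NX a c = GX.NX (bsys (inpT (zf w) T) (N w) (b w)).nC
        (bsys (inpT (zf w) T) (N w) (b w)).nE ∧
      ∃ e : Fin (GX.NX a c) ≃ X.V (bsys (inpT (zf w) T) (N w) (b w)),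
          (∀ u v, mat (GX.NX a c) (GX.adjN a c (AL w) (SL w) (fun _ => False)) u v =
            X.adj (bsys (inpT (zf w) T) (N w) (b w)) (fun _ => 0) (e u) (e v)) ∧
          (∀ u v, mat (GX.NX a c) (GX.adjN a c (AL w) (SL w) (TW w)) u v =
            X.adj (bsys (inpT (zf w) T) (N w) (b w)) (btw (inpT (zf w) T) (N w) (b w))
              (e u) (e v)) := by
    rintro a c rfl rfl
    exact ⟨rfl, e, e0, e1⟩
  exact key _ _ h1 h2

/-- S0436, both cores from the interfaces -/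
theorem coreSub_of {bsys : Tab → ℕ → ℕ → Sys} {btw : ∀ T N b, (bsys T N b).C → ZMod 2}
    (hUP : SysUP bsys btw) (hJ : SysEqJ bsys btw) (hS : ShapeOK)
    (hpos : ∀ T : Tab, T.Ok → ∀ N b, 1 ≤ N → 0 < (bsys T N b).nC) : CoreSub := by
  intro T hT d
  let N : W → ℕ := fun x => (x.length + d) ^ d + x.length + 3
  have hN : UN N := (((UN.powC ((UN.len CHR.PT.id).add (UN.const d)) d).add
    (UN.len CHR.PT.id)).add (UN.const 3))
  obtain ⟨m, A, A', hm, hA, hA', h⟩ := graphs_of_sys hUP (zf := fun x => x) (cf := fun _ => tc T)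
    (N := N) (b := fun _ => 1) CHR.PT.id (CHR.PT.const (tc T)) hN (UN.const 1)
  refine ⟨fun x => N x + 1, m, A, A', hN.add (UN.const 1), hm, hA, hA', fun x => ?_⟩
  have hN1 : 1 ≤ N x := by show 1 ≤ (x.length + d) ^ d + x.length + 3; omega
  obtain ⟨hmx, e, he, he'⟩ := h x T hT rfl hN1
  have hTx : (inpT x T).Ok := inpT_ok hT
  refine ⟨show 2 ≤ N x + 1 by omega, hS _ _ _ e _ he (hpos _ hTx _ _ hN1), hS _ _ _ e _ he' (hpos _ hTx _ _ hN1),
    2 ^ N x - x.length - 2, ?_, ?_⟩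
  · have h1 : 2 ^ N x = 2 ^ ((x.length + d) ^ d) * (2 ^ x.length * 8) := by
      show 2 ^ ((x.length + d) ^ d + x.length + 3) = _
      rw [pow_add, pow_add]; ring
    have h2 : x.length < 2 ^ x.length := Nat.lt_two_pow_self
    have h3 : 1 ≤ 2 ^ ((x.length + d) ^ d) := Nat.one_le_two_pow
    have h4 : 2 ^ ((x.length + d) ^ d) * 1 + x.length * 1 + 2 ≤
        2 ^ ((x.length + d) ^ d) * (2 ^ x.length * 8) := by
      nlinarith
    omega
  · rw [hJ (inpT x T) hTx (N x) 1 hN1 (m x) _ _ e he he']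
    have h2 : x.length < 2 ^ x.length := Nat.lt_two_pow_self
    have h5 : 2 + x.length ≤ (1 + 1) ^ N x := by
      have h6 : 2 ^ (x.length + 3) ≤ 2 ^ N x := Nat.pow_le_pow_right (by norm_num)
        (by show x.length + 3 ≤ (x.length + d) ^ d + x.length + 3; omega)
      have h7 : 2 ^ (x.length + 3) = 2 ^ x.length * 8 := by rw [pow_add]; norm_num
      show 2 + x.length ≤ 2 ^ N x
      omega
    exact not_acc_iff hT x h5

theorem coreV_of_coreSub (h : CoreSub) : CoreV := by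
  intro T hT d
  obtain ⟨k, m, A, A', hk, hm, hA, hA', hx⟩ := h T hT d
  refine ⟨k, m, A, A', hk, hm, hA, hA', fun x => ?_⟩
  obtain ⟨h1, h2, h3, h4⟩ := hx x
  exact ⟨h1, h2.1, h3.1, h4⟩

end Crest.Agent.WLX
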