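import Crest.Agent.WLX.UNIter

/-!
# Row 290, module A: codes of graphs are polynomial-time computable

CHUNK R290-X-CODE (all lemmas of this file).
-/

set_option autoImplicit false

namespace Crest.Agent.WLX

open Crest.Agent.CHR Crest.CountHier Crest.WLRefine

theorem natCode_eq (n : ℕ) : Crest.Enc.natCode n = pairBits (Nat.bits n) [false] := by
  simp [Crest.Enc.natCode, pairBits, List.flatMap_def]

/-- PROOF. `natCode_eq`, `PT.pair`, `PT.lenBin`. -/
theorem PT.natCode {f : W → ℕ} (hf : UN f) : PolyTime (fun w => Crest.Enc.natCode (f w)) := by
  have h := CHR.PT.pair (CHR.PT.lenBin hf) (CHR.PT.const [false])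
  refine PT.congr h fun w => ?_
  rw [natCode_eq, un_length]

theorem flatMap_range_aux (m n : ℕ) (A : ℕ → ℕ → Bool) :
    ((List.range m).flatMap fun u => (List.range n).map fun v => A u v) =
      (List.range (m * n)).map (fun i => A (i / n) (i % n)) := by
  induction m with
  | zero => simp
  | succ m ih =>
    rw [List.range_succ, List.flatMap_append, ih, Nat.succ_mul, List.range_add, List.map_append,
      List.map_map]
    congr 1
    simp only [List.flatMap_cons, List.flatMap_nil, List.append_nil]
    refine List.map_congr_left fun v hv => ?_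
    have hv' : v < n := List.mem_range.1 hv
    have hn : 0 < n := lt_of_le_of_lt (Nat.zero_le _) hv'
    simp only [Function.comp]
    rw [show m * n + v = v + n * m by ring, Nat.add_mul_div_left _ _ hn, Nat.div_eq_of_lt hv',
      Nat.add_mul_mod_self_left, Nat.mod_eq_of_lt hv', Nat.zero_add]

open Classical in
/-- The matrix code as a table.
PROOF. row by row: `(List.finRange n).flatMap ... = (List.range (n*n)).map (fun i => A (i/n) (i%n))`
(induction on the number of rows, `List.range_add`). -/
theorem adjMatrixCode_eq (n : ℕ) (A : ℕ → ℕ → Prop) :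
    adjMatrixCode (n := n) (fun u v => decide (A u v)) =
      Crest.Enc.natCode n ++ (List.range (n * n)).map (fun i => decide (A (i / n) (i % n))) := by
  unfold adjMatrixCode
  congr 1
  rw [← flatMap_range_aux n n (fun u v => decide (A u v))]
  have h2 : ∀ u : ℕ, ((List.finRange n).map fun w : Fin n => decide (A u (w : ℕ))) =
      (List.range n).map fun v => decide (A u v) := by
    intro u
    rw [← List.map_coe_finRange_eq_range, List.map_map]
    rfl
  rw [← List.map_coe_finRange_eq_range (n := n), List.flatMap_map]
  refine List.flatMap_congr fun u _ => ?_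
  rw [h2, List.map_coe_finRange_eq_range]

open Classical in
/-- MAIN LEMMA for the graph codes: `n w` vertices (unary), adjacency `A w u v` decidable in
polynomial time from `w`, `1^u`, `1^v` (context `pu (pu w u) v`).
PROOF. `adjMatrixCode_eq`, `PT.natCode`, `PT.append`, `PT.tab` with `N = n*n` and
`P w i = A w (i / n w) (i % n w)`: compose `hA` with the polynomial-time map
`z ↦ pairBits (pairBits (fstB z) (un (i / n))) (un (i % n))`, `i = (sndB z).length`. -/
theorem PT.adjCode {n : W → ℕ} {A : W → ℕ → ℕ → Prop} (hn : UN n)
    (hA : UP (fun z => A (fstB (fstB z)) (sndB (fstB z)).length (sndB z).length)) :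
    PolyTime (fun w => adjMatrixCode (n := n w) (fun u v => decide (A w u v))) := by
  have hP : UP (fun z => A (fstB z) ((sndB z).length / n (fstB z))
      ((sndB z).length % n (fstB z))) := by
    have hd : UN (fun z => (sndB z).length / n (fstB z)) := UN.var.div hn.fst
    have hm : UN (fun z => (sndB z).length % n (fstB z)) := UN.var.mod hn.fst
    have hg : PolyTime (fun z => pairBits (pairBits (fstB z) (un ((sndB z).length / n (fstB z))))
        (un ((sndB z).length % n (fstB z)))) := CHR.PT.pair (CHR.PT.pair CHR.PT.fst hd) hm
    refine (hA.comp hg).congr fun z => ?_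
    simp
  have h := CHR.PT.append (PT.natCode hn)
    (PT.tab (N := fun w => n w * n w) (P := fun w i => A w (i / n w) (i % n w)) (hn.mul hn) hP)
  refine PT.congr h fun w => ?_
  rw [← adjMatrixCode_eq]

end Crest.Agent.WLX
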