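import Crest.Agent.WLX.UNTab

/-!
# Row 290, module A: iteration, sums, division, powers

CHUNK R290-X-ITER (all lemmas of this file).
-/

set_option autoImplicit false

namespace Crest.Agent.WLX

open Crest.Agent.CHR Crest.CountHier

theorem pairBits_length' (x y : W) : (pairBits x y).length = 2 * x.length + 1 + y.length := by
  induction x with
  | nil => simp [pairBits]; omega
  | cons b x ih =>
    have : pairBits (b :: x) y = true :: b :: pairBits x y := rfl
    rw [this]
    simp only [List.length_cons, ih]
    omega

/-- PROOF. `PT.iter` with the state `pairBits w T`, step `z ↦ pairBits (fstB z) (s z)`, initial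
state `pairBits w (i w)`, counter `un (S w)`; `sndB` at the end. The polynomial `q` bounds
all iterates. -/
theorem PT.iterS {s i : W → W} {S : W → ℕ} (hs : PolyTime s) (hi : PolyTime i) (hS : UN S)
    (q : Polynomial ℕ)
    (hq : ∀ w k, k ≤ S w → ((fun T => s (pairBits w T))^[k] (i w)).length ≤ q.eval w.length) :
    PolyTime (fun w => (fun T => s (pairBits w T))^[S w] (i w)) := by
  have hG : PolyTime (fun z => pairBits (fstB z) (s z)) := PT.pair PT.fst hs
  have hI : PolyTime (fun w => pairBits w (i w)) := PT.pair PT.id hi
  have hit : ∀ (w T : W) (k : ℕ), (fun z => pairBits (fstB z) (s z))^[k] (pairBits w T) =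
      pairBits w ((fun T => s (pairBits w T))^[k] T) := by
    intro w T k
    induction k with
    | zero => rfl
    | succ k ih =>
      rw [Function.iterate_succ_apply', ih, Function.iterate_succ_apply', fstB_pairBits]
  have h := PT.iter hG hI hS (Polynomial.C 2 * Polynomial.X + 1 + q) (fun w k hk => by
    have hk' : k ≤ S w := by simpa using hk
    rw [hit, pairBits_length']
    have := hq w k hk'
    simp only [Polynomial.eval_add, Polynomial.eval_mul, Polynomial.eval_C, Polynomial.eval_X,
      Polynomial.eval_one]
    omega)
  have h2 := PT.comp PT.snd h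
  refine PT.congr h2 fun w => ?_
  rw [hit, sndB_pairBits, un_length]

/-- number-valued iteration.
PROOF. from `PT.iterS`, state `un x`. -/
theorem UN.iter {s : W → ℕ → ℕ} {i S : W → ℕ} (hs : UN (fun z => s (fstB z) (sndB z).length))
    (hi : UN i) (hS : UN S) (q : Polynomial ℕ)
    (hq : ∀ w k, k ≤ S w → (s w)^[k] (i w) ≤ q.eval w.length) :
    UN (fun w => (s w)^[S w] (i w)) := by
  have hit : ∀ (w : W) (x k : ℕ),
      (fun T => un (s (fstB (pairBits w T)) (sndB (pairBits w T)).length))^[k] (un x) =
      un ((s w)^[k] x) := by
    intro w x k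
    induction k with
    | zero => rfl
    | succ k ih =>
      rw [Function.iterate_succ_apply', ih, Function.iterate_succ_apply', fstB_pairBits,
        sndB_pairBits, un_length]
  have h := PT.iterS (s := fun z => un (s (fstB z) (sndB z).length)) (i := fun w => un (i w))
    hs hi hS q (fun w k hk => by
      rw [hit, un_length]
      exact hq w k hk)
  exact PT.congr h fun w => hit w _ _

/-- PROOF. `PT.iter` with the state `pairBits w (pairBits (un i) acc)`, step appends
`un (F w i)` to `acc` and `true` to `un i`; polynomial bound: `UN.bound` for `N` and for `F`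
(`F w i ≤ q(|pu w i|)`, `i ≤ N w`). -/
theorem UN.sum {N : W → ℕ} {F : W → ℕ → ℕ} (hN : UN N)
    (hF : UN (fun z => F (fstB z) (sndB z).length)) :
    UN (fun w => ∑ i ∈ Finset.range (N w), F w i) := by
  obtain ⟨q1, hq1⟩ := hN.bound
  obtain ⟨q2, hq2⟩ := hF.bound
  have hFi : UN (fun z => F (fstB z) (fstB (sndB z)).length) := by
    have h1 : PolyTime (fun z => pairBits (fstB z) (fstB (sndB z))) :=
      PT.pair PT.fst (PT.comp PT.fst PT.snd)
    exact (UN.comp hF h1).congr fun z => by rw [fstB_pairBits, sndB_pairBits]
  have hstep : PolyTime (fun z => pairBits (fstB (sndB z) ++ [true])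
      (sndB (sndB z) ++ un (F (fstB z) (fstB (sndB z)).length))) :=
    PT.pair (PT.append (PT.comp PT.fst PT.snd) (PT.const [true]))
      (PT.append (PT.comp PT.snd PT.snd) hFi)
  have hit : ∀ (w : W) (k : ℕ),
      (fun T => pairBits (fstB (sndB (pairBits w T)) ++ [true])
        (sndB (sndB (pairBits w T)) ++ un (F (fstB (pairBits w T))
          (fstB (sndB (pairBits w T))).length)))^[k] (pairBits [] []) =
      pairBits (un k) (un (∑ i ∈ Finset.range k, F w i)) := by
    intro w k
    induction k with
    | zero => rfl
    | succ k ih =>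
      rw [Function.iterate_succ_apply', ih]
      simp only [fstB_pairBits, sndB_pairBits, un_length]
      congr 1
      · simp [un, List.replicate_succ']
      · simp [un, Finset.sum_range_succ]
  have hb : ∀ w i, i ≤ N w → F w i ≤ (q2.comp (Polynomial.C 2 * Polynomial.X + 1 + q1)).eval
      w.length := by
    intro w i hi
    have h1 := hq2 (pairBits w (un i))
    rw [fstB_pairBits, sndB_pairBits, un_length, pairBits_length', un_length] at h1
    refine h1.trans ?_
    rw [Polynomial.eval_comp]
    refine polyEval_mono q2 ?_
    have := hq1 w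
    simp only [Polynomial.eval_add, Polynomial.eval_mul, Polynomial.eval_C, Polynomial.eval_X,
      Polynomial.eval_one]
    omega
  have h := PT.iterS hstep (PT.const (pairBits [] [])) hN
    (Polynomial.C 2 * q1 + 1 + q1 * q2.comp (Polynomial.C 2 * Polynomial.X + 1 + q1))
    (fun w k hk => by
      rw [hit, pairBits_length', un_length, un_length]
      have h1 := hq1 w
      have h2 : ∑ i ∈ Finset.range k, F w i ≤
          q1.eval w.length * (q2.comp (Polynomial.C 2 * Polynomial.X + 1 + q1)).eval w.length := by
        calc ∑ i ∈ Finset.range k, F w i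
            ≤ ∑ i ∈ Finset.range k,
              (q2.comp (Polynomial.C 2 * Polynomial.X + 1 + q1)).eval w.length :=
              Finset.sum_le_sum fun i hi => hb w i (by
                have := Finset.mem_range.1 hi
                omega)
          _ = k * (q2.comp (Polynomial.C 2 * Polynomial.X + 1 + q1)).eval w.length := by
              rw [Finset.sum_const, Finset.card_range, smul_eq_mul]
          _ ≤ _ := Nat.mul_le_mul_right _ (hk.trans h1)
      rw [Polynomial.eval_add, Polynomial.eval_add, Polynomial.eval_mul, Polynomial.eval_mul,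
        Polynomial.eval_C, Polynomial.eval_one]
      omega)
  refine PT.congr (PT.comp PT.snd h) fun w => ?_
  rw [hit, sndB_pairBits]

/-- PROOF. `f / g = card {i < f | 0 < g ∧ (i+1) * g ≤ f}`. -/
theorem UN.div {f g : W → ℕ} (hf : UN f) (hg : UN g) : UN (fun w => f w / g w) := by
  classical
  have hP : UP (fun z => 0 < g (fstB z) ∧ ((sndB z).length + 1) * g (fstB z) ≤ f (fstB z)) :=
    (UP.lt (UN.const 0) hg.fst).and (UP.le ((UN.var.add (UN.const 1)).mul hg.fst) hf.fst)
  have h := UN.card (N := f) (P := fun w i => 0 < g w ∧ (i + 1) * g w ≤ f w) hf hP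
  refine h.congr fun w => ?_
  rcases Nat.eq_zero_or_pos (g w) with h0 | h0
  · rw [h0, Nat.div_zero]
    simp
  · have e : (Finset.range (f w)).filter (fun i => 0 < g w ∧ (i + 1) * g w ≤ f w) =
        Finset.range (f w / g w) := by
      ext i
      simp only [Finset.mem_filter, Finset.mem_range]
      have h1 : i + 1 ≤ f w / g w ↔ (i + 1) * g w ≤ f w := Nat.le_div_iff_mul_le h0
      have h2 : f w / g w ≤ f w := Nat.div_le_self _ _
      constructor
      · rintro ⟨_, _, h3⟩
        have := h1.2 h3
        omega
      · intro h3
        exact ⟨by omega, h0, h1.1 (by omega)⟩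
    have e2 : (Finset.range (f w / g w)).card = f w / g w := Finset.card_range _
    rw [← e] at e2
    convert e2

theorem UN.mod {f g : W → ℕ} (hf : UN f) (hg : UN g) : UN (fun w => f w % g w) := by
  have h := hf.sub (hg.mul (hf.div hg))
  refine h.congr fun w => ?_
  have := Nat.div_add_mod (f w) (g w)
  omega

/-- powers of bounded value.  PROOF. `UN.iter` with `s w x = x * f w`; intermediate values
are `≤ max 1 (f^g)`. -/
theorem UN.pow {f g : W → ℕ} (hf : UN f) (hg : UN g) (q : Polynomial ℕ)
    (hq : ∀ w, f w ^ g w ≤ q.eval w.length) : UN (fun w => f w ^ g w) := by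
  have hit : ∀ (w : W) (k : ℕ), (fun x => x * f w)^[k] 1 = f w ^ k := by
    intro w k
    induction k with
    | zero => rfl
    | succ k ih => rw [Function.iterate_succ_apply', ih, pow_succ]
  have h := UN.iter (s := fun w x => x * f w) (i := fun _ => 1) (S := g)
    (UN.var.mul hf.fst) (UN.const 1) hg (q + 1) (fun w k hk => by
      show (fun x => x * f w)^[k] 1 ≤ _
      rw [hit, Polynomial.eval_add, Polynomial.eval_one]
      have h1 := hq w
      rcases Nat.eq_zero_or_pos (f w) with h0 | h0
      · rw [h0]
        have : (0 : ℕ) ^ k ≤ 1 := by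
          rcases Nat.eq_zero_or_pos k with hk0 | hk0
          · simp [hk0]
          · rw [Nat.zero_pow hk0]; exact Nat.zero_le _
        omega
      · have : f w ^ k ≤ f w ^ g w := Nat.pow_le_pow_right h0 hk
        omega)
  exact h.congr fun w => hit w _

/-- powers with an unbounded value, cut at `B`.
PROOF. `UN.iter` with `s w x = min (x * f w) (B w)` started at `min 1 (B w)`; show
`(s w)^[k] = min (f^k) B`. -/
theorem UN.powMin {f g B : W → ℕ} (hf : UN f) (hg : UN g) (hB : UN B) :
    UN (fun w => Min.min (f w ^ g w) (B w)) := by
  obtain ⟨q, hq⟩ := hB.bound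
  have hit : ∀ (w : W) (k : ℕ), (fun x => Min.min (x * f w) (B w))^[k] (Min.min 1 (B w)) =
      Min.min (f w ^ k) (B w) := by
    intro w k
    induction k with
    | zero => rfl
    | succ k ih =>
      rw [Function.iterate_succ_apply', ih, pow_succ]
      rcases Nat.eq_zero_or_pos (f w) with h0 | h0
      · simp [h0]
      · rcases le_total (f w ^ k) (B w) with h1 | h1
        · rw [min_eq_left h1]
        · rw [min_eq_right h1]
          have h2 : B w ≤ B w * f w := Nat.le_mul_of_pos_right _ h0
          have h3 : f w ^ k ≤ f w ^ k * f w := Nat.le_mul_of_pos_right _ h0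
          rw [min_eq_right h2, min_eq_right (h1.trans h3)]
  have h := UN.iter (s := fun w x => Min.min (x * f w) (B w)) (i := fun w => Min.min 1 (B w))
    (S := g) (UN.min (UN.var.mul hf.fst) hB.fst) (UN.min (UN.const 1) hB) hg q (fun w k _ => by
      show (fun x => Min.min (x * f w) (B w))^[k] (Min.min 1 (B w)) ≤ _
      rw [hit]
      exact (min_le_right _ _).trans (hq w))
  exact h.congr fun w => hit w _

end Crest.Agent.WLX
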