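import Crest.Agent.WLX.Tab

/-!
# Row 290, module A: the refinement algorithm on numbers (pure part, definitions)

Tuples `v : Fin k → Fin n` are numbers `< n ^ k` (`finFunctionFinEquiv`: digits in base `n`).
A tuple `t` of the first (`g = 0`) or second (`g = 1`) graph is the number `g * M + t < 2 * M`,
`M = n ^ k`.  `B` is a cut-off for powers (`B ≥ n ^ k` in all uses), `A g u v` is the
adjacency.
-/

set_option autoImplicit false

namespace Crest.Agent.WLX

open Finset Classical

/-- power with cut-off -/
def pw (B n i : ℕ) : ℕ := min (n ^ i) B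

/-- `i`-th digit in base `n` -/
def dig (B n a i : ℕ) : ℕ := a / pw B n i % n

/-- replace the `i`-th digit by `z` -/
def upd (B n a i z : ℕ) : ℕ := a + z * pw B n i - dig B n a i * pw B n i

/-- the same for `a = g * M + t` -/
def upg (B n M a i z : ℕ) : ℕ := a / M * M + upd B n (a % M) i z

/-- same atomic type -/
def J0 (B n k M : ℕ) (A : ℕ → ℕ → ℕ → Prop) (a b : ℕ) : Prop :=
  ∀ i < k, ∀ j < k,
    (dig B n (a % M) i = dig B n (a % M) j ↔ dig B n (b % M) i = dig B n (b % M) j) ∧
    (A (a / M) (dig B n (a % M) i) (dig B n (a % M) j) ↔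
      A (b / M) (dig B n (b % M) i) (dig B n (b % M) j))

/-- one round of joint refinement, on relations -/
noncomputable def JStep (B n k M : ℕ) (R : ℕ → ℕ → Prop) (a b : ℕ) : Prop :=
  R a b ∧ ∀ z < n,
    ((range n).filter fun z' => ∀ i < k, R (upg B n M a i z') (upg B n M a i z)).card =
    ((range n).filter fun z' => ∀ i < k, R (upg B n M b i z') (upg B n M a i z)).card

/-- final test of a relation `R` on `{0..2M-1}`: equal histograms -/
noncomputable def HistEq (M : ℕ) (R : ℕ → ℕ → Prop) : Prop :=
  ∀ a < 2 * M, ((range M).filter fun a' => R a' a).card =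
    ((range M).filter fun b => R (M + b) a).card

/-- one round of colour refinement (dimension one), vertices `g * n + u < 2 * n` -/
noncomputable def CStep (n : ℕ) (A : ℕ → ℕ → ℕ → Prop) (R : ℕ → ℕ → Prop) (a b : ℕ) : Prop :=
  R a b ∧ ∀ z < 2 * n,
    ((range n).filter fun z' => A (a / n) (a % n) z' ∧ R (a / n * n + z') z).card =
    ((range n).filter fun z' => A (b / n) (b % n) z' ∧ R (b / n * n + z') z).card

/-- THE ALGORITHM, joint convention, two graphs with `n` vertices each, dimension `k`. -/
noncomputable def JDec (B n k : ℕ) (A : ℕ → ℕ → ℕ → Prop) : Prop :=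
  HistEq (pw B n k) (rd (2 * pw B n k) (runT (2 * pw B n k) (JStep B n k (pw B n k))
    (J0 B n k (pw B n k) A) (2 * pw B n k * (2 * pw B n k))))

/-- THE ALGORITHM, colour refinement. -/
noncomputable def CDec (n : ℕ) (A : ℕ → ℕ → ℕ → Prop) : Prop :=
  HistEq n (rd (2 * n) (runT (2 * n) (CStep n A) (fun _ _ => True) (2 * n * (2 * n))))

end Crest.Agent.WLX
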