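import Crest.Agent.WLX.AlgS

/-!
# Row 290, module A: correctness of `CDec` (colour refinement)

CHUNK R290-X-CR (all lemmas of this file).
-/

set_option autoImplicit false

namespace Crest.Agent.WLX

open Crest.WLRefine

variable {n : ℕ}

/-- two multisets of coloured objects agree iff every occurring colour has the same
multiplicity. -/
theorem AlgC.mset_eq_iff {α ι : Type} [DecidableEq α] {M₁ M₂ : Multiset α} (col : ι → α)
    (h₁ : ∀ x ∈ M₁, ∃ i, col i = x) (h₂ : ∀ x ∈ M₂, ∃ i, col i = x) :
    M₁ = M₂ ↔ ∀ i, M₁.count (col i) = M₂.count (col i) := by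
  constructor
  · rintro rfl i; rfl
  · intro h
    ext c
    by_cases hc : c ∈ M₁ ∨ c ∈ M₂
    · obtain ⟨i, rfl⟩ : ∃ i, col i = c := by
        rcases hc with hc | hc
        · exact h₁ c hc
        · exact h₂ c hc
      exact h i
    · push Not at hc
      rw [Multiset.count_eq_zero_of_notMem hc.1, Multiset.count_eq_zero_of_notMem hc.2]

theorem AlgC.card_range_filter (n : ℕ) (P : ℕ → Prop) [DecidablePred P]
    [DecidablePred fun w : Fin n => P w] :
    ((Finset.range n).filter fun z => P z).card =
      ((Finset.univ : Finset (Fin n)).filter fun w : Fin n => P w).card := by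
  rw [← Nat.Iio_eq_range, ← Fin.map_valEmbedding_univ, Finset.filter_map, Finset.card_map]
  congr 1
  ext w
  simp

theorem AlgC.fcc {p q : ℕ → Prop} {dp : DecidablePred p} {dq : DecidablePred q}
    {s : Finset ℕ} (h : ∀ x ∈ s, p x ↔ q x) :
    (@Finset.filter _ p dp s).card = (@Finset.filter _ q dq s).card := by
  congr 1
  exact Finset.filter_congr h

theorem AlgC.split {n a : ℕ} (ha : a < 2 * n) :
    ∃ (g : Fin 2) (t : Fin n), a = g * n + t := by
  have hn : 0 < n := by omega
  refine ⟨⟨a / n, ?_⟩, ⟨a % n, Nat.mod_lt _ hn⟩, ?_⟩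
  · exact Nat.div_lt_of_lt_mul (by rw [Nat.mul_comm]; exact ha)
  · simp only
    rw [Nat.mul_comm]
    exact (Nat.div_add_mod a n).symm

theorem AlgC.lt_two {n : ℕ} (g : Fin 2) (t : Fin n) : (g : ℕ) * n + t < 2 * n := by
  have h1 := g.2
  have h2 := t.2
  have : (g : ℕ) * n ≤ 1 * n := Nat.mul_le_mul_right _ (by omega)
  omega

theorem AlgC.div_eq {n : ℕ} (g : Fin 2) (t : Fin n) : ((g : ℕ) * n + t) / n = g := by
  have hn : 0 < n := Nat.lt_of_le_of_lt (Nat.zero_le _) t.2
  rw [Nat.mul_comm, Nat.mul_add_div hn, Nat.div_eq_of_lt t.2, Nat.add_zero]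

theorem AlgC.mod_eq {n : ℕ} (g : Fin 2) (t : Fin n) : ((g : ℕ) * n + t) % n = t := by
  rw [Nat.mul_comm, Nat.mul_add_mod, Nat.mod_eq_of_lt t.2]

/-- rounds of the algorithm = colours.
PROOF. induction on `s`; step: the multisets `(filter (adj u)).val.map c` and
`(filter (adj' v)).val.map c'` (`c z = crcolor .. s z`) are equal iff every colour of a vertex of
one of the two graphs has the same multiplicity (other colours have multiplicity `0`). -/
theorem CT_iff {A : ℕ → ℕ → ℕ → Prop} {adjs : Fin 2 → Fin n → Fin n → Bool}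
    (hA : ∀ (g : Fin 2) (u v : Fin n), A g u v ↔ adjs g u v = true)
    (s : ℕ) (g h : Fin 2) (t r : Fin n) :
    ((CStep n A)^[s] (fun _ _ => True)) (g * n + t) (h * n + r) ↔
      crcolor (adjs g) s t = crcolor (adjs h) s r := by
  classical
  induction s generalizing g h t r with
  | zero => simp [crcolor]
  | succ s ih =>
    rw [Function.iterate_succ_apply']
    set R := ((CStep n A)^[s] (fun _ _ => True)) with hR
    -- the counting identity
    have key : ∀ (g g' : Fin 2) (t u : Fin n),
        ((Finset.range n).filter fun z' => A g t z' ∧ R (g * n + z') (g' * n + u)).card =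
        Multiset.count (crcolor (adjs g') s u)
          (((Finset.univ : Finset (Fin n)).filter fun w => adjs g t w = true).val.map
            (crcolor (adjs g) s)) := by
      intro g g' t u
      rw [AlgC.card_range_filter n (fun z' => A g t z' ∧ R (g * n + z') (g' * n + u)),
        Multiset.count_map]
      rw [← Finset.filter_val, Finset.filter_filter, Finset.card_val]
      congr 1
      ext w
      simp only [Finset.mem_filter, Finset.mem_univ, true_and]
      rw [hA, ih]
      exact and_congr_right fun _ => eq_comm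
    have hM : ∀ (g : Fin 2) (t : Fin n) (x : CRColor s),
        x ∈ (((Finset.univ : Finset (Fin n)).filter fun w => adjs g t w = true).val.map
            (crcolor (adjs g) s)) →
        ∃ i : Fin 2 × Fin n, crcolor (adjs i.1) s i.2 = x := by
      intro g t x hx
      rw [Multiset.mem_map] at hx
      obtain ⟨w, -, hw⟩ := hx
      exact ⟨(g, w), hw⟩
    show (R (g * n + t) (h * n + r) ∧ ∀ z < 2 * n, _) ↔ _
    rw [ih]
    simp only [AlgC.div_eq, AlgC.mod_eq]
    show _ ↔ (crcolor (adjs g) s t, _) = (crcolor (adjs h) s r, _)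
    rw [Prod.mk.injEq]
    refine and_congr_right fun _ => ?_
    rw [AlgC.mset_eq_iff (fun i : Fin 2 × Fin n => crcolor (adjs i.1) s i.2) (hM g t) (hM h r)]
    constructor
    · rintro H ⟨g', u⟩
      have := H (g' * n + u) (AlgC.lt_two g' u)
      rw [← key, ← key]
      convert this using 2
    · intro H z hz
      obtain ⟨g', u, rfl⟩ := AlgC.split hz
      have := H (g', u)
      simp only at this
      rw [← key, ← key] at this
      convert this using 2

theorem CStep_agr {A : ℕ → ℕ → ℕ → Prop} (R R' : ℕ → ℕ → Prop) (h : AgrL (2 * n) R R') :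
    AgrL (2 * n) (CStep n A R) (CStep n A R') := by
  intro a ha b hb
  have hlt : ∀ c < 2 * n, ∀ z < n, c / n * n + z < 2 * n := by
    intro c hc z hz
    have h1 : c / n < 2 := Nat.div_lt_of_lt_mul (by rw [Nat.mul_comm]; exact hc)
    have : c / n * n ≤ 1 * n := Nat.mul_le_mul_right _ (by omega)
    omega
  unfold CStep
  rw [h a ha b hb]
  refine and_congr_right fun _ => ?_
  refine forall₂_congr fun z hz => ?_
  have e : ∀ c < 2 * n, ∀ z' ∈ Finset.range n, (A (c / n) (c % n) z' ∧
      R (c / n * n + z') z) ↔ (A (c / n) (c % n) z' ∧ R' (c / n * n + z') z) := by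
    intro c hc z' hz'
    rw [h _ (hlt c hc z' (Finset.mem_range.mp hz')) z hz]
  constructor
  · intro H
    exact ((AlgC.fcc (e a ha)).symm.trans H).trans (AlgC.fcc (e b hb))
  · intro H
    exact ((AlgC.fcc (e a ha)).trans H).trans (AlgC.fcc (e b hb)).symm

theorem AlgC.histEq_congr {R R' : ℕ → ℕ → Prop} (h : AgrL (2 * n) R R') :
    HistEq n R ↔ HistEq n R' := by
  unfold HistEq
  refine forall₂_congr fun a ha => ?_
  have e1 : ∀ a' ∈ Finset.range n, R a' a ↔ R' a' a := by
    intro z' hz'
    have := Finset.mem_range.mp hz'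
    rw [h _ (by omega) a ha]
  have e2 : ∀ b ∈ Finset.range n, R (n + b) a ↔ R' (n + b) a := by
    intro z' hz'
    have := Finset.mem_range.mp hz'
    rw [h _ (by omega) a ha]
  constructor
  · intro H
    exact ((AlgC.fcc e1).symm.trans H).trans (AlgC.fcc e2)
  · intro H
    exact ((AlgC.fcc e1).trans H).trans (AlgC.fcc e2).symm

theorem AlgC.hist_iff {A : ℕ → ℕ → ℕ → Prop} {adjs : Fin 2 → Fin n → Fin n → Bool}
    (hA : ∀ (g : Fin 2) (u v : Fin n), A g u v ↔ adjs g u v = true) (s : ℕ) :
    HistEq n ((CStep n A)^[s] (fun _ _ => True)) ↔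
      (Finset.univ : Finset (Fin n)).val.map (crcolor (adjs 0) s) =
        (Finset.univ : Finset (Fin n)).val.map (crcolor (adjs 1) s) := by
  classical
  have hM : ∀ (g : Fin 2) (x : CRColor s),
      x ∈ ((Finset.univ : Finset (Fin n)).val.map (crcolor (adjs g) s)) →
      ∃ i : Fin 2 × Fin n, crcolor (adjs i.1) s i.2 = x := by
    intro g x hx
    rw [Multiset.mem_map] at hx
    obtain ⟨w, -, hw⟩ := hx
    exact ⟨(g, w), hw⟩
  rw [AlgC.mset_eq_iff (fun i : Fin 2 × Fin n => crcolor (adjs i.1) s i.2) (hM 0) (hM 1)]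
  have key : ∀ (g g' : Fin 2) (u : Fin n),
      ((Finset.range n).filter fun z' => ((CStep n A)^[s] (fun _ _ => True))
        (g * n + z') (g' * n + u)).card =
      Multiset.count (crcolor (adjs g') s u)
        ((Finset.univ : Finset (Fin n)).val.map (crcolor (adjs g) s)) := by
    intro g g' u
    rw [AlgC.card_range_filter n (fun z' => ((CStep n A)^[s] (fun _ _ => True))
        (g * n + z') (g' * n + u)), Multiset.count_map, ← Finset.filter_val, Finset.card_val]
    congr 1
    ext w
    simp only [Finset.mem_filter, Finset.mem_univ, true_and]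
    rw [CT_iff hA]
    exact eq_comm
  have k0 := key 0
  have k1 := key 1
  simp only [Fin.val_zero, Nat.zero_mul, Nat.zero_add, Fin.val_one, Nat.one_mul] at k0 k1
  unfold HistEq
  constructor
  · rintro H ⟨g', u⟩
    have := H (g' * n + u) (AlgC.lt_two g' u)
    rw [← k0, ← k1]
    convert this using 2
  · intro H z hz
    obtain ⟨g', u, rfl⟩ := AlgC.split hz
    have := H (g', u)
    simp only at this
    rw [← k0, ← k1] at this
    convert this using 2

theorem AlgC.hist_pred {adjG adjH : Fin n → Fin n → Bool} {s : ℕ}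
    (h : (Finset.univ : Finset (Fin n)).val.map (crcolor adjG (s + 1)) =
        (Finset.univ : Finset (Fin n)).val.map (crcolor adjH (s + 1))) :
    (Finset.univ : Finset (Fin n)).val.map (crcolor adjG s) =
        (Finset.univ : Finset (Fin n)).val.map (crcolor adjH s) := by
  have := congrArg (Multiset.map (Prod.fst : CRColor (s + 1) → CRColor s)) h
  rw [Multiset.map_map, Multiset.map_map] at this
  exact this

/-- PROOF. as for `JDec_iff`. -/
theorem CDec_iff {A : ℕ → ℕ → ℕ → Prop} {adjG adjH : Fin n → Fin n → Bool}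
    (hA0 : ∀ u v : Fin n, A 0 u v ↔ adjG u v = true)
    (hA1 : ∀ u v : Fin n, A 1 u v ↔ adjH u v = true) :
    CDec n A ↔ CREquiv adjG adjH := by
  have hA : ∀ (g : Fin 2) (u v : Fin n), A g u v ↔ (![adjG, adjH] : Fin 2 → _) g u v = true := by
    intro g u v
    fin_cases g
    · exact hA0 u v
    · exact hA1 u v
  have hF : ∀ R R' : ℕ → ℕ → Prop, AgrL (2 * n) R R' →
      AgrL (2 * n) (CStep n A R) (CStep n A R') := fun R R' h => CStep_agr R R' h
  have h1 : CDec n A ↔ HistEq n ((CStep n A)^[2 * n * (2 * n)] (fun _ _ => True)) := by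
    unfold CDec
    exact AlgC.histEq_congr fun a ha b hb => rd_runT _ hF _ ha hb
  rw [h1]
  have hst := stab (L := 2 * n) (F := CStep n A) (fun _ _ => True) hF (fun R a b h => h.1)
  constructor
  · intro H s
    have down : ∀ d s : ℕ, (Finset.univ : Finset (Fin n)).val.map (crcolor adjG (s + d)) =
        (Finset.univ : Finset (Fin n)).val.map (crcolor adjH (s + d)) →
        (Finset.univ : Finset (Fin n)).val.map (crcolor adjG s) =
        (Finset.univ : Finset (Fin n)).val.map (crcolor adjH s) := by
      intro d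
      induction d with
      | zero => intro s h; exact h
      | succ d ih => intro s h; exact ih s (AlgC.hist_pred h)
    rcases le_total (2 * n * (2 * n)) s with hs | hs
    · have := (AlgC.histEq_congr (hst s hs)).mpr H
      exact (AlgC.hist_iff hA s).mp this
    · have := (AlgC.hist_iff hA _).mp H
      obtain ⟨d, hd⟩ := Nat.exists_eq_add_of_le hs
      rw [hd] at this
      exact down d s this
  · intro H
    exact (AlgC.hist_iff hA _).mpr (H _)

end Crest.Agent.WLX
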