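import Crest.Agent.WLX.AlgS

/-!
# Row 290, module A: digits

CHUNK R290-X-J1 (all lemmas of this file).
-/

set_option autoImplicit false

namespace Crest.Agent.WLX

variable {n k B : ℕ}

theorem pw_eq (hB : n ^ k ≤ B) {i : ℕ} (hi : i ≤ k) (hn : 0 < n) : pw B n i = n ^ i := by
  unfold pw
  exact min_eq_left ((Nat.pow_le_pow_right hn hi).trans hB)

/-- `finFunctionFinEquiv : (Fin k → Fin n) ≃ Fin (n ^ k)` has the digits as inverse. -/
theorem dig_eq (hB : n ^ k ≤ B) (t : Fin (n ^ k)) (i : Fin k) :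
    dig B n t i = (finFunctionFinEquiv.symm t i : Fin n) := by
  have hn : 0 < n := by
    rcases Nat.eq_zero_or_pos n with h | h
    · subst h
      have h1 : 0 < k := i.pos
      have h2 : 0 < 0 ^ k := t.pos
      rw [zero_pow (by omega)] at h2
      exact absurd h2 (lt_irrefl 0)
    · exact h
  unfold dig
  rw [pw_eq hB i.isLt.le hn]
  rfl

theorem upd_eq (hB : n ^ k ≤ B) (t : Fin (n ^ k)) (i : Fin k) (z : Fin n) :
    upd B n t i z = (finFunctionFinEquiv (Function.update (finFunctionFinEquiv.symm t) i z) :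
      Fin (n ^ k)) := by
  have hn : 0 < n := z.pos
  unfold upd
  rw [dig_eq hB, pw_eq hB i.isLt.le hn, finFunctionFinEquiv_apply]
  set f := finFunctionFinEquiv.symm t with hf
  have ht : (t : ℕ) = ∑ j : Fin k, (f j : ℕ) * n ^ (j : ℕ) := by
    rw [← finFunctionFinEquiv_apply, hf, Equiv.apply_symm_apply]
  have h1 : ∑ j : Fin k, (f j : ℕ) * n ^ (j : ℕ) =
      (f i : ℕ) * n ^ (i : ℕ) + ∑ j ∈ Finset.univ.erase i, (f j : ℕ) * n ^ (j : ℕ) :=
    (Finset.add_sum_erase _ _ (Finset.mem_univ i)).symm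
  have h2 : ∑ j : Fin k, ((Function.update f i z j : Fin n) : ℕ) * n ^ (j : ℕ) =
      (z : ℕ) * n ^ (i : ℕ) + ∑ j ∈ Finset.univ.erase i, (f j : ℕ) * n ^ (j : ℕ) := by
    rw [← Finset.add_sum_erase _ _ (Finset.mem_univ i), Function.update_self]
    congr 1
    refine Finset.sum_congr rfl fun j hj => ?_
    rw [Function.update_of_ne (Finset.ne_of_mem_erase hj)]
  rw [h2, ht, h1]
  omega

end Crest.Agent.WLX
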