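import Crest.Agent.WLX.AlgJ1

/-!
# Row 290, module A: rounds of the algorithm (joint convention)

CHUNK R290-X-J2 (all lemmas of this file).
-/

set_option autoImplicit false

namespace Crest.Agent.WLX

open Crest.WLRefine

variable {n k B : ℕ}

open Classical in
/-- PROOF. both multisets have `n` elements; `Multiset.ext`, `Multiset.count_map`; if the counts
agree at all values of `f`, then (sum over the distinct values of `f`) the total `n` is exhausted. -/
theorem map_univ_eq_iff {X : Type} (f g : Fin n → X) :
    (Finset.univ : Finset (Fin n)).val.map f = (Finset.univ : Finset (Fin n)).val.map g ↔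
      ∀ z : Fin n, (Finset.univ.filter fun z' : Fin n => f z' = f z).card =
        (Finset.univ.filter fun z' : Fin n => g z' = f z).card := by
  have hc : ∀ (f : Fin n → X) (x : X), Multiset.count x ((Finset.univ : Finset (Fin n)).val.map f) =
      (Finset.univ.filter fun z' : Fin n => f z' = x).card := by
    intro f x
    rw [Multiset.count_map, Finset.card_def, Finset.filter_val]
    congr 1
    refine Multiset.filter_congr fun a _ => ?_
    exact eq_comm
  constructor
  · intro h z
    rw [← hc f, ← hc g, h]
  · intro h
    ext x
    rw [hc f, hc g]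
    by_cases hx : x ∈ Finset.univ.image f
    · obtain ⟨z, -, rfl⟩ := Finset.mem_image.1 hx
      exact h z
    · -- total count
      have h1 : ∑ y ∈ Finset.univ.image f, (Finset.univ.filter fun z' : Fin n => g z' = y).card =
          n := by
        have h2 : ∀ y ∈ Finset.univ.image f,
            (Finset.univ.filter fun z' : Fin n => g z' = y).card =
              (Finset.univ.filter fun z' : Fin n => f z' = y).card := by
          intro y hy
          obtain ⟨z, -, rfl⟩ := Finset.mem_image.1 hy
          exact (h z).symm
        rw [Finset.sum_congr rfl h2,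
          ← Finset.card_eq_sum_card_fiberwise (f := f) (s := Finset.univ)
            (t := Finset.univ.image f) (fun z hz => by simp)]
        simp
      have h3 : ∀ z', g z' ∈ Finset.univ.image f := by
        by_contra hcon
        push Not at hcon
        obtain ⟨z₀, hz₀⟩ := hcon
        have h4 : (Finset.univ.filter fun z' : Fin n => g z' ∈ Finset.univ.image f).card = n := by
          rw [Finset.card_eq_sum_card_fiberwise (f := g)
            (s := Finset.univ.filter fun z' : Fin n => g z' ∈ Finset.univ.image f)
            (t := Finset.univ.image f) (fun z hz => by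
              have := (Finset.mem_filter.1 hz).2
              exact this)]
          refine Eq.trans (Finset.sum_congr rfl fun y hy => ?_) h1
          congr 1
          ext z'
          simp only [Finset.mem_filter, Finset.mem_univ, true_and]
          constructor
          · exact fun h => h.2
          · exact fun h => ⟨h ▸ hy, h⟩
        have h5 : (Finset.univ.filter fun z' : Fin n => g z' ∈ Finset.univ.image f) =
            Finset.univ := by
          refine Finset.eq_of_subset_of_card_le (Finset.subset_univ _) ?_
          rw [h4]
          simp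
        have h6 := Finset.mem_univ z₀
        rw [← h5] at h6
        exact hz₀ (Finset.mem_filter.1 h6).2
      have h7 : (Finset.univ.filter fun z' : Fin n => f z' = x) = ∅ := by
        ext z'
        simp only [Finset.mem_filter, Finset.mem_univ, true_and, Finset.notMem_empty, iff_false]
        rintro rfl
        exact hx (Finset.mem_image_of_mem f (Finset.mem_univ _))
      have h8 : (Finset.univ.filter fun z' : Fin n => g z' = x) = ∅ := by
        ext z'
        simp only [Finset.mem_filter, Finset.mem_univ, true_and, Finset.notMem_empty, iff_false]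
        rintro rfl
        exact hx (h3 z')
      rw [h7, h8]

/-- index of the tuple `t` of the graph `g` -/
def ix (g : Fin 2) (t : Fin (n ^ k)) : ℕ := g * n ^ k + t

theorem ix_div (g : Fin 2) (t : Fin (n ^ k)) : ix g t / n ^ k = g := by
  have ht := t.2
  have hM : 0 < n ^ k := by omega
  unfold ix
  rw [mul_comm, Nat.mul_add_div hM, Nat.div_eq_of_lt ht, add_zero]

theorem ix_mod (g : Fin 2) (t : Fin (n ^ k)) : ix g t % n ^ k = t := by
  unfold ix
  rw [mul_comm, Nat.mul_add_mod, Nat.mod_eq_of_lt t.2]

theorem upg_ix (hB : n ^ k ≤ B) (g : Fin 2) (t : Fin (n ^ k)) (i : Fin k) (z : Fin n) :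
    upg B n (n ^ k) (ix g t) i z =
      ix g (finFunctionFinEquiv (Function.update (finFunctionFinEquiv.symm t) i z)) := by
  unfold upg
  rw [ix_div, ix_mod, upd_eq hB]
  rfl

theorem card_range_filter (p : ℕ → Prop) [DecidablePred p] :
    ((Finset.range n).filter p).card = (Finset.univ.filter fun z : Fin n => p z).card := by
  rw [Finset.card_filter, Finset.card_filter,
    Fin.sum_univ_eq_sum_range (fun i => if p i then 1 else 0) n]

/-- MAIN: rounds of the algorithm = colours.
PROOF. induction on `s`. `s = 0`: `J0` is equality of atomic types (`Prod.ext`, `funext`,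
`dig_eq`). Step: `JStep` at `ix g t`, `ix h r`: `z, z' < n` are `Fin n`, `upg B n (n^k) (ix g t) i z
= ix g (finFunctionFinEquiv (update .. i z))` (`upd_eq`), so by the induction hypothesis the
filtered sets are `{z' | f z' = f z}` with `f z = fun i => jcolor (adjs g) k s (update v i z)`;
`map_univ_eq_iff`. -/
theorem JT_iff (hk : 1 ≤ k) (hB : n ^ k ≤ B) {A : ℕ → ℕ → ℕ → Prop}
    {adjs : Fin 2 → Fin n → Fin n → Bool}
    (hA : ∀ (g : Fin 2) (u v : Fin n), A g u v ↔ adjs g u v = true)
    (s : ℕ) (g h : Fin 2) (t r : Fin (n ^ k)) :
    ((JStep B n k (n ^ k))^[s] (J0 B n k (n ^ k) A)) (ix g t) (ix h r) ↔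
      jcolor (adjs g) k s (finFunctionFinEquiv.symm t) =
        jcolor (adjs h) k s (finFunctionFinEquiv.symm r) := by
  classical
  induction s generalizing g h t r with
  | zero =>
    show J0 B n k (n ^ k) A (ix g t) (ix h r) ↔
      atomicType (adjs g) (finFunctionFinEquiv.symm t) =
        atomicType (adjs h) (finFunctionFinEquiv.symm r)
    unfold J0 atomicType
    rw [ix_div, ix_mod, ix_div, ix_mod, Prod.mk.injEq]
    constructor
    · intro H
      constructor
      · funext i j
        have h1 := (H i i.2 j j.2).1
        rw [dig_eq hB, dig_eq hB, dig_eq hB, dig_eq hB] at h1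
        simp only [Fin.val_inj] at h1
        exact decide_eq_decide.2 h1
      · funext i j
        have h1 := (H i i.2 j j.2).2
        rw [dig_eq hB, dig_eq hB, dig_eq hB, dig_eq hB, hA, hA] at h1
        exact Bool.eq_iff_iff.2 h1
    · rintro ⟨H1, H2⟩ i hi j hj
      have e1 := congrFun (congrFun H1 ⟨i, hi⟩) ⟨j, hj⟩
      have e2 := congrFun (congrFun H2 ⟨i, hi⟩) ⟨j, hj⟩
      have d1 := dig_eq hB t ⟨i, hi⟩
      have d2 := dig_eq hB t ⟨j, hj⟩
      have d3 := dig_eq hB r ⟨i, hi⟩
      have d4 := dig_eq hB r ⟨j, hj⟩
      rw [d1, d2, d3, d4]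
      constructor
      · rw [Fin.val_inj, Fin.val_inj]
        exact decide_eq_decide.1 e1
      · rw [hA, hA]
        exact Bool.eq_iff_iff.1 e2
  | succ s ih =>
    rw [Function.iterate_succ_apply']
    set R := (JStep B n k (n ^ k))^[s] (J0 B n k (n ^ k) A) with hR
    show JStep B n k (n ^ k) R (ix g t) (ix h r) ↔ _
    unfold JStep
    show _ ↔ (jcolor (adjs g) k s (finFunctionFinEquiv.symm t),
        (Finset.univ : Finset (Fin n)).val.map fun z => fun i =>
          jcolor (adjs g) k s (Function.update (finFunctionFinEquiv.symm t) i z)) =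
      (jcolor (adjs h) k s (finFunctionFinEquiv.symm r),
        (Finset.univ : Finset (Fin n)).val.map fun z => fun i =>
          jcolor (adjs h) k s (Function.update (finFunctionFinEquiv.symm r) i z))
    rw [Prod.mk.injEq, map_univ_eq_iff, ih]
    refine and_congr_right fun _ => ?_
    have key : ∀ (g' : Fin 2) (t' : Fin (n ^ k)) (z z' : Fin n),
        (∀ i < k, R (upg B n (n ^ k) (ix g' t') i z') (upg B n (n ^ k) (ix g t) i z)) ↔
          (fun i => jcolor (adjs g') k s (Function.update (finFunctionFinEquiv.symm t') i z')) =
          (fun i => jcolor (adjs g) k s (Function.update (finFunctionFinEquiv.symm t) i z)) := by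
      intro g' t' z z'
      rw [funext_iff]
      constructor
      · intro H i
        have h1 := H i i.2
        rw [upg_ix hB, upg_ix hB, ih] at h1
        simpa using h1
      · intro H i hi
        have h1 := H ⟨i, hi⟩
        have h2 := upg_ix hB g' t' ⟨i, hi⟩ z'
        have h3 := upg_ix hB g t ⟨i, hi⟩ z
        simp only at h2 h3
        rw [h2, h3, ih]
        simpa using h1
    constructor
    · intro H z
      have h1 := H z z.2
      rw [card_range_filter, card_range_filter] at h1
      simp only [key] at h1
      convert h1
    · intro H z hz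
      have h1 := H ⟨z, hz⟩
      rw [card_range_filter, card_range_filter]
      have k1 := key g t ⟨z, hz⟩
      have k2 := key h r ⟨z, hz⟩
      simp only at k1 k2
      simp only [k1, k2]
      convert h1

/-- the step only looks at indices `< 2 * n ^ k` -/
theorem JStep_agr (hk : 1 ≤ k) (hB : n ^ k ≤ B) (R R' : ℕ → ℕ → Prop)
    (h : AgrL (2 * n ^ k) R R') :
    AgrL (2 * n ^ k) (JStep B n k (n ^ k) R) (JStep B n k (n ^ k) R') := by
  classical
  intro a ha b hb
  have hM : 0 < n ^ k := by omega
  have hlt : ∀ a < 2 * n ^ k, ∀ i < k, ∀ z < n, upg B n (n ^ k) a i z < 2 * n ^ k := by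
    intro a ha i hi z hz
    unfold upg
    have h1 := upd_eq hB ⟨a % n ^ k, Nat.mod_lt _ hM⟩ ⟨i, hi⟩ ⟨z, hz⟩
    simp only at h1
    rw [h1]
    have h2 := (finFunctionFinEquiv (Function.update
      (finFunctionFinEquiv.symm ⟨a % n ^ k, Nat.mod_lt _ hM⟩) ⟨i, hi⟩ (⟨z, hz⟩ : Fin n)) :
        Fin (n ^ k)).2
    have h3 : a / n ^ k < 2 := Nat.div_lt_of_lt_mul (by omega)
    have h4 : a / n ^ k * n ^ k ≤ 1 * n ^ k := Nat.mul_le_mul_right _ (by omega)
    omega
  unfold JStep
  rw [h a ha b hb]
  refine and_congr_right fun _ => forall_congr' fun z => forall_congr' fun hz => ?_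
  have e1 : ((Finset.range n).filter fun z' => ∀ i < k,
        R (upg B n (n ^ k) a i z') (upg B n (n ^ k) a i z)) =
      ((Finset.range n).filter fun z' => ∀ i < k,
        R' (upg B n (n ^ k) a i z') (upg B n (n ^ k) a i z)) := by
    refine Finset.filter_congr fun z' hz' => ?_
    rw [Finset.mem_range] at hz'
    exact forall_congr' fun i => forall_congr' fun hi =>
      h _ (hlt a ha i hi z' hz') _ (hlt a ha i hi z hz)
  have e2 : ((Finset.range n).filter fun z' => ∀ i < k,
        R (upg B n (n ^ k) b i z') (upg B n (n ^ k) a i z)) =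
      ((Finset.range n).filter fun z' => ∀ i < k,
        R' (upg B n (n ^ k) b i z') (upg B n (n ^ k) a i z)) := by
    refine Finset.filter_congr fun z' hz' => ?_
    rw [Finset.mem_range] at hz'
    exact forall_congr' fun i => forall_congr' fun hi =>
      h _ (hlt b hb i hi z' hz') _ (hlt a ha i hi z hz)
  have e1' := congrArg Finset.card e1
  have e2' := congrArg Finset.card e2
  constructor
  · intro H
    calc _ = _ := e1'.symm
      _ = _ := H
      _ = _ := e2'
  · intro H
    calc _ = _ := e1'
      _ = _ := H
      _ = _ := e2'.symm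

end Crest.Agent.WLX
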