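import Crest.Agent.WLX.AlgJ2

/-!
# Row 290, module A: correctness of `JDec`

CHUNK R290-X-J3 (all lemmas of this file).
-/

set_option autoImplicit false

namespace Crest.Agent.WLX

open Crest.WLRefine

variable {n k B : ℕ}

open Classical in
theorem j3_card_range (M : ℕ) (P : ℕ → Prop) :
    ((Finset.range M).filter fun a => P a).card =
      (Finset.univ.filter fun t : Fin M => P t).card := by
  have h : ((Finset.range M).filter fun a => P a) =
      (Finset.univ.filter fun t : Fin M => P t).map Fin.valEmbedding := by
    ext a
    simp only [Finset.mem_filter, Finset.mem_range, Finset.mem_map, Finset.mem_univ, true_and,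
      Fin.valEmbedding_apply]
    constructor
    · rintro ⟨h1, h2⟩
      exact ⟨⟨a, h1⟩, h2, rfl⟩
    · rintro ⟨t, h1, rfl⟩
      exact ⟨t.2, h1⟩
  rw [h, Finset.card_map]

open Classical in
theorem j3_hist_congr {M : ℕ} {R R' : ℕ → ℕ → Prop} (h : AgrL (2 * M) R R') :
    HistEq M R ↔ HistEq M R' := by
  unfold HistEq
  refine forall_congr' fun a => forall_congr' fun ha => ?_
  have h1 : ((Finset.range M).filter fun a' => R a' a) =
      ((Finset.range M).filter fun a' => R' a' a) := by
    refine Finset.filter_congr fun a' ha' => ?_
    rw [Finset.mem_range] at ha'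
    exact h a' (by omega) a ha
  have h2 : ((Finset.range M).filter fun b => R (M + b) a) =
      ((Finset.range M).filter fun b => R' (M + b) a) := by
    refine Finset.filter_congr fun b hb => ?_
    rw [Finset.mem_range] at hb
    exact h (M + b) (by omega) a ha
  rw [h1, h2]

open Classical in
theorem j3_map_eq_iff {α X : Type} [Fintype α] (f g : α → X) :
    (Finset.univ : Finset α).val.map f = (Finset.univ : Finset α).val.map g ↔
      (∀ r, (Finset.univ.filter fun t => f t = f r).card =
        (Finset.univ.filter fun t => g t = f r).card) ∧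
      (∀ r, (Finset.univ.filter fun t => f t = g r).card =
        (Finset.univ.filter fun t => g t = g r).card) := by
  have key : ∀ (u : α → X) (c : X), Multiset.count c ((Finset.univ : Finset α).val.map u) =
      (Finset.univ.filter fun t => u t = c).card := by
    intro u c
    rw [Multiset.count_map, ← Finset.filter_val, Finset.card_val]
    congr 1
    refine Finset.filter_congr fun t _ => ?_
    exact eq_comm
  constructor
  · intro h
    refine ⟨fun r => ?_, fun r => ?_⟩
    · rw [← key, ← key, h]
    · rw [← key, ← key, h]
  · rintro ⟨h1, h2⟩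
    refine Multiset.ext.2 fun c => ?_
    rw [key, key]
    by_cases hf : ∃ r, f r = c
    · obtain ⟨r, rfl⟩ := hf
      exact h1 r
    · by_cases hg : ∃ r, g r = c
      · obtain ⟨r, rfl⟩ := hg
        exact h2 r
      · rw [Finset.filter_false_of_mem fun t _ ht => hf ⟨t, ht⟩,
          Finset.filter_false_of_mem fun t _ ht => hg ⟨t, ht⟩]

open Classical in
theorem j3_card_equiv {α β : Type} [Fintype α] [Fintype β] (e : α ≃ β) (P : β → Prop) :
    (Finset.univ.filter fun t : α => P (e t)).card = (Finset.univ.filter fun t : β => P t).card := by
  have h : (Finset.univ.filter fun t : β => P t) =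
      (Finset.univ.filter fun t : α => P (e t)).map e.toEmbedding := by
    ext b
    simp only [Finset.mem_filter, Finset.mem_univ, true_and, Finset.mem_map_equiv,
      Equiv.apply_symm_apply]
  rw [h, Finset.card_map]

/-- the histogram test at round `s` -/
theorem j3_round (hk : 1 ≤ k) (hB : n ^ k ≤ B) {A : ℕ → ℕ → ℕ → Prop}
    {adjG adjH : Fin n → Fin n → Bool}
    (hA0 : ∀ u v : Fin n, A 0 u v ↔ adjG u v = true)
    (hA1 : ∀ u v : Fin n, A 1 u v ↔ adjH u v = true) (s : ℕ) :
    HistEq (n ^ k) ((JStep B n k (n ^ k))^[s] (J0 B n k (n ^ k) A)) ↔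
      (Finset.univ : Finset (Fin k → Fin n)).val.map (jcolor adjG k s) =
        (Finset.univ : Finset (Fin k → Fin n)).val.map (jcolor adjH k s) := by
  classical
  set M := n ^ k with hM
  set R := (JStep B n k M)^[s] (J0 B n k M A) with hR
  let adjs : Fin 2 → Fin n → Fin n → Bool := ![adjG, adjH]
  have hA : ∀ (g : Fin 2) (u v : Fin n), A g u v ↔ adjs g u v = true := by
    intro g u v
    fin_cases g
    · exact hA0 u v
    · exact hA1 u v
  have hJ := fun g h t r => JT_iff hk hB hA s g h t r
  have hJ' : ∀ (g h : Fin 2) (t r : Fin M), R (ix g t) (ix h r) ↔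
      jcolor (adjs g) k s (finFunctionFinEquiv.symm t) =
        jcolor (adjs h) k s (finFunctionFinEquiv.symm r) := hJ
  have hix0 : ∀ t : Fin M, ix (n := n) (k := k) 0 t = t := by
    intro t
    simp [ix]
  have hix1 : ∀ t : Fin M, ix (n := n) (k := k) 1 t = M + t := by
    intro t
    simp [ix, hM]
  rw [j3_map_eq_iff]
  -- counting tuples
  have hcG : ∀ c, (Finset.univ.filter fun t : Fin M =>
      jcolor adjG k s (finFunctionFinEquiv.symm t) = c).card =
      (Finset.univ.filter fun v : Fin k → Fin n => jcolor adjG k s v = c).card := fun c =>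
    j3_card_equiv (finFunctionFinEquiv (m := n) (n := k)).symm (fun v => jcolor adjG k s v = c)
  have hcH : ∀ c, (Finset.univ.filter fun t : Fin M =>
      jcolor adjH k s (finFunctionFinEquiv.symm t) = c).card =
      (Finset.univ.filter fun v : Fin k → Fin n => jcolor adjH k s v = c).card := fun c =>
    j3_card_equiv (finFunctionFinEquiv (m := n) (n := k)).symm (fun v => jcolor adjH k s v = c)
  have hL : ∀ (h : Fin 2) (r : Fin M), ((Finset.range M).filter fun a' => R a' (ix h r)).card =
      (Finset.univ.filter fun v : Fin k → Fin n => jcolor adjG k s v =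
        jcolor (adjs h) k s (finFunctionFinEquiv.symm r)).card := by
    intro h r
    rw [j3_card_range, ← hcG]
    congr 1
    refine Finset.filter_congr fun t _ => ?_
    have := hJ' 0 h t r
    rw [hix0] at this
    exact this
  have hRr : ∀ (h : Fin 2) (r : Fin M),
      ((Finset.range M).filter fun b => R (M + b) (ix h r)).card =
      (Finset.univ.filter fun v : Fin k → Fin n => jcolor adjH k s v =
        jcolor (adjs h) k s (finFunctionFinEquiv.symm r)).card := by
    intro h r
    rw [j3_card_range, ← hcH]
    congr 1
    refine Finset.filter_congr fun t _ => ?_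
    have := hJ' 1 h t r
    rw [hix1] at this
    exact this
  have hmain : HistEq M R ↔ ∀ (h : Fin 2) (r : Fin M),
      (Finset.univ.filter fun v : Fin k → Fin n => jcolor adjG k s v =
        jcolor (adjs h) k s (finFunctionFinEquiv.symm r)).card =
      (Finset.univ.filter fun v : Fin k → Fin n => jcolor adjH k s v =
        jcolor (adjs h) k s (finFunctionFinEquiv.symm r)).card := by
    constructor
    · intro hh h r
      have hlt : ix (n := n) (k := k) h r < 2 * M := by
        have hr := r.2
        fin_cases h
        · have := hix0 r
          simp only [Fin.zero_eta] at *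
          omega
        · have := hix1 r
          simp only [Fin.mk_one] at *
          omega
      have := hh _ hlt
      rw [← hL, ← hRr]
      convert this
    · intro hh a ha
      by_cases h0 : a < M
      · have e : a = ix (n := n) (k := k) 0 ⟨a, h0⟩ := (hix0 ⟨a, h0⟩).symm
        have h3 := hh 0 ⟨a, h0⟩
        rw [← hL, ← hRr, ← e] at h3
        convert h3
      · have h1 : a - M < M := by omega
        have e : a = ix (n := n) (k := k) 1 ⟨a - M, h1⟩ := by
          rw [hix1]
          simp only
          omega
        have h3 := hh 1 ⟨a - M, h1⟩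
        rw [← hL, ← hRr, ← e] at h3
        convert h3
  rw [hmain]
  constructor
  · intro h
    refine ⟨fun v => ?_, fun v => ?_⟩
    · have h2 := h 0 (finFunctionFinEquiv v)
      rw [Equiv.symm_apply_apply] at h2
      convert h2 <;> rfl
    · have h2 := h 1 (finFunctionFinEquiv v)
      rw [Equiv.symm_apply_apply] at h2
      convert h2 <;> rfl
  · rintro ⟨h1, h2⟩ h r
    fin_cases h
    · have h3 := h1 (finFunctionFinEquiv.symm r)
      convert h3 <;> rfl
    · have h3 := h2 (finFunctionFinEquiv.symm r)
      convert h3 <;> rfl

/-- PROOF. `rd_runT`, `JStep_agr`, `stab` (with `L = 2 * n^k`), `JT_iff`; `JEquiv` at round `s`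
says: for every colour `c` the numbers of tuples of colour `c` agree; only colours of tuples
matter; the relation at round `s ≥ L*L` equals the one at round `L*L`; for `s ≤ L*L` project the
histogram (`jcolor (s+1)` has `jcolor s` as first component). `n = 0`: everything is empty. -/
theorem JDec_iff (hk : 1 ≤ k) (hB : n ^ k ≤ B) {A : ℕ → ℕ → ℕ → Prop}
    {adjG adjH : Fin n → Fin n → Bool}
    (hA0 : ∀ u v : Fin n, A 0 u v ↔ adjG u v = true)
    (hA1 : ∀ u v : Fin n, A 1 u v ↔ adjH u v = true) :
    JDec B n k A ↔ JEquiv k adjG adjH := by
  rcases Nat.eq_zero_or_pos n with rfl | hn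
  · refine iff_of_true ?_ ?_
    · have hp : pw B 0 k = 0 := by
        unfold pw
        rw [zero_pow (by omega)]
        exact Nat.zero_min _
      unfold JDec
      rw [hp]
      intro a ha
      omega
    · intro s
      have : Nonempty (Fin k) := ⟨⟨0, by omega⟩⟩
      have : IsEmpty (Fin k → Fin 0) := by infer_instance
      rw [Finset.univ_eq_empty]
      rfl
  · have hp : pw B n k = n ^ k := pw_eq hB le_rfl hn
    unfold JDec
    rw [hp]
    set L := 2 * n ^ k with hL
    set F := JStep B n k (n ^ k) with hF
    set R0 := J0 B n k (n ^ k) A with hR0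
    have hagr : ∀ R R' : ℕ → ℕ → Prop, AgrL L R R' → AgrL L (F R) (F R') :=
      fun R R' h => JStep_agr hk hB R R' h
    have h1 : HistEq (n ^ k) (rd L (runT L F R0 (L * L))) ↔
        HistEq (n ^ k) (F^[L * L] R0) := by
      refine j3_hist_congr fun a ha b hb => ?_
      exact rd_runT R0 (fun R R' h => hagr R R' h) (L * L) ha hb
    rw [h1, j3_round hk hB hA0 hA1]
    constructor
    · intro h s
      rcases le_total (L * L) s with hs | hs
      · have h2 := stab R0 hagr (fun R a b h => h.1) s hs
        rw [← j3_round hk hB hA0 hA1 s]
        rw [← j3_round hk hB hA0 hA1] at h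
        exact (j3_hist_congr h2).2 h
      · have key : ∀ d t : ℕ, t + d = L * L →
            (Finset.univ : Finset (Fin k → Fin n)).val.map (jcolor adjG k t) =
              (Finset.univ : Finset (Fin k → Fin n)).val.map (jcolor adjH k t) := by
          intro d
          induction d with
          | zero =>
            intro t ht
            have : t = L * L := by omega
            rw [this]
            exact h
          | succ d ih =>
            intro t ht
            have h3 := congrArg (Multiset.map Prod.fst) (ih (t + 1) (by omega))
            rw [Multiset.map_map, Multiset.map_map] at h3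
            exact h3
        exact key (L * L - s) s (by omega)
    · intro h
      exact h _

end Crest.Agent.WLX
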