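import Crest.Agent.WLX.Alg

/-!
# Row 290, module A: stabilisation of a decreasing operator

CHUNK R290-X-STAB (all lemmas of this file).
-/

set_option autoImplicit false

namespace Crest.Agent.WLX

/-- `R` and `R'` agree on `{0..L-1}` -/
def AgrL (L : ℕ) (R R' : ℕ → ℕ → Prop) : Prop := ∀ a < L, ∀ b < L, (R a b ↔ R' a b)

theorem AgrL.symm {L : ℕ} {R R' : ℕ → ℕ → Prop} (h : AgrL L R R') : AgrL L R' R :=
  fun a ha b hb => (h a ha b hb).symm

theorem AgrL.trans {L : ℕ} {R R' R'' : ℕ → ℕ → Prop} (h : AgrL L R R') (h' : AgrL L R' R'') :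
    AgrL L R R'' :=
  fun a ha b hb => (h a ha b hb).trans (h' a ha b hb)

/-- After `L * L` rounds a decreasing operator that only looks at `{0..L-1}` is stable.
PROOF. Let `E s = {(a,b) ∈ [L]×[L] | F^[s] R0 a b}` (a finset). `E (s+1) ⊆ E s`, and `E s = E (s+1)`
implies `AgrL L (F^[s] R0) (F^[s+1] R0)`, hence (by `hF` and induction) agreement for all later
rounds. If `E s ≠ E (s+1)` for all `s < L*L+1` ... then the cardinalities drop `L*L+1` times:
contradiction. (Show by induction: `E s = E (s+1)` for some `s ≤ L*L`.) -/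
theorem stab {L : ℕ} {F : (ℕ → ℕ → Prop) → ℕ → ℕ → Prop} (R0 : ℕ → ℕ → Prop)
    (hF : ∀ R R' : ℕ → ℕ → Prop, AgrL L R R' → AgrL L (F R) (F R'))
    (hd : ∀ (R : ℕ → ℕ → Prop) (a b : ℕ), F R a b → R a b) (s : ℕ) (hs : L * L ≤ s) :
    AgrL L (F^[s] R0) (F^[L * L] R0) := by
  classical
  set E : ℕ → Finset (ℕ × ℕ) := fun s =>
    (Finset.range L ×ˢ Finset.range L).filter (fun p => (F^[s] R0) p.1 p.2) with hE
  have hsub : ∀ s, E (s + 1) ⊆ E s := by
    intro s p hp
    simp only [hE, Finset.mem_filter] at hp ⊢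
    refine ⟨hp.1, ?_⟩
    have h2 := hp.2
    rw [Function.iterate_succ_apply'] at h2
    exact hd _ _ _ h2
  have hagr : ∀ s, E s = E (s + 1) → AgrL L (F^[s] R0) (F^[s + 1] R0) := by
    intro s hs a ha b hb
    have hm : ((a, b) ∈ E s) ↔ ((a, b) ∈ E (s + 1)) := by rw [hs]
    simp only [hE, Finset.mem_filter, Finset.mem_product, Finset.mem_range, ha, hb, and_self,
      true_and] at hm
    exact hm
  have hex : ∃ s0 ≤ L * L, E s0 = E (s0 + 1) := by
    by_contra hcon
    push Not at hcon
    have hcard : ∀ s ≤ L * L + 1, (E s).card + s ≤ L * L := by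
      intro s
      induction s with
      | zero =>
        intro _
        have := Finset.card_filter_le (Finset.range L ×ˢ Finset.range L)
          (fun p : ℕ × ℕ => (F^[0] R0) p.1 p.2)
        simpa [hE] using this
      | succ s ih =>
        intro hs
        have h1 := ih (by omega)
        have h2 : (E (s + 1)).card < (E s).card := by
          refine Finset.card_lt_card ?_
          refine Finset.ssubset_iff_subset_ne.mpr ⟨hsub s, ?_⟩
          exact fun h => hcon s (by omega) h.symm
        omega
    have := hcard (L * L + 1) le_rfl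
    omega
  obtain ⟨s0, hs0, hEs⟩ := hex
  have hnext : ∀ n, AgrL L (F^[s0 + n] R0) (F^[s0 + n + 1] R0) := by
    intro n
    induction n with
    | zero => exact hagr s0 hEs
    | succ n ih =>
      have h := hF _ _ ih
      rw [← Function.iterate_succ_apply' F (s0 + n) R0,
        ← Function.iterate_succ_apply' F (s0 + n + 1) R0] at h
      exact h
  have hall : ∀ n, AgrL L (F^[s0] R0) (F^[s0 + n] R0) := by
    intro n
    induction n with
    | zero => exact fun a _ b _ => Iff.rfl
    | succ n ih => exact ih.trans (hnext n)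
  have e1 : s = s0 + (s - s0) := by omega
  have e2 : L * L = s0 + (L * L - s0) := by omega
  rw [e1, e2]
  exact (hall _).symm.trans (hall _)

end Crest.Agent.WLX
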