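import Crest.Agent.WLX.Alg

/-!
# Row 290, module A: `JDec` and `CDec` are polynomial-time decidable (in the unary size)

Contexts: `pu (pu (pu w g) u) v` for an adjacency with three number arguments.
-/

set_option autoImplicit false

namespace Crest.Agent.WLX

open Crest.Agent.CHR Crest.CountHier

/-- `A w g u v` is decidable in polynomial time in the context `pu (pu (pu w g) u) v` -/
def UP3 (A : W → ℕ → ℕ → ℕ → Prop) : Prop :=
  UP (fun z => A (fstB (fstB (fstB z))) (sndB (fstB (fstB z))).length (sndB (fstB z)).length
    (sndB z).length)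

/-- evaluation in another context -/
theorem UP3.app {A : W → ℕ → ℕ → ℕ → Prop} (hA : UP3 A) {f : W → W} {g u v : W → ℕ}
    (hf : PolyTime f) (hg : UN g) (hu : UN u) (hv : UN v) :
    UP (fun z => A (f z) (g z) (u z) (v z)) := by
  have h : PolyTime (fun z => pu (pu (pu (f z) (g z)) (u z)) (v z)) :=
    PT.pair (PT.pair (PT.pair hf hg) hu) hv
  refine (UP.comp hA h).congr fun z => ?_
  simp

end Crest.Agent.WLX
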