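import Crest.Agent.WLX.AlgU

/-!
# Row 290, module A

CHUNK R290-X-UC (all lemmas of this file).
-/

set_option autoImplicit false

namespace Crest.Agent.WLX

open Crest.Agent.CHR Crest.CountHier

private theorem fstn {f : W → W} (hf : PolyTime f) : PolyTime (fun z => fstB (f z)) :=
  PT.comp PT.fst hf

private theorem sndn {f : W → W} (hf : PolyTime f) : PolyTime (fun z => sndB (f z)) :=
  PT.comp PT.snd hf

/-- evaluation of a relation in another context -/
theorem UP.app2 {R : W → ℕ → ℕ → Prop}
    (hR : UP (fun z => R (fstB (fstB z)) (sndB (fstB z)).length (sndB z).length))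
    {f : W → W} {g u : W → ℕ} (hf : PolyTime f) (hg : UN g) (hu : UN u) :
    UP (fun z => R (f z) (g z) (u z)) := by
  have h : PolyTime (fun z => pu (pu (f z) (g z)) (u z)) := PT.pair (PT.pair hf hg) hu
  refine (UP.comp hR h).congr fun z => ?_
  simp

theorem UP.HistEq {M : W → ℕ} {R : W → ℕ → ℕ → Prop} (hM : UN M)
    (hR : UP (fun z => R (fstB (fstB z)) (sndB (fstB z)).length (sndB z).length)) :
    UP (fun w => WLX.HistEq (M w) (R w)) := by
  classical
  have hff : PolyTime (fun y : W => fstB (fstB y)) := fstn PT.fst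
  have hv : UN (fun y : W => (sndB (fstB y)).length) := UN.len (sndn PT.fst)
  have h1 : UP (fun y => R (fstB (fstB y)) (sndB y).length (sndB (fstB y)).length) :=
    UP.app2 hR hff UN.var hv
  have h2 : UP (fun y => R (fstB (fstB y)) (M (fstB (fstB y)) + (sndB y).length)
      (sndB (fstB y)).length) :=
    UP.app2 hR hff ((hM.comp hff).add UN.var) hv
  have h3 := UP.eqN
    (UN.card (N := fun z => M (fstB z)) (P := fun z a' => R (fstB z) a' (sndB z).length) hM.fst h1)
    (UN.card (N := fun z => M (fstB z))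
      (P := fun z b => R (fstB z) (M (fstB z) + b) (sndB z).length) hM.fst h2)
  have h4 := UP.all (N := fun w => 2 * M w)
    (P := fun w a => ((Finset.range (M w)).filter fun a' => R w a' a).card =
      ((Finset.range (M w)).filter fun b => R w (M w + b) a).card)
    ((UN.const 2).mul hM) h3
  exact h4

theorem UP.CStep {n a b : W → ℕ} {A : W → ℕ → ℕ → ℕ → Prop} {R : W → ℕ → ℕ → Prop}
    (hn : UN n) (ha : UN a) (hb : UN b) (hA : UP3 A)
    (hR : UP (fun z => R (fstB (fstB z)) (sndB (fstB z)).length (sndB z).length)) :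
    UP (fun w => WLX.CStep (n w) (A w) (R w) (a w) (b w)) := by
  classical
  have hff : PolyTime (fun y : W => fstB (fstB y)) := fstn PT.fst
  have hv : UN (fun y : W => (sndB (fstB y)).length) := UN.len (sndn PT.fst)
  have hn2 : UN (fun y : W => n (fstB (fstB y))) := hn.comp hff
  have key : ∀ c : W → ℕ, UN c →
      UN (fun z => ((Finset.range (n (fstB z))).filter fun z' =>
        A (fstB z) (c (fstB z) / n (fstB z)) (c (fstB z) % n (fstB z)) z' ∧
        R (fstB z) (c (fstB z) / n (fstB z) * n (fstB z) + z') (sndB z).length).card) := by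
    intro c hc
    have hc2 : UN (fun y : W => c (fstB (fstB y))) := hc.comp hff
    have h1 : UP (fun y => A (fstB (fstB y)) (c (fstB (fstB y)) / n (fstB (fstB y)))
        (c (fstB (fstB y)) % n (fstB (fstB y))) (sndB y).length) :=
      hA.app hff (hc2.div hn2) (hc2.mod hn2) UN.var
    have h2 : UP (fun y => R (fstB (fstB y))
        (c (fstB (fstB y)) / n (fstB (fstB y)) * n (fstB (fstB y)) + (sndB y).length)
        (sndB (fstB y)).length) :=
      UP.app2 hR hff (((hc2.div hn2).mul hn2).add UN.var) hv
    refine (UN.card (N := fun z => n (fstB z)) (P := fun z z' =>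
        A (fstB z) (c (fstB z) / n (fstB z)) (c (fstB z) % n (fstB z)) z' ∧
        R (fstB z) (c (fstB z) / n (fstB z) * n (fstB z) + z') (sndB z).length) hn.fst
        (h1.and h2)).congr fun z => ?_
    congr
  have h0 : UP (fun w => R w (a w) (b w)) := UP.app2 hR PT.id ha hb
  have h4 := UP.all (N := fun w => 2 * n w)
    (P := fun w z => ((Finset.range (n w)).filter fun z' =>
        A w (a w / n w) (a w % n w) z' ∧ R w (a w / n w * n w + z') z).card =
      ((Finset.range (n w)).filter fun z' =>
        A w (b w / n w) (b w % n w) z' ∧ R w (b w / n w * n w + z') z).card)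
    ((UN.const 2).mul hn) (UP.eqN (key a ha) (key b hb))
  exact h0.and h4

/-- PROOF. `PT.runT`, `UP.HistEq`, `UP.rd`. -/
theorem UP.CDec {n : W → ℕ} {A : W → ℕ → ℕ → ℕ → Prop} (hn : UN n) (hA : UP3 A) :
    UP (fun w => WLX.CDec (n w) (A w)) := by
  have f1 : PolyTime (fun y : W => fstB y) := PT.fst
  have f2 : PolyTime (fun y : W => fstB (fstB y)) := fstn f1
  have f3 : PolyTime (fun y : W => fstB (fstB (fstB y))) := fstn f2
  have f4 : PolyTime (fun y : W => fstB (fstB (fstB (fstB y)))) := fstn f3
  have f5 : PolyTime (fun y : W => fstB (fstB (fstB (fstB (fstB y))))) := fstn f4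
  have f6 : PolyTime (fun y : W => fstB (fstB (fstB (fstB (fstB (fstB y)))))) := fstn f5
  have hL : UN (fun w => 2 * n w) := (UN.const 2).mul hn
  have hS : UN (fun w => 2 * n w * (2 * n w)) := hL.mul hL
  have hF : UP (fun z => WLX.CStep (n (fstB (fstB (fstB z)))) (A (fstB (fstB (fstB z))))
      (WLX.rd (2 * n (fstB (fstB (fstB z)))) (sndB (fstB (fstB z))))
      (sndB (fstB z)).length (sndB z).length) := by
    refine UP.CStep (n := fun z => n (fstB (fstB (fstB z)))) (a := fun z => (sndB (fstB z)).length)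
      (b := fun z => (sndB z).length) (A := fun z => A (fstB (fstB (fstB z))))
      (R := fun z => WLX.rd (2 * n (fstB (fstB (fstB z)))) (sndB (fstB (fstB z))))
      (hn.comp f3) (UN.len (sndn f1)) UN.var ?_ ?_
    · exact hA.app f6 (UN.len (sndn f2)) (UN.len (sndn f1)) UN.var
    · exact UP.rd (hL.comp f5) (sndn f4) (UN.len (sndn f1)) UN.var
  have hT : PolyTime (fun w => WLX.runT (2 * n w) (WLX.CStep (n w) (A w)) (fun _ _ => True)
      (2 * n w * (2 * n w))) :=
    PT.runT (L := fun w => 2 * n w) (F := fun w => WLX.CStep (n w) (A w))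
      (R0 := fun _ _ _ => True) (S := fun w => 2 * n w * (2 * n w)) hL hS (UP.const True) hF
  exact UP.HistEq (M := n) (R := fun w => WLX.rd (2 * n w)
    (WLX.runT (2 * n w) (WLX.CStep (n w) (A w)) (fun _ _ => True) (2 * n w * (2 * n w)))) hn
    (UP.rd (hL.comp f2) (PT.comp hT f2) (UN.len (sndn f1)) UN.var)

end Crest.Agent.WLX
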