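import Mathlib
import Crest.Prelude.Def_WL

/-!
# Row 290, module A: large dimensions, orders

CHUNK R290-X-BIG (all lemmas of this file).
-/

set_option autoImplicit false

namespace Crest.Agent.WLX

open Crest.WLRefine

variable {n m : ℕ}

/-- PROOF. histograms at round `0` have `n ^ k` and `m ^ k` elements. -/
theorem JEquiv.card {k : ℕ} (hk : 1 ≤ k) {G : Fin n → Fin n → Bool} {H : Fin m → Fin m → Bool}
    (h : JEquiv k G H) : n = m := by
  have h0 := congrArg Multiset.card (h 0)
  have h1 : n ^ k = m ^ k := by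
    simpa using h0
  exact Nat.pow_left_injective (by omega) h1

theorem CREquiv.card {G : Fin n → Fin n → Bool} {H : Fin m → Fin m → Bool}
    (h : CREquiv G H) : n = m := by
  have h0 := congrArg Multiset.card (h 0)
  simpa using h0

theorem WLEquiv.card {k : ℕ} (hk : 1 ≤ k) {G : Fin n → Fin n → Bool} {H : Fin m → Fin m → Bool}
    (h : WLEquiv k G H) : n = m := by
  unfold WLEquiv at h
  split_ifs at h with h1
  · exact CREquiv.card h
  · exact JEquiv.card hk h

/-- `jcolor` is invariant under relabelling -/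
theorem jcolor_relabel {k : ℕ} {G H : Fin n → Fin n → Bool} (e : Fin n ≃ Fin n)
    (he : ∀ v w, H (e v) (e w) = G v w) (s : ℕ) :
    ∀ v : Fin k → Fin n, jcolor H k s (fun i => e (v i)) = jcolor G k s v := by
  induction s with
  | zero =>
    intro v
    simp only [jcolor, atomicType, he, EmbeddingLike.apply_eq_iff_eq]
  | succ s ih =>
    intro v
    simp only [jcolor]
    refine Prod.ext (ih v) ?_
    have key : ∀ z : Fin n, (fun i => jcolor H k s (Function.update (fun i => e (v i)) i (e z)))
        = fun i => jcolor G k s (Function.update v i z) := by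
      intro z
      funext i
      rw [← ih (Function.update v i z)]
      congr 1
      funext j
      by_cases hj : j = i
      · subst hj; simp
      · simp [Function.update_of_ne hj]
    have h2 : (Finset.univ : Finset (Fin n)).val.map e = (Finset.univ : Finset (Fin n)).val := by
      simp
    calc Multiset.map (fun z => fun i => jcolor H k s (Function.update (fun i => e (v i)) i z))
          (Finset.univ : Finset (Fin n)).val
        = Multiset.map (fun z => fun i => jcolor H k s (Function.update (fun i => e (v i)) i z))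
          (Multiset.map e (Finset.univ : Finset (Fin n)).val) := by rw [h2]
      _ = _ := by
        rw [Multiset.map_map]
        exact Multiset.map_congr rfl (fun z _ => key z)

/-- PROOF. `jcolor` is invariant under relabelling (induction on the round), relabel all tuples. -/
theorem AdjIso.jequiv {k : ℕ} {G H : Fin n → Fin n → Bool} (h : AdjIso G H) : JEquiv k G H := by
  obtain ⟨e, he⟩ := h
  intro s
  let E : (Fin k → Fin n) ≃ (Fin k → Fin n) := Equiv.arrowCongr (Equiv.refl _) e
  have h2 : (Finset.univ : Finset (Fin k → Fin n)).val.map E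
      = (Finset.univ : Finset (Fin k → Fin n)).val := by
    simp
  conv_rhs => rw [← h2, Multiset.map_map]
  exact Multiset.map_congr rfl (fun v _ => (jcolor_relabel e he s v).symm)

/-- PROOF. a tuple listing all vertices has a partner of the same atomic type (round `0`), which
is a bijection preserving adjacency. -/
theorem JEquiv.iso {k : ℕ} (hk : 1 ≤ k) (hn : n ≤ k) {G H : Fin n → Fin n → Bool}
    (h : JEquiv k G H) : AdjIso G H := by
  rcases Nat.eq_zero_or_pos n with h0 | h0
  · subst h0
    exact ⟨Equiv.refl _, fun v => v.elim0⟩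
  -- the listing tuple
  let v : Fin k → Fin n := fun i => if hi : (i : ℕ) < n then ⟨i, hi⟩ else ⟨0, h0⟩
  have hmem : jcolor G k 0 v ∈ (Finset.univ : Finset (Fin k → Fin n)).val.map (jcolor H k 0) := by
    rw [← h 0]
    exact Multiset.mem_map_of_mem _ (Finset.mem_univ v)
  obtain ⟨w, -, hw⟩ := Multiset.mem_map.1 hmem
  simp only [jcolor, atomicType, Prod.mk.injEq] at hw
  obtain ⟨hw1, hw2⟩ := hw
  let c : Fin n → Fin k := fun x => ⟨x, lt_of_lt_of_le x.2 hn⟩
  have hvc : ∀ x, v (c x) = x := by
    intro x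
    simp [v, c]
  have hinj : Function.Injective fun x => w (c x) := by
    intro x y hxy
    have h1 := congrFun (congrFun hw1 (c x)) (c y)
    simp only [hvc, decide_eq_decide] at h1
    exact h1.1 hxy
  refine ⟨Equiv.ofBijective _ (Finite.injective_iff_bijective.1 hinj), fun x y => ?_⟩
  have h1 := congrFun (congrFun hw2 (c x)) (c y)
  simp only [hvc] at h1
  exact h1

theorem JEquiv_min {k : ℕ} (hk : 1 ≤ k) (G H : Fin n → Fin n → Bool) :
    JEquiv k G H ↔ JEquiv (min k (n + 2)) G H := by
  rcases le_total k (n + 2) with h | h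
  · rw [min_eq_left h]
  · rw [min_eq_right h]
    exact ⟨fun h1 => AdjIso.jequiv (JEquiv.iso hk (by omega) h1),
      fun h1 => AdjIso.jequiv (JEquiv.iso (by omega) (by omega) h1)⟩

/-- only graphs of the same order matter -/
theorem Identifies_iff {k : ℕ} (hk : 1 ≤ k) (G : Fin n → Fin n → Bool) :
    Identifies k G ↔ ∀ H : Fin n → Fin n → Bool, IsSimple H → WLEquiv k G H → AdjIso G H := by
  constructor
  · intro h H hH hE
    exact h n H hH hE
  · intro h m H hH hE
    have := WLEquiv.card hk hE
    subst this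
    exact h H hH hE

/-- dimensions above `n + 2` are not needed.  PROOF. `Identifies (n+2) G` always holds
(`WLEquiv (n+2) = JEquiv (n+2)`, `JEquiv.iso`). -/
theorem ident_min {k : ℕ} (G : Fin n → Fin n → Bool) :
    (∃ k', 1 ≤ k' ∧ k' ≤ k ∧ Identifies k' G) ↔
      ∃ k' < n + 3, 1 ≤ k' ∧ k' ≤ k ∧ Identifies k' G := by
  constructor
  · rintro ⟨k', h1, h2, h3⟩
    rcases Nat.lt_or_ge k' (n + 3) with h4 | h4
    · exact ⟨k', h4, h1, h2, h3⟩
    · refine ⟨n + 2, by omega, by omega, by omega, ?_⟩
      rw [Identifies_iff (by omega)]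
      intro H _ hE
      unfold WLEquiv at hE
      rw [if_neg (by omega)] at hE
      exact JEquiv.iso (by omega) (by omega) hE
  · rintro ⟨k', -, h1, h2, h3⟩
    exact ⟨k', h1, h2, h3⟩

/-- every set of vertices is given by the bits of a number -/
theorem exists_bits (A : Fin n → Prop) :
    ∃ S < 2 ^ n, ∀ u : Fin n, S / 2 ^ (u : ℕ) % 2 = 1 ↔ A u := by
  classical
  refine ⟨Nat.ofBits fun u : Fin n => decide (A u), Nat.ofBits_lt_two_pow _, fun u => ?_⟩
  have h1 := Nat.testBit_ofBits_lt (fun u : Fin n => decide (A u)) u u.2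
  rw [Nat.testBit_eq_decide_div_mod_eq] at h1
  simpa using h1

/-- connectedness of a simple graph by cuts.
PROOF. `←`: `n > 0` gives `Nonempty`; for `u v` take `S` = set reachable from `u`. `→`: a walk
from a vertex of `S` to a vertex outside has an edge leaving `S`. Here a set `S` is given by the
bits of a number `< 2 ^ n` (`S / 2^u % 2 = 1`); every subset arises (`Finset.sum 2^u`, or
`Nat.testBit`, `Nat.ofBits`). -/
theorem connected_iff (adj : Fin n → Fin n → Bool) :
    (adjGraph adj).Connected ↔ 0 < n ∧ ∀ S < 2 ^ n,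
      (∃ u : Fin n, S / 2 ^ (u : ℕ) % 2 = 1) → (∃ v : Fin n, S / 2 ^ (v : ℕ) % 2 ≠ 1) →
        ∃ u v : Fin n, S / 2 ^ (u : ℕ) % 2 = 1 ∧ S / 2 ^ (v : ℕ) % 2 ≠ 1 ∧
          (adj u v = true ∨ adj v u = true) := by
  constructor
  · intro h
    have := h.nonempty
    refine ⟨Fin.pos_iff_nonempty.2 h.nonempty, fun S hS => ?_⟩
    rintro ⟨u, hu⟩ ⟨v, hv⟩
    obtain ⟨p⟩ := h.preconnected u v
    obtain ⟨d, -, hd1, hd2⟩ := p.exists_boundary_dart {x : Fin n | S / 2 ^ (x : ℕ) % 2 = 1} hu hv
    refine ⟨d.fst, d.snd, hd1, hd2, ?_⟩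
    have h3 : (SimpleGraph.fromRel fun v w => adj v w = true).Adj d.fst d.snd := d.adj
    rw [SimpleGraph.fromRel_adj] at h3
    exact h3.2
  · rintro ⟨h0, h⟩
    have : Nonempty (Fin n) := Fin.pos_iff_nonempty.1 h0
    refine ⟨fun u v => ?_⟩
    by_contra hc
    obtain ⟨S, hS, hSA⟩ := exists_bits (n := n) fun x => (adjGraph adj).Reachable u x
    obtain ⟨x, y, hx, hy, hxy⟩ := h S hS ⟨u, (hSA u).2 (SimpleGraph.Reachable.refl u)⟩
      ⟨v, fun h2 => hc ((hSA v).1 h2)⟩
    rw [hSA x] at hx
    rw [Ne, hSA y] at hy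
    apply hy
    refine hx.trans (SimpleGraph.Adj.reachable ?_)
    rw [adjGraph, SimpleGraph.fromRel_adj]
    refine ⟨?_, hxy⟩
    rintro rfl
    exact hy hx

end Crest.Agent.WLX
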