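import Crest.Agent.WLX.GXDef

/-!
# Row 290: `X.step`, `X.junk`, `X.len` in terms of the views

CHUNK R290-X-GXB (all lemmas of this file).
-/

set_option autoImplicit false

namespace Crest.Agent.WLX.GX

open Crest.Agent.WL

variable {S : Sys} {b : S.C → ZMod 2} {AL : ℕ → Prop} {SL : ℕ → ℕ → ℕ → Prop} {B : ℕ → Prop}

theorem gxb_vlt (x : ZMod 2) : x.val < 2 := ZMod.val_lt x

theorem gxb_veq (x y : ZMod 2) : x = y ↔ x.val = y.val := (ZMod.val_injective 2).eq_iff.symm

theorem gxb_ceq (c c' : S.C) : (S.eC c).val = (S.eC c').val ↔ c = c' := by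
  constructor
  · intro h; exact S.eC.injective (Fin.val_injective h)
  · rintro rfl; rfl

theorem gxb_eeq (c c' : S.E) : (S.eE c).val = (S.eE c').val ↔ c = c' := by
  constructor
  · intro h; exact S.eE.injective (Fin.val_injective h)
  · rintro rfl; rfl

theorem gxb_aeq (a a' : Fin 4 → ZMod 2) :
    (a' 0).val * 8 + (a' 1).val * 4 + (a' 2).val * 2 + (a' 3).val =
      (a 0).val * 8 + (a 1).val * 4 + (a 2).val * 2 + (a 3).val ↔ a = a' := by
  constructor
  · intro h
    have h0 := gxb_vlt (a 0)
    have h1 := gxb_vlt (a 1)
    have h2 := gxb_vlt (a 2)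
    have h3 := gxb_vlt (a 3)
    have h0' := gxb_vlt (a' 0)
    have h1' := gxb_vlt (a' 1)
    have h2' := gxb_vlt (a' 2)
    have h3' := gxb_vlt (a' 3)
    have e0 : a 0 = a' 0 := (gxb_veq _ _).2 (by omega)
    have e1 : a 1 = a' 1 := (gxb_veq _ _).2 (by omega)
    have e2 : a 2 = a' 2 := (gxb_veq _ _).2 (by omega)
    have e3 : a 3 = a' 3 := (gxb_veq _ _).2 (by omega)
    funext i
    fin_cases i
    · exact e0
    · exact e1
    · exact e2
    · exact e3
  · rintro rfl; rfl

/-- PROOF. cases on the value of `s`; the value in `ZMod 2` of a sum is the sum mod 2. -/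
theorem fullN_eq (hB : ∀ c, B (S.eC c).val ↔ b c = 1) (c : S.C) (a : Fin 4 → ZMod 2) (s : Fin 5) :
    fullN B (S.eC c).val ((a 0).val * 8 + (a 1).val * 4 + (a 2).val * 2 + (a 3).val) s.val =
      (X.full S b c a s).val := by
  classical
  have h0 := gxb_vlt (a 0)
  have h1 := gxb_vlt (a 1)
  have h2 := gxb_vlt (a 2)
  have h3 := gxb_vlt (a 3)
  unfold fullN X.full
  fin_cases s
  · simp; omega
  · simp; omega
  · simp; omega
  · simp; omega
  · have hb : (b c).val = if B (S.eC c).val then 1 else 0 := by
      by_cases h : b c = 1
      · rw [if_pos ((hB c).2 h), h]; rfl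
      · have h' : b c = 0 := by
          have : ∀ x : ZMod 2, x ≠ 1 → x = 0 := by decide
          exact this _ h
        rw [if_neg (fun hh => h ((hB c).1 hh)), h']; rfl
    have hval : (b c + (a 0 + a 1 + a 2 + a 3)).val =
        ((b c).val + ((a 0).val + (a 1).val + (a 2).val + (a 3).val)) % 2 := by
      simp only [ZMod.val_add]; omega
    norm_num
    rw [hval, hb]
    clear hval hb
    have q0 : (a 0).val = 0 ∨ (a 0).val = 1 := by omega
    have q1 : (a 1).val = 0 ∨ (a 1).val = 1 := by omega
    have q2 : (a 2).val = 0 ∨ (a 2).val = 1 := by omega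
    have q3 : (a 3).val = 0 ∨ (a 3).val = 1 := by omega
    rcases q0 with q0 | q0 <;> rcases q1 with q1 | q1 <;> rcases q2 with q2 | q2 <;>
      rcases q3 with q3 | q3 <;> rw [q0, q1, q2, q3]

/-- PROOF. 36 cases; `S.eC` and `ZMod.val` are injective. -/
theorem step_iff (hAL : ∀ c, AL (S.eC c).val ↔ S.al c = true)
    (hSL : ∀ c (s : Fin 5) e, SL (S.eC c).val s.val (S.eE e).val ↔ S.slot c s = some e)
    (hB : ∀ c, B (S.eC c).val ↔ b c = 1) (u v : V0 S) :
    X.step S b u v = true ↔ stepV AL SL B (kd u) (vc u) (vs u) (vr u) (ve u) (vn u) (vx u)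
      (kd v) (vc v) (vs v) (vr v) (ve v) (vn v) (vx v) := by
  have hv := gxb_vlt
  cases u with
  | co c a s =>
    cases v with
    | co c' a' s' =>
      have g0 := hv (a 0)
      have g1 := hv (a 1)
      have g2 := hv (a 2)
      have g3 := hv (a 3)
      have g0' := hv (a' 0)
      have g1' := hv (a' 1)
      have g2' := hv (a' 2)
      have g3' := hv (a' 3)
      simp only [X.step, stepV, kd, vc, vs, vr, ve, vn, vx, Bool.and_eq_true, decide_eq_true_eq,
        ← hAL, ← gxb_aeq, ← gxb_ceq]
      constructor
      · rintro ⟨k0, k1, k2, k3⟩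
        exact Or.inl ⟨by trivial, by trivial, k1, k0, Or.inl ⟨by omega, k2, k3⟩⟩
      · rintro (⟨-, -, k1, k2, k3⟩ | h | h | h)
        · refine ⟨k2, k1, ?_, ?_⟩ <;> omega
        · omega
        · omega
        · omega
    | t0 c' s' x' =>
      have g0 := hv (a 0)
      have g1 := hv (a 1)
      have g2 := hv (a 2)
      have g3 := hv (a 3)
      have hx' := hv x'
      simp only [X.step, stepV, kd, vc, vs, vr, ve, vn, vx, Bool.false_eq_true, false_iff]
      rintro (h | h | h | h) <;> omega
    | t1 c' s' x' y' =>
      have g0 := hv (a 0)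
      have g1 := hv (a 1)
      have g2 := hv (a 2)
      have g3 := hv (a 3)
      have hx' := hv x'
      have hy' := hv y'
      simp only [X.step, stepV, kd, vc, vs, vr, ve, vn, vx, Bool.false_eq_true, false_iff]
      rintro (h | h | h | h) <;> omega
    | t2 c' s' x' y' z' =>
      have g0 := hv (a 0)
      have g1 := hv (a 1)
      have g2 := hv (a 2)
      have g3 := hv (a 3)
      have hx' := hv x'
      have hy' := hv y'
      have hz' := hv z'
      simp only [X.step, stepV, kd, vc, vs, vr, ve, vn, vx, Bool.false_eq_true, false_iff]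
      rintro (h | h | h | h) <;> omega
    | rl e' n' x' =>
      have g0 := hv (a 0)
      have g1 := hv (a 1)
      have g2 := hv (a 2)
      have g3 := hv (a 3)
      have hx' := hv x'
      simp only [X.step, stepV, kd, vc, vs, vr, ve, vn, vx, Bool.false_eq_true, false_iff]
      rintro (h | h | h | h) <;> omega
    | tp e' =>
      have g0 := hv (a 0)
      have g1 := hv (a 1)
      have g2 := hv (a 2)
      have g3 := hv (a 3)
      simp only [X.step, stepV, kd, vc, vs, vr, ve, vn, vx, Bool.false_eq_true, false_iff]
      rintro (h | h | h | h) <;> omega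
  | t0 c s x =>
    cases v with
    | co c' a' s' =>
      have hx := hv x
      have g0' := hv (a' 0)
      have g1' := hv (a' 1)
      have g2' := hv (a' 2)
      have g3' := hv (a' 3)
      simp only [X.step, stepV, kd, vc, vs, vr, ve, vn, vx, Bool.false_eq_true, false_iff]
      rintro (h | h | h | h) <;> omega
    | t0 c' s' x' =>
      have hx := hv x
      have hx' := hv x'
      simp only [X.step, stepV, kd, vc, vs, vr, ve, vn, vx, Bool.false_eq_true, false_iff]
      rintro (h | h | h | h) <;> omega
    | t1 c' s' x' y' =>
      have hx := hv x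
      have hx' := hv x'
      have hy' := hv y'
      simp only [X.step, stepV, kd, vc, vs, vr, ve, vn, vx, Bool.and_eq_true, decide_eq_true_eq,
        ← hAL, ← gxb_ceq, gxb_veq, Fin.ext_iff]
      constructor
      · rintro ⟨k0, k1, k2, k3⟩
        refine Or.inl ⟨by trivial, by trivial, k1, k0, Or.inr (Or.inr (Or.inr ?_))⟩
        omega
      · rintro (⟨-, -, k1, k2, k3⟩ | h | h | h)
        · refine ⟨k2, k1, ?_, ?_⟩ <;> omega
        · omega
        · omega
        · omega
    | t2 c' s' x' y' z' =>
      have hx := hv x
      have hx' := hv x'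
      have hy' := hv y'
      have hz' := hv z'
      simp only [X.step, stepV, kd, vc, vs, vr, ve, vn, vx, Bool.false_eq_true, false_iff]
      rintro (h | h | h | h) <;> omega
    | rl e' n' x' =>
      have hx := hv x
      have hx' := hv x'
      simp only [X.step, stepV, kd, vc, vs, vr, ve, vn, vx, Bool.false_eq_true, false_iff]
      rintro (h | h | h | h) <;> omega
    | tp e' =>
      have hx := hv x
      simp only [X.step, stepV, kd, vc, vs, vr, ve, vn, vx, Bool.false_eq_true, false_iff]
      rintro (h | h | h | h) <;> omega
  | t1 c s x y =>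
    cases v with
    | co c' a' s' =>
      have hx := hv x
      have hy := hv y
      have g0' := hv (a' 0)
      have g1' := hv (a' 1)
      have g2' := hv (a' 2)
      have g3' := hv (a' 3)
      simp only [X.step, stepV, kd, vc, vs, vr, ve, vn, vx, Bool.false_eq_true, false_iff]
      rintro (h | h | h | h) <;> omega
    | t0 c' s' x' =>
      have hx := hv x
      have hy := hv y
      have hx' := hv x'
      simp only [X.step, stepV, kd, vc, vs, vr, ve, vn, vx, Bool.false_eq_true, false_iff]
      rintro (h | h | h | h) <;> omega
    | t1 c' s' x' y' =>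
      have hx := hv x
      have hy := hv y
      have hx' := hv x'
      have hy' := hv y'
      simp only [X.step, stepV, kd, vc, vs, vr, ve, vn, vx, Bool.false_eq_true, false_iff]
      rintro (h | h | h | h) <;> omega
    | t2 c' s' x' y' z' =>
      have hx := hv x
      have hy := hv y
      have hx' := hv x'
      have hy' := hv y'
      have hz' := hv z'
      simp only [X.step, stepV, kd, vc, vs, vr, ve, vn, vx, Bool.and_eq_true, decide_eq_true_eq,
        ← hAL, ← gxb_ceq, gxb_veq, Fin.ext_iff]
      constructor
      · rintro ⟨k0, k1, k2, k3, k4⟩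
        refine Or.inl ⟨by trivial, by trivial, k1, k0, Or.inr (Or.inr (Or.inl ?_))⟩
        omega
      · rintro (⟨-, -, k1, k2, k3⟩ | h | h | h)
        · refine ⟨k2, k1, ?_, ?_, ?_⟩ <;> omega
        · omega
        · omega
        · omega
    | rl e' n' x' =>
      have hx := hv x
      have hy := hv y
      have hx' := hv x'
      simp only [X.step, stepV, kd, vc, vs, vr, ve, vn, vx, Bool.false_eq_true, false_iff]
      rintro (h | h | h | h) <;> omega
    | tp e' =>
      have hx := hv x
      have hy := hv y
      simp only [X.step, stepV, kd, vc, vs, vr, ve, vn, vx, Bool.false_eq_true, false_iff]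
      rintro (h | h | h | h) <;> omega
  | t2 c s x y z =>
    cases v with
    | co c' a' s' =>
      have hx := hv x
      have hy := hv y
      have hz := hv z
      have g0' := hv (a' 0)
      have g1' := hv (a' 1)
      have g2' := hv (a' 2)
      have g3' := hv (a' 3)
      have e1 : (s.val + 1) % 5 = (s + 1).val := by rw [Fin.val_add]; rfl
      have e2 : (s.val + 2) % 5 = (s + 2).val := by rw [Fin.val_add]; rfl
      simp only [X.step, stepV, kd, vc, vs, vr, ve, vn, vx, Bool.and_eq_true, decide_eq_true_eq,
        ← hAL]
      constructor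
      · rintro ⟨k0, k1, k2, k3, k4, k5⟩
        subst k1 k2 k3 k4 k5
        refine Or.inl ⟨by trivial, by trivial, rfl, k0, Or.inr (Or.inl ⟨by omega, by omega, rfl, ?_, ?_, ?_⟩)⟩
        · rw [fullN_eq hB]; omega
        · rw [e1, fullN_eq hB]; omega
        · rw [e2, fullN_eq hB]; omega
      · rintro (⟨-, -, k1, k2, k3⟩ | h | h | h)
        · rcases k3 with k3 | k3 | k3 | k3
          · omega
          · obtain ⟨-, -, m1, m2, m3, m4⟩ := k3
            have m1' : s = s' := Fin.ext m1
            have hc : c = c' := (gxb_ceq c c').1 k1
            subst hc m1'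
            rw [e1] at m3
            rw [e2] at m4
            rw [fullN_eq hB] at m2 m3 m4
            refine ⟨k2, rfl, rfl, ?_, ?_, ?_⟩
            · rw [gxb_veq]; omega
            · rw [gxb_veq]; omega
            · rw [gxb_veq]; omega
          · omega
          · omega
        · omega
        · omega
        · omega
    | t0 c' s' x' =>
      have hx := hv x
      have hy := hv y
      have hz := hv z
      have hx' := hv x'
      simp only [X.step, stepV, kd, vc, vs, vr, ve, vn, vx, Bool.false_eq_true, false_iff]
      rintro (h | h | h | h) <;> omega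
    | t1 c' s' x' y' =>
      have hx := hv x
      have hy := hv y
      have hz := hv z
      have hx' := hv x'
      have hy' := hv y'
      simp only [X.step, stepV, kd, vc, vs, vr, ve, vn, vx, Bool.false_eq_true, false_iff]
      rintro (h | h | h | h) <;> omega
    | t2 c' s' x' y' z' =>
      have hx := hv x
      have hy := hv y
      have hz := hv z
      have hx' := hv x'
      have hy' := hv y'
      have hz' := hv z'
      simp only [X.step, stepV, kd, vc, vs, vr, ve, vn, vx, Bool.false_eq_true, false_iff]
      rintro (h | h | h | h) <;> omega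
    | rl e' n' x' =>
      have hx := hv x
      have hy := hv y
      have hz := hv z
      have hx' := hv x'
      simp only [X.step, stepV, kd, vc, vs, vr, ve, vn, vx, Bool.false_eq_true, false_iff]
      rintro (h | h | h | h) <;> omega
    | tp e' =>
      have hx := hv x
      have hy := hv y
      have hz := hv z
      simp only [X.step, stepV, kd, vc, vs, vr, ve, vn, vx, Bool.false_eq_true, false_iff]
      rintro (h | h | h | h) <;> omega
  | rl e n x =>
    cases v with
    | co c' a' s' =>
      have hx := hv x
      have g0' := hv (a' 0)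
      have g1' := hv (a' 1)
      have g2' := hv (a' 2)
      have g3' := hv (a' 3)
      simp only [X.step, stepV, kd, vc, vs, vr, ve, vn, vx, Bool.false_eq_true, false_iff]
      rintro (h | h | h | h) <;> omega
    | t0 c' s' x' =>
      have hx := hv x
      have hx' := hv x'
      simp only [X.step, stepV, kd, vc, vs, vr, ve, vn, vx, Bool.and_eq_true, decide_eq_true_eq]
      simp only [← hAL, ← hSL, gxb_veq, X.inc]
      constructor
      · rintro ⟨k0, k1, k2, k3⟩
        exact Or.inr (Or.inl ⟨by trivial, by trivial, by omega, by omega, k0, k1, k2, by omega⟩)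
      · rintro (h | h | h | h)
        · omega
        · obtain ⟨-, -, -, -, k1, k2, k3, k4⟩ := h
          exact ⟨k1, k2, k3, by omega⟩
        · omega
        · omega
    | t1 c' s' x' y' =>
      have hx := hv x
      have hx' := hv x'
      have hy' := hv y'
      simp only [X.step, stepV, kd, vc, vs, vr, ve, vn, vx, Bool.false_eq_true, false_iff]
      rintro (h | h | h | h) <;> omega
    | t2 c' s' x' y' z' =>
      have hx := hv x
      have hx' := hv x'
      have hy' := hv y'
      have hz' := hv z'
      simp only [X.step, stepV, kd, vc, vs, vr, ve, vn, vx, Bool.false_eq_true, false_iff]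
      rintro (h | h | h | h) <;> omega
    | rl e' n' x' =>
      have hx := hv x
      have hx' := hv x'
      simp only [X.step, stepV, kd, vc, vs, vr, ve, vn, vx, decide_eq_true_eq,
        ← gxb_eeq, gxb_veq]
      constructor
      · rintro ⟨k0, k1, k2⟩
        exact Or.inr (Or.inr (Or.inl ⟨by trivial, by trivial, k0, k1, k2⟩))
      · rintro (h | h | h | h)
        · omega
        · omega
        · exact h.2.2
        · omega
    | tp e' =>
      have hx := hv x
      simp only [X.step, stepV, kd, vc, vs, vr, ve, vn, vx, Bool.false_eq_true, false_iff]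
      rintro (h | h | h | h) <;> omega
  | tp e =>
    cases v with
    | co c' a' s' =>
      have g0' := hv (a' 0)
      have g1' := hv (a' 1)
      have g2' := hv (a' 2)
      have g3' := hv (a' 3)
      simp only [X.step, stepV, kd, vc, vs, vr, ve, vn, vx, Bool.false_eq_true, false_iff]
      rintro (h | h | h | h) <;> omega
    | t0 c' s' x' =>
      have hx' := hv x'
      simp only [X.step, stepV, kd, vc, vs, vr, ve, vn, vx, Bool.false_eq_true, false_iff]
      rintro (h | h | h | h) <;> omega
    | t1 c' s' x' y' =>
      have hx' := hv x'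
      have hy' := hv y'
      simp only [X.step, stepV, kd, vc, vs, vr, ve, vn, vx, Bool.false_eq_true, false_iff]
      rintro (h | h | h | h) <;> omega
    | t2 c' s' x' y' z' =>
      have hx' := hv x'
      have hy' := hv y'
      have hz' := hv z'
      simp only [X.step, stepV, kd, vc, vs, vr, ve, vn, vx, Bool.false_eq_true, false_iff]
      rintro (h | h | h | h) <;> omega
    | rl e' n' x' =>
      have hx' := hv x'
      simp only [X.step, stepV, kd, vc, vs, vr, ve, vn, vx, decide_eq_true_eq,
        ← gxb_eeq]
      constructor
      · rintro ⟨k0, k1⟩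
        exact Or.inr (Or.inr (Or.inr ⟨by trivial, by trivial, k0, k1⟩))
      · rintro (h | h | h | h)
        · omega
        · omega
        · omega
        · exact h.2.2
    | tp e' =>
      simp only [X.step, stepV, kd, vc, vs, vr, ve, vn, vx, Bool.false_eq_true, false_iff]
      rintro (h | h | h | h) <;> omega

end Crest.Agent.WLX.GX
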