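import Crest.Agent.WLX.GXDef

/-!
# Row 290: `X.junk`, `X.len` in terms of the views

CHUNK R290-X-GXL (all lemmas of this file).
-/

set_option autoImplicit false

namespace Crest.Agent.WLX.GX

open Crest.Agent.WL

variable {S : Sys} {b : S.C → ZMod 2} {AL : ℕ → Prop} {SL : ℕ → ℕ → ℕ → Prop} {B : ℕ → Prop}

theorem junk_iff (hAL : ∀ c, AL (S.eC c).val ↔ S.al c = true) (v : V0 S) :
    X.junk S v = true ↔ junkV AL (kd v) (vc v) := by
  cases v <;> simp [X.junk, junkV, kd, vc, hAL]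

theorem top_iff (v : V0 S) : (∃ e, v = V0.tp e) ↔ kd v = 2 := by
  cases v <;> simp [kd]

private theorem zval_lt (x : ZMod 2) : x.val < 2 := ZMod.val_lt x

section aux

variable {nC nE k c s r e n : ℕ}

private theorem lenV_a (h : k = 0 ∧ r < 16 ∧ AL c ∧ s = 0) :
    lenV nC nE AL SL k c s r e n = 3 + c := by
  unfold lenV
  rw [if_pos h]

private theorem lenV_b (h1 : ¬ (k = 0 ∧ r < 16 ∧ AL c ∧ s = 0))
    (h2 : k = 0 ∧ 16 ≤ r ∧ r < 18 ∧ AL c ∧ ¬ (∃ e' < nE, SL c s e')) :
    lenV nC nE AL SL k c s r e n = 3 + nC + (10 * nC + 1) * nE + (2 * (5 * c + s) + (r - 16)) := by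
  unfold lenV
  rw [if_neg h1, if_pos h2]

private theorem lenV_c (h1 : ¬ (k = 0 ∧ r < 16 ∧ AL c ∧ s = 0))
    (h2 : ¬ (k = 0 ∧ 16 ≤ r ∧ r < 18 ∧ AL c ∧ ¬ (∃ e' < nE, SL c s e')))
    (h3 : k = 1 ∧ n % 2 = 1) :
    lenV nC nE AL SL k c s r e n = 3 + nC + ((10 * nC + 1) * e + n) := by
  unfold lenV
  rw [if_neg h1, if_neg h2, if_pos h3]

private theorem lenV_z (h1 : ¬ (k = 0 ∧ r < 16 ∧ AL c ∧ s = 0))
    (h2 : ¬ (k = 0 ∧ 16 ≤ r ∧ r < 18 ∧ AL c ∧ ¬ (∃ e' < nE, SL c s e')))
    (h3 : ¬ (k = 1 ∧ n % 2 = 1)) :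
    lenV nC nE AL SL k c s r e n = 0 := by
  unfold lenV
  rw [if_neg h1, if_neg h2, if_neg h3]

end aux

theorem len_eq (hAL : ∀ c, AL (S.eC c).val ↔ S.al c = true)
    (hSL : ∀ c (s : Fin 5) e, SL (S.eC c).val s.val (S.eE e).val ↔ S.slot c s = some e) (v : V0 S) :
    X.len S v = lenV S.nC S.nE AL SL (kd v) (vc v) (vs v) (vr v) (ve v) (vn v) := by
  cases v with
  | co c a s =>
    have h0 := zval_lt (a 0)
    have h1 := zval_lt (a 1)
    have h2 := zval_lt (a 2)
    have h3 := zval_lt (a 3)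
    have hr : vr (V0.co c a s) < 16 := by
      show (a 0).val * 8 + (a 1).val * 4 + (a 2).val * 2 + (a 3).val < 16
      omega
    have hs : s = 0 ↔ s.val = 0 := by rw [Fin.ext_iff]; rfl
    have hk : kd (V0.co c a s) = 0 := rfl
    have hcc : vc (V0.co c a s) = (S.eC c).val := rfl
    have hss : vs (V0.co c a s) = s.val := rfl
    show (if S.al c = true ∧ s = 0 then 3 + (S.eC c).val else 0) = _
    by_cases hc : S.al c = true ∧ s = 0
    · rw [if_pos hc]
      exact (lenV_a ⟨hk, hr, (hAL c).2 hc.1, hs.1 hc.2⟩).symm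
    · rw [if_neg hc]
      exact (lenV_z (fun h => hc ⟨(hAL c).1 h.2.2.1, hs.2 h.2.2.2⟩)
        (fun h => by omega) (fun h => by omega)).symm
  | t0 c s x =>
    have h0 := zval_lt x
    have hk : kd (V0.t0 c s x) = 0 := rfl
    have hcc : vc (V0.t0 c s x) = (S.eC c).val := rfl
    have hss : vs (V0.t0 c s x) = s.val := rfl
    have hr : vr (V0.t0 c s x) = 16 + x.val := rfl
    have hslot : S.slot c s = none ↔ ¬ ∃ e' < S.nE, SL (S.eC c).val s.val e' := by
      constructor
      · rintro h ⟨e', he', hS⟩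
        have h5 := (hSL c s (S.eE.symm ⟨e', he'⟩)).1 (by simpa using hS)
        rw [h] at h5
        cases h5
      · intro h
        rcases hs : S.slot c s with _ | e
        · rfl
        · exact absurd ⟨(S.eE e).val, (S.eE e).isLt, (hSL c s e).2 hs⟩ h
    show (if S.al c = true ∧ S.slot c s = none then
      3 + S.nC + (10 * S.nC + 1) * S.nE + (2 * X.inc S c s + x.val) else 0) = _
    by_cases hc : S.al c = true ∧ S.slot c s = none
    · rw [if_pos hc]
      refine Eq.trans ?_ (lenV_b (fun h => by omega)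
        ⟨hk, by omega, by omega, (hAL c).2 hc.1, hslot.1 hc.2⟩).symm
      rw [hr]
      simp only [X.inc]
      omega
    · rw [if_neg hc]
      exact (lenV_z (fun h => by omega)
        (fun h => hc ⟨(hAL c).1 h.2.2.2.1, hslot.2 h.2.2.2.2⟩) (fun h => by omega)).symm
  | t1 c s x y =>
    have hk : kd (V0.t1 c s x y) = 0 := rfl
    have hr : vr (V0.t1 c s x y) = 18 + (x.val * 2 + y.val) := rfl
    show 0 = _
    rw [lenV_z (fun h => by omega) (fun h => by omega) (fun h => by omega)]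
  | t2 c s x y z =>
    have hk : kd (V0.t2 c s x y z) = 0 := rfl
    have hr : vr (V0.t2 c s x y z) = 22 + (x.val * 4 + y.val * 2 + z.val) := rfl
    show 0 = _
    rw [lenV_z (fun h => by omega) (fun h => by omega) (fun h => by omega)]
  | rl e n x =>
    have hk : kd (V0.rl e n x) = 1 := rfl
    have he : ve (V0.rl e n x) = (S.eE e).val := rfl
    have hn' : vn (V0.rl e n x) = n.val := rfl
    show (if n.val % 2 = 1 then 3 + S.nC + ((10 * S.nC + 1) * (S.eE e).val + n.val) else 0) = _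
    rw [← he, ← hn']
    by_cases hn : vn (V0.rl e n x) % 2 = 1
    · rw [if_pos hn, lenV_c (fun h => by omega) (fun h => by omega) ⟨hk, hn⟩]
    · rw [if_neg hn, lenV_z (fun h => by omega) (fun h => by omega) (fun h => hn h.2)]
  | tp e =>
    have hk : kd (V0.tp e) = 2 := rfl
    show 0 = _
    rw [lenV_z (fun h => by omega) (fun h => by omega) (fun h => by omega)]

end Crest.Agent.WLX.GX
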