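import Crest.Agent.WLX.GXDef

/-!
# Row 290: the numeric adjacency is decidable in polynomial time

CHUNK R290-X-GXU (all lemmas of this file).
-/

set_option autoImplicit false

namespace Crest.Agent.WLX.GX

open Crest.Agent.CHR Crest.CountHier

/-- three number arguments: substitution closed -/
def UPs3 (SL : W → ℕ → ℕ → ℕ → Prop) : Prop :=
  ∀ (f : W → W) (c s e : W → ℕ), PolyTime f → UN c → UN s → UN e →
    UP (fun z => SL (f z) (c z) (s z) (e z))

def UPs1 (AL : W → ℕ → Prop) : Prop :=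
  ∀ (f : W → W) (c : W → ℕ), PolyTime f → UN c → UP (fun z => AL (f z) (c z))

section steps

variable {C E i i' j j' k c s r e n x k' c' s' r' e' n' x' : W → ℕ} {f : W → W}
  {AL B : W → ℕ → Prop} {SL : W → ℕ → ℕ → ℕ → Prop}

private theorem u_succ {g : W → ℕ} (hg : UN g) : UN (fun w => (g w).succ) :=
  (hg.add (UN.const 1)).congr fun _ => rfl

private theorem u_nkd (hC : UN C) (hE : UN E) (hi : UN i) :
    UN (fun w => nkd (C w) (E w) (i w)) := by
  unfold nkd
  up_auto [u_succ]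

private theorem u_nvc (hC : UN C) (hi : UN i) : UN (fun w => nvc (C w) (i w)) := by
  unfold nvc
  up_auto [u_succ]

private theorem u_nvs (hC : UN C) (hi : UN i) : UN (fun w => nvs (C w) (i w)) := by
  unfold nvs
  up_auto [u_succ]

private theorem u_nvr (hC : UN C) (hi : UN i) : UN (fun w => nvr (C w) (i w)) := by
  unfold nvr
  up_auto [u_succ]

private theorem u_nve (hC : UN C) (hE : UN E) (hi : UN i) :
    UN (fun w => nve (C w) (E w) (i w)) := by
  unfold nve
  up_auto [u_succ]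

private theorem u_nvn (hC : UN C) (hE : UN E) (hi : UN i) :
    UN (fun w => nvn (C w) (E w) (i w)) := by
  unfold nvn
  up_auto [u_succ]

private theorem u_nvx (hC : UN C) (hE : UN E) (hi : UN i) :
    UN (fun w => nvx (C w) (E w) (i w)) := by
  unfold nvx
  up_auto [u_succ]

private theorem u_full (hB : UPs1 B) (hf : PolyTime f) (hc : UN c) (hr : UN r) (hs : UN s) :
    UN (fun w => fullN (B (f w)) (c w) (r w) (s w)) := by
  have h := hB f c hf hc
  unfold fullN
  up_auto [u_succ]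

private theorem u_stepV (hAL : UPs1 AL) (hB : UPs1 B) (hSL : UPs3 SL) (hf : PolyTime f)
    (hk : UN k) (hc : UN c) (hs : UN s) (hr : UN r) (he : UN e) (hn : UN n) (hx : UN x)
    (hk' : UN k') (hc' : UN c') (hs' : UN s') (hr' : UN r') (he' : UN e') (hn' : UN n')
    (hx' : UN x') :
    UP (fun w => stepV (AL (f w)) (SL (f w)) (B (f w)) (k w) (c w) (s w) (r w) (e w) (n w) (x w)
      (k' w) (c' w) (s' w) (r' w) (e' w) (n' w) (x' w)) := by
  have h1 := hAL f c hf hc
  have h2 := hAL f c' hf hc'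
  have h3 := hSL f c' s' e hf hc' hs' he
  unfold stepV
  up_auto [u_succ, u_full hB hf]

private theorem u_step (hAL : UPs1 AL) (hB : UPs1 B) (hSL : UPs3 SL) (hf : PolyTime f)
    (hC : UN C) (hE : UN E) (hi : UN i) (hj : UN j) :
    UP (fun w => stepN (C w) (E w) (AL (f w)) (SL (f w)) (B (f w)) (i w) (j w)) := by
  unfold stepN
  exact u_stepV hAL hB hSL hf (u_nkd hC hE hi) (u_nvc hC hi) (u_nvs hC hi) (u_nvr hC hi)
    (u_nve hC hE hi) (u_nvn hC hE hi) (u_nvx hC hE hi) (u_nkd hC hE hj) (u_nvc hC hj)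
    (u_nvs hC hj) (u_nvr hC hj) (u_nve hC hE hj) (u_nvn hC hE hj) (u_nvx hC hE hj)

private theorem u_lenV (hAL : UPs1 AL) (hSL : UPs3 SL) (hf : PolyTime f)
    (hC : UN C) (hE : UN E)
    (hk : UN k) (hc : UN c) (hs : UN s) (hr : UN r) (he : UN e) (hn : UN n) :
    UN (fun w => lenV (C w) (E w) (AL (f w)) (SL (f w)) (k w) (c w) (s w) (r w) (e w) (n w)) := by
  have h1 := hAL f c hf hc
  have h3 : UP (fun w => ∃ e' < E w, SL (f w) (c w) (s w) e') := by
    apply UP.ex hE
    exact hSL (fun z => f (fstB z)) _ _ _ (PT.comp hf PT.fst) hc.fst hs.fst UN.var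
  unfold lenV
  up_auto [u_succ]

private theorem u_len (hAL : UPs1 AL) (hSL : UPs3 SL) (hf : PolyTime f)
    (hC : UN C) (hE : UN E) (hi : UN i) :
    UN (fun w => lenN (C w) (E w) (AL (f w)) (SL (f w)) (i w)) := by
  unfold lenN
  exact u_lenV hAL hSL hf hC hE (u_nkd hC hE hi) (u_nvc hC hi) (u_nvs hC hi) (u_nvr hC hi)
    (u_nve hC hE hi) (u_nvn hC hE hi)

private theorem u_junk (hAL : UPs1 AL) (hf : PolyTime f) (hk : UN k) (hc : UN c) :
    UP (fun w => junkV (AL (f w)) (k w) (c w)) := by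
  have h1 := hAL f c hf hc
  unfold junkV
  up_auto [u_succ]

private theorem u_M3 (hC : UN C) (hE : UN E) : UN (fun w => M3 (C w) (E w)) := by
  unfold M3
  up_auto [u_succ]

private theorem u_stepX (hAL : UPs1 AL) (hB : UPs1 B) (hSL : UPs3 SL) (hf : PolyTime f)
    (hC : UN C) (hE : UN E) (hi : UN i) (hj : UN j) (hi' : UN i') (hj' : UN j') :
    UP (fun w => stepXN (C w) (E w) (AL (f w)) (SL (f w)) (B (f w)) (i w) (j w) (i' w) (j' w)) := by
  have h1 := u_step hAL hB hSL hf hC hE hi hi'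
  have h2 := u_junk hAL hf (u_nkd hC hE hi) (u_nvc hC hi)
  have h3 := u_nkd hC hE hi
  have h4 := u_len hAL hSL hf hC hE hi
  unfold stepXN
  up_auto [u_succ]

end steps

/-- PROOF. `up_auto` after unfolding, in steps. -/
theorem UP.adjN {nC nE : W → ℕ} {AL B : W → ℕ → Prop} {SL : W → ℕ → ℕ → ℕ → Prop} (hC : UN nC)
    (hE : UN nE) (hAL : UPs1 AL) (hB : UPs1 B) (hSL : UPs3 SL) :
    UPb (fun w => GX.adjN (nC w) (nE w) (AL w) (SL w) (B w)) := by
  have hff : PolyTime (fun z => fstB (fstB z)) := PT.comp PT.fst PT.fst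
  have hC' : UN (fun z => nC (fstB (fstB z))) := hC.comp hff
  have hE' : UN (fun z => nE (fstB (fstB z))) := hE.comp hff
  have hu : UN (fun z => (sndB (fstB z)).length) := UN.var.fst
  have hv : UN (fun z => (sndB z).length) := UN.var
  have hM := u_M3 hC' hE'
  have h1 := u_stepX hAL hB hSL hff hC' hE' (hu.div hM) (hu.mod hM) (hv.div hM) (hv.mod hM)
  have h2 := u_stepX hAL hB hSL hff hC' hE' (hv.div hM) (hv.mod hM) (hu.div hM) (hu.mod hM)
  unfold UPb GX.adjN
  exact h1.or h2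

theorem UN.NX {nC nE : W → ℕ} (hC : UN nC) (hE : UN nE) : UN (fun w => GX.NX (nC w) (nE w)) := by
  unfold GX.NX GX.M3
  up_auto []

end Crest.Agent.WLX.GX
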