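import Crest.Agent.WLX.GXA
import Crest.Agent.WLX.GXB
import Crest.Agent.WLX.GXL
import Crest.Agent.WLX.GXU
import Crest.Agent.WLD.PadCode

/-!
# Row 290: the graph `X S b` on vertex numbers, computable in polynomial time
-/

set_option autoImplicit false

namespace Crest.Agent.WLX.GX

open Crest.Agent.WL Crest.Agent.CHR Crest.CountHier Crest.Agent.WLD

theorem M3_eq (S : Sys) : M3 S.nC S.nE = X.M S + 3 := rfl

theorem NX_eq (S : Sys) : NX S.nC S.nE = X.N0 S * M3 S.nC S.nE := rfl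

theorem M3_pos (nC nE : ℕ) : 0 < M3 nC nE := by unfold M3; omega

/-- numbering of the vertices -/
theorem numbering (S : Sys) : ∃ e : Fin (NX S.nC S.nE) ≃ X.V S,
    ∀ u : Fin (NX S.nC S.nE), X.idx S (e u).1 = u.val / M3 S.nC S.nE ∧
      (e u).2.val = u.val % M3 S.nC S.nE := by
  have hM := M3_pos S.nC S.nE
  have hlt : ∀ p : X.V S, p.2.val < M3 S.nC S.nE := fun p => p.2.is_lt
  have hdiv : ∀ p : X.V S, (X.idx S p.1 * M3 S.nC S.nE + p.2.val) / M3 S.nC S.nE = X.idx S p.1 := by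
    intro p
    rw [Nat.mul_comm, Nat.mul_add_div hM, Nat.div_eq_of_lt (hlt p), Nat.add_zero]
  have hmod : ∀ p : X.V S, (X.idx S p.1 * M3 S.nC S.nE + p.2.val) % M3 S.nC S.nE = p.2.val := by
    intro p
    rw [Nat.mul_comm, Nat.mul_add_mod, Nat.mod_eq_of_lt (hlt p)]
  let f : X.V S → Fin (NX S.nC S.nE) := fun p => ⟨X.idx S p.1 * M3 S.nC S.nE + p.2.val, by
    rw [NX_eq]
    have h1 := idx_lt p.1
    have h2 := hlt p
    calc X.idx S p.1 * M3 S.nC S.nE + p.2.val < X.idx S p.1 * M3 S.nC S.nE + M3 S.nC S.nE := by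
          omega
      _ = (X.idx S p.1 + 1) * M3 S.nC S.nE := by ring
      _ ≤ X.N0 S * M3 S.nC S.nE := Nat.mul_le_mul_right _ h1⟩
  have hf : Function.Bijective f := by
    constructor
    · intro p q h
      have h0 : X.idx S p.1 * M3 S.nC S.nE + p.2.val = X.idx S q.1 * M3 S.nC S.nE + q.2.val :=
        congrArg Fin.val h
      have h1 : X.idx S p.1 = X.idx S q.1 := by rw [← hdiv p, ← hdiv q, h0]
      have h2 : p.2.val = q.2.val := by rw [← hmod p, ← hmod q, h0]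
      exact Prod.ext (idx_injective h1) (Fin.ext h2)
    · intro u
      have hu : u.val < X.N0 S * M3 S.nC S.nE := u.is_lt
      obtain ⟨v, hv⟩ := idx_surj (S := S) (u.val / M3 S.nC S.nE)
        ((Nat.div_lt_iff_lt_mul hM).2 hu)
      refine ⟨(v, ⟨u.val % M3 S.nC S.nE, Nat.mod_lt _ hM⟩), Fin.ext ?_⟩
      show X.idx S v * M3 S.nC S.nE + u.val % M3 S.nC S.nE = u.val
      rw [hv, Nat.mul_comm]
      exact Nat.div_add_mod _ _
  refine ⟨(Equiv.ofBijective f hf).symm, fun u => ?_⟩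
  have h := congrArg Fin.val ((Equiv.ofBijective f hf).apply_symm_apply u)
  have h' : X.idx S ((Equiv.ofBijective f hf).symm u).1 * M3 S.nC S.nE +
      ((Equiv.ofBijective f hf).symm u).2.val = u.val := h
  exact ⟨by rw [← hdiv, h'], by rw [← hmod, h']⟩

theorem stepX_iff {S : Sys} {AL : ℕ → Prop} {SL : ℕ → ℕ → ℕ → Prop}
    (hAL : ∀ c, AL (S.eC c).val ↔ S.al c = true)
    (hSL : ∀ c (s : Fin 5) e, SL (S.eC c).val s.val (S.eE e).val ↔ S.slot c s = some e)
    {b : S.C → ZMod 2} {B : ℕ → Prop} (hB : ∀ c, B (S.eC c).val ↔ b c = 1) (p q : X.V S) :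
    stepXN S.nC S.nE AL SL B (X.idx S p.1) p.2.val (X.idx S q.1) q.2.val ↔
      X.stepX S b p q = true := by
  obtain ⟨p1, p2⟩ := p
  obtain ⟨q1, q2⟩ := q
  have hp := views p1
  have hq := views q1
  have hlen : lenN S.nC S.nE AL SL (X.idx S p1) = X.len S p1 := by
    unfold lenN
    rw [hp.1, hp.2.1, hp.2.2.1, hp.2.2.2.1, hp.2.2.2.2.1, hp.2.2.2.2.2.1, len_eq hAL hSL]
  have hst : stepN S.nC S.nE AL SL B (X.idx S p1) (X.idx S q1) ↔ X.step S b p1 q1 = true := by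
    unfold stepN
    rw [hp.1, hp.2.1, hp.2.2.1, hp.2.2.2.1, hp.2.2.2.2.1, hp.2.2.2.2.2.1, hp.2.2.2.2.2.2,
      hq.1, hq.2.1, hq.2.2.1, hq.2.2.2.1, hq.2.2.2.2.1, hq.2.2.2.2.2.1, hq.2.2.2.2.2.2]
    exact (step_iff hAL hSL hB p1 q1).symm
  have hjk : junkV AL (nkd S.nC S.nE (X.idx S p1)) (nvc S.nC (X.idx S p1)) ↔
      X.junk S p1 = true := by
    rw [hp.1, hp.2.1]
    exact (junk_iff hAL p1).symm
  have htop : nkd S.nC S.nE (X.idx S p1) = 2 ↔ ∃ e, p1 = V0.tp e := by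
    rw [hp.1]
    exact (top_iff p1).symm
  have heq : X.idx S p1 = X.idx S q1 ↔ p1 = q1 := ⟨fun h => idx_injective h, fun h => by rw [h]⟩
  unfold stepXN X.stepX
  simp only [hlen, hst, hjk, htop, heq, Bool.or_eq_true, Bool.and_eq_true, decide_eq_true_eq,
    or_assoc, and_assoc]

/-- MAIN THEOREM: matrix of `X S b` in terms of the numeric adjacency. -/
theorem mat_adjN {S : Sys} {AL : ℕ → Prop} {SL : ℕ → ℕ → ℕ → Prop}
    (hAL : ∀ c, AL (S.eC c).val ↔ S.al c = true)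
    (hSL : ∀ c (s : Fin 5) e, SL (S.eC c).val s.val (S.eE e).val ↔ S.slot c s = some e) :
    ∃ e : Fin (NX S.nC S.nE) ≃ X.V S, ∀ (b : S.C → ZMod 2) (B : ℕ → Prop),
      (∀ c, B (S.eC c).val ↔ b c = 1) → ∀ u v : Fin (NX S.nC S.nE),
        mat (NX S.nC S.nE) (adjN S.nC S.nE AL SL B) u v = X.adj S b (e u) (e v) := by
  obtain ⟨e, he⟩ := numbering S
  refine ⟨e, fun b B hB u v => ?_⟩
  have h1 : adjN S.nC S.nE AL SL B u v ↔ X.adj S b (e u) (e v) = true := by
    unfold adjN X.adj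
    rw [Bool.or_eq_true, ← stepX_iff hAL hSL hB, ← stepX_iff hAL hSL hB, (he u).1, (he u).2,
      (he v).1, (he v).2]
  unfold mat
  by_cases h : adjN S.nC S.nE AL SL B u v
  · rw [h1.1 h]; simpa using h
  · have h2 : X.adj S b (e u) (e v) = false := by
      rw [Bool.eq_false_iff]
      exact fun h' => h (h1.2 h')
    rw [h2]; simpa using h

end Crest.Agent.WLX.GX
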