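import Crest.Agent.WLX.GXDef

/-!
# Row 290: views = numeric versions, `X.idx` is a bijection onto `N0`

CHUNK R290-X-GXA (all lemmas of this file).
-/

set_option autoImplicit false

namespace Crest.Agent.WLX.GX

open Crest.Agent.WL

variable {S : Sys}

private theorem gxa_core (nC nE C s r : ℕ) (hC : C < nC) (hs : s < 5) (hr : r < 30) :
    nkd nC nE (150 * C + 30 * s + r) = 0 ∧ nvc nC (150 * C + 30 * s + r) = C ∧
    nvs nC (150 * C + 30 * s + r) = s ∧ nvr nC (150 * C + 30 * s + r) = r ∧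
    nve nC nE (150 * C + 30 * s + r) = 0 ∧ nvn nC nE (150 * C + 30 * s + r) = 0 ∧
    nvx nC nE (150 * C + 30 * s + r) = 0 := by
  have h : 150 * C + 30 * s + r < 150 * nC := by omega
  refine ⟨?_, ?_, ?_, ?_, ?_, ?_, ?_⟩
  · simp [nkd, h]
  · rw [nvc, if_pos h]; omega
  · rw [nvs, if_pos h]; omega
  · rw [nvr, if_pos h]; omega
  · simp [nve, h]
  · simp [nvn, h]
  · simp [nvx, h]

private theorem gxa_rail_bd (nC nE e : ℕ) (he : e < nE) :
    (20 * nC + 2) * e + (20 * nC + 2) ≤ (20 * nC + 2) * nE := by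
  calc (20 * nC + 2) * e + (20 * nC + 2) = (20 * nC + 2) * (e + 1) := by ring
    _ ≤ (20 * nC + 2) * nE := Nat.mul_le_mul_left _ he

private theorem gxa_rail (nC nE e n x : ℕ) (he : e < nE) (hn : n < 10 * nC + 1) (hx : x < 2) :
    nkd nC nE (150 * nC + ((20 * nC + 2) * e + 2 * n + x)) = 1 ∧
    nvc nC (150 * nC + ((20 * nC + 2) * e + 2 * n + x)) = 0 ∧
    nvs nC (150 * nC + ((20 * nC + 2) * e + 2 * n + x)) = 0 ∧
    nvr nC (150 * nC + ((20 * nC + 2) * e + 2 * n + x)) = 0 ∧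
    nve nC nE (150 * nC + ((20 * nC + 2) * e + 2 * n + x)) = e ∧
    nvn nC nE (150 * nC + ((20 * nC + 2) * e + 2 * n + x)) = n ∧
    nvx nC nE (150 * nC + ((20 * nC + 2) * e + 2 * n + x)) = x := by
  have hbd := gxa_rail_bd nC nE e he
  have h1 : ¬ (150 * nC + ((20 * nC + 2) * e + 2 * n + x) < 150 * nC) := by omega
  have h2 : 150 * nC + ((20 * nC + 2) * e + 2 * n + x) < 150 * nC + (20 * nC + 2) * nE := by omega
  have h3 : 150 * nC + ((20 * nC + 2) * e + 2 * n + x) - 150 * nC = (20 * nC + 2) * e + (2 * n + x) := by omega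
  have h4 : 2 * n + x < 20 * nC + 2 := by omega
  have h5 : ((20 * nC + 2) * e + (2 * n + x)) / (20 * nC + 2) = e := by
    rw [Nat.mul_add_div (by omega), Nat.div_eq_of_lt h4, Nat.add_zero]
  have h6 : ((20 * nC + 2) * e + (2 * n + x)) % (20 * nC + 2) = 2 * n + x := by
    rw [Nat.mul_add_mod, Nat.mod_eq_of_lt h4]
  refine ⟨?_, ?_, ?_, ?_, ?_, ?_, ?_⟩
  · rw [nkd, if_neg h1, if_pos h2]
  · rw [nvc, if_neg h1]
  · rw [nvs, if_neg h1]
  · rw [nvr, if_neg h1]
  · rw [nve, if_neg h1, if_pos h2, h3, h5]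
  · rw [nvn, if_neg h1, if_pos h2, h3, h6]; omega
  · rw [nvx, if_neg h1, if_pos h2, h3, h6]; omega

private theorem gxa_top (nC nE e : ℕ) :
    nkd nC nE (150 * nC + (20 * nC + 2) * nE + e) = 2 ∧
    nvc nC (150 * nC + (20 * nC + 2) * nE + e) = 0 ∧
    nvs nC (150 * nC + (20 * nC + 2) * nE + e) = 0 ∧
    nvr nC (150 * nC + (20 * nC + 2) * nE + e) = 0 ∧
    nve nC nE (150 * nC + (20 * nC + 2) * nE + e) = e ∧
    nvn nC nE (150 * nC + (20 * nC + 2) * nE + e) = 0 ∧
    nvx nC nE (150 * nC + (20 * nC + 2) * nE + e) = 0 := by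
  have h1 : ¬ (150 * nC + (20 * nC + 2) * nE + e < 150 * nC) := by omega
  have h2 : ¬ (150 * nC + (20 * nC + 2) * nE + e < 150 * nC + (20 * nC + 2) * nE) := by omega
  refine ⟨?_, ?_, ?_, ?_, ?_, ?_, ?_⟩
  · rw [nkd, if_neg h1, if_neg h2]
  · rw [nvc, if_neg h1]
  · rw [nvs, if_neg h1]
  · rw [nvr, if_neg h1]
  · rw [nve, if_neg h1, if_neg h2]; omega
  · rw [nvn, if_neg h1, if_neg h2]
  · rw [nvx, if_neg h1, if_neg h2]

/-- PROOF. cases on `v`; values of `ZMod 2` are `< 2`, of `Fin 5` `< 5`, `omega` (for rails: `n < 10 * nC`,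
`Nat.div_eq_of_lt`, `Nat.add_mul_div_left` with the product `(20 * nC + 2) * e`, nonlinear: generalise). -/
theorem views (v : V0 S) :
    nkd S.nC S.nE (X.idx S v) = kd v ∧ nvc S.nC (X.idx S v) = vc v ∧ nvs S.nC (X.idx S v) = vs v ∧
    nvr S.nC (X.idx S v) = vr v ∧ nve S.nC S.nE (X.idx S v) = ve v ∧
    nvn S.nC S.nE (X.idx S v) = vn v ∧ nvx S.nC S.nE (X.idx S v) = vx v := by
  cases v with
  | co c a s =>
    have h0 := ZMod.val_lt (a 0)
    have h1 := ZMod.val_lt (a 1)
    have h2 := ZMod.val_lt (a 2)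
    have h3 := ZMod.val_lt (a 3)
    exact gxa_core S.nC S.nE _ _ _ (S.eC c).isLt s.isLt (by omega)
  | t0 c s x =>
    have h0 := ZMod.val_lt x
    exact gxa_core S.nC S.nE _ _ _ (S.eC c).isLt s.isLt (by omega)
  | t1 c s x y =>
    have h0 := ZMod.val_lt x
    have h1 := ZMod.val_lt y
    exact gxa_core S.nC S.nE _ _ _ (S.eC c).isLt s.isLt (by omega)
  | t2 c s x y z =>
    have h0 := ZMod.val_lt x
    have h1 := ZMod.val_lt y
    have h2 := ZMod.val_lt z
    exact gxa_core S.nC S.nE _ _ _ (S.eC c).isLt s.isLt (by omega)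
  | rl e n x => exact gxa_rail S.nC S.nE _ _ _ (S.eE e).isLt n.isLt (ZMod.val_lt x)
  | tp e => exact gxa_top S.nC S.nE _

private theorem gxa_zval {x y : ZMod 2} (h : x.val = y.val) : x = y := ZMod.val_injective 2 h

private theorem gxa_eC {c c' : S.C} (h : (S.eC c).val = (S.eC c').val) : c = c' :=
  S.eC.injective (Fin.ext h)

private theorem gxa_eE {c c' : S.E} (h : (S.eE c).val = (S.eE c').val) : c = c' :=
  S.eE.injective (Fin.ext h)

private theorem gxa_ext (v w : V0 S) (h1 : kd v = kd w) (h2 : vc v = vc w) (h3 : vs v = vs w)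
    (h4 : vr v = vr w) (h5 : ve v = ve w) (h6 : vn v = vn w) (h7 : vx v = vx w) : v = w := by
  cases v with
  | co c a s =>
    have ha0 := ZMod.val_lt (a 0)
    have ha1 := ZMod.val_lt (a 1)
    have ha2 := ZMod.val_lt (a 2)
    have ha3 := ZMod.val_lt (a 3)
    cases w with
    | co c' a' s' =>
      simp only [vc, vs, vr] at h2 h3 h4
      have hb0 := ZMod.val_lt (a' 0)
      have hb1 := ZMod.val_lt (a' 1)
      have hb2 := ZMod.val_lt (a' 2)
      have hb3 := ZMod.val_lt (a' 3)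
      obtain rfl := gxa_eC h2
      obtain rfl := Fin.ext h3
      have e0 : a 0 = a' 0 := gxa_zval (by omega)
      have e1 : a 1 = a' 1 := gxa_zval (by omega)
      have e2 : a 2 = a' 2 := gxa_zval (by omega)
      have e3 : a 3 = a' 3 := gxa_zval (by omega)
      have : a = a' := by
        funext i
        fin_cases i
        · exact e0
        · exact e1
        · exact e2
        · exact e3
      rw [this]
    | t0 c' s' x' => simp only [vr] at h4; omega
    | t1 c' s' x' y' => simp only [vr] at h4; omega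
    | t2 c' s' x' y' z' => simp only [vr] at h4; omega
    | rl e' n' x' => simp [kd] at h1
    | tp e' => simp [kd] at h1
  | t0 c s x =>
    have ha0 := ZMod.val_lt x
    cases w with
    | co c' a' s' =>
      simp only [vr] at h4
      have hb0 := ZMod.val_lt (a' 0)
      have hb1 := ZMod.val_lt (a' 1)
      have hb2 := ZMod.val_lt (a' 2)
      have hb3 := ZMod.val_lt (a' 3)
      omega
    | t0 c' s' x' =>
      simp only [vc, vs, vr] at h2 h3 h4
      obtain rfl := gxa_eC h2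
      obtain rfl := Fin.ext h3
      have e0 : x = x' := gxa_zval (by omega)
      rw [e0]
    | t1 c' s' x' y' => simp only [vr] at h4; omega
    | t2 c' s' x' y' z' => simp only [vr] at h4; omega
    | rl e' n' x' => simp [kd] at h1
    | tp e' => simp [kd] at h1
  | t1 c s x y =>
    have ha0 := ZMod.val_lt x
    have ha1 := ZMod.val_lt y
    cases w with
    | co c' a' s' =>
      simp only [vr] at h4
      have hb0 := ZMod.val_lt (a' 0)
      have hb1 := ZMod.val_lt (a' 1)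
      have hb2 := ZMod.val_lt (a' 2)
      have hb3 := ZMod.val_lt (a' 3)
      omega
    | t0 c' s' x' =>
      simp only [vr] at h4
      have hb0 := ZMod.val_lt x'
      omega
    | t1 c' s' x' y' =>
      simp only [vc, vs, vr] at h2 h3 h4
      have hb0 := ZMod.val_lt x'
      have hb1 := ZMod.val_lt y'
      obtain rfl := gxa_eC h2
      obtain rfl := Fin.ext h3
      have e0 : x = x' := gxa_zval (by omega)
      have e1 : y = y' := gxa_zval (by omega)
      rw [e0, e1]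
    | t2 c' s' x' y' z' => simp only [vr] at h4; omega
    | rl e' n' x' => simp [kd] at h1
    | tp e' => simp [kd] at h1
  | t2 c s x y z =>
    have ha0 := ZMod.val_lt x
    have ha1 := ZMod.val_lt y
    have ha2 := ZMod.val_lt z
    cases w with
    | co c' a' s' =>
      simp only [vr] at h4
      have hb0 := ZMod.val_lt (a' 0)
      have hb1 := ZMod.val_lt (a' 1)
      have hb2 := ZMod.val_lt (a' 2)
      have hb3 := ZMod.val_lt (a' 3)
      omega
    | t0 c' s' x' =>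
      simp only [vr] at h4
      have hb0 := ZMod.val_lt x'
      omega
    | t1 c' s' x' y' =>
      simp only [vr] at h4
      have hb0 := ZMod.val_lt x'
      have hb1 := ZMod.val_lt y'
      omega
    | t2 c' s' x' y' z' =>
      simp only [vc, vs, vr] at h2 h3 h4
      have hb0 := ZMod.val_lt x'
      have hb1 := ZMod.val_lt y'
      have hb2 := ZMod.val_lt z'
      obtain rfl := gxa_eC h2
      obtain rfl := Fin.ext h3
      have e0 : x = x' := gxa_zval (by omega)
      have e1 : y = y' := gxa_zval (by omega)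
      have e2 : z = z' := gxa_zval (by omega)
      rw [e0, e1, e2]
    | rl e' n' x' => simp [kd] at h1
    | tp e' => simp [kd] at h1
  | rl e n x =>
    cases w with
    | co c' a' s' => simp [kd] at h1
    | t0 c' s' x' => simp [kd] at h1
    | t1 c' s' x' y' => simp [kd] at h1
    | t2 c' s' x' y' z' => simp [kd] at h1
    | rl e' n' x' =>
      simp only [ve, vn, vx] at h5 h6 h7
      obtain rfl := gxa_eE h5
      obtain rfl := Fin.ext h6
      obtain rfl := gxa_zval h7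
      rfl
    | tp e' => simp [kd] at h1
  | tp e =>
    cases w with
    | co c' a' s' => simp [kd] at h1
    | t0 c' s' x' => simp [kd] at h1
    | t1 c' s' x' y' => simp [kd] at h1
    | t2 c' s' x' y' z' => simp [kd] at h1
    | rl e' n' x' => simp [kd] at h1
    | tp e' =>
      simp only [ve] at h5
      obtain rfl := gxa_eE h5
      rfl

/-- PROOF. from `views`: equal views give equal vertices. -/
theorem idx_injective : Function.Injective (X.idx S) := by
  intro v w h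
  obtain ⟨a1, a2, a3, a4, a5, a6, a7⟩ := views v
  obtain ⟨b1, b2, b3, b4, b5, b6, b7⟩ := views w
  rw [h] at a1 a2 a3 a4 a5 a6 a7
  exact gxa_ext v w (a1.symm.trans b1) (a2.symm.trans b2) (a3.symm.trans b3) (a4.symm.trans b4)
    (a5.symm.trans b5) (a6.symm.trans b6) (a7.symm.trans b7)

private theorem gxa_core_lt (nC nE C s r : ℕ) (hC : C < nC) (hs : s < 5) (hr : r < 30) :
    150 * C + 30 * s + r < 150 * nC + (20 * nC + 2) * nE + nE := by
  generalize (20 * nC + 2) * nE = Q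
  omega

theorem idx_lt (v : V0 S) : X.idx S v < X.N0 S := by
  cases v with
  | co c a s =>
    have h0 := ZMod.val_lt (a 0)
    have h1 := ZMod.val_lt (a 1)
    have h2 := ZMod.val_lt (a 2)
    have h3 := ZMod.val_lt (a 3)
    exact gxa_core_lt S.nC S.nE _ _ _ (S.eC c).isLt s.isLt (by omega)
  | t0 c s x =>
    have h0 := ZMod.val_lt x
    exact gxa_core_lt S.nC S.nE _ _ _ (S.eC c).isLt s.isLt (by omega)
  | t1 c s x y =>
    have h0 := ZMod.val_lt x
    have h1 := ZMod.val_lt y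
    exact gxa_core_lt S.nC S.nE _ _ _ (S.eC c).isLt s.isLt (by omega)
  | t2 c s x y z =>
    have h0 := ZMod.val_lt x
    have h1 := ZMod.val_lt y
    have h2 := ZMod.val_lt z
    exact gxa_core_lt S.nC S.nE _ _ _ (S.eC c).isLt s.isLt (by omega)
  | rl e n x =>
    have h0 := ZMod.val_lt x
    have h1 := n.isLt
    have h2 := gxa_rail_bd S.nC S.nE _ (S.eE e).isLt
    show 150 * S.nC + ((20 * S.nC + 2) * (S.eE e).val + 2 * n.val + x.val) <
      150 * S.nC + (20 * S.nC + 2) * S.nE + S.nE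
    omega
  | tp e =>
    have h1 := (S.eE e).isLt
    show 150 * S.nC + (20 * S.nC + 2) * S.nE + (S.eE e).val < 150 * S.nC + (20 * S.nC + 2) * S.nE + S.nE
    omega

private theorem gxa_cast (k : ℕ) (h : k < 2) : ((k : ℕ) : ZMod 2).val = k := by
  rw [ZMod.val_natCast, Nat.mod_eq_of_lt h]

/-- PROOF. decode the number. -/
theorem idx_surj (i : ℕ) (h : i < X.N0 S) : ∃ v, X.idx S v = i := by
  have hN : i < 150 * S.nC + (20 * S.nC + 2) * S.nE + S.nE := h
  by_cases h1 : i < 150 * S.nC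
  · have hC : i / 150 < S.nC := by omega
    have hs : i % 150 / 30 < 5 := by omega
    have hec : (S.eC (S.eC.symm ⟨i / 150, hC⟩)).val = i / 150 := by simp
    by_cases r0 : i % 30 < 16
    · refine ⟨V0.co (S.eC.symm ⟨i / 150, hC⟩)
        ![((i % 30 / 8 : ℕ) : ZMod 2), ((i % 30 / 4 % 2 : ℕ) : ZMod 2),
          ((i % 30 / 2 % 2 : ℕ) : ZMod 2), ((i % 30 % 2 : ℕ) : ZMod 2)] ⟨i % 150 / 30, hs⟩, ?_⟩
      show 150 * (S.eC (S.eC.symm ⟨i / 150, hC⟩)).val + 30 * (i % 150 / 30) +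
        (((i % 30 / 8 : ℕ) : ZMod 2).val * 8 + ((i % 30 / 4 % 2 : ℕ) : ZMod 2).val * 4 +
          ((i % 30 / 2 % 2 : ℕ) : ZMod 2).val * 2 + ((i % 30 % 2 : ℕ) : ZMod 2).val) = i
      rw [hec, gxa_cast _ (by omega), gxa_cast _ (by omega), gxa_cast _ (by omega),
        gxa_cast _ (by omega)]
      omega
    by_cases r1 : i % 30 < 18
    · refine ⟨V0.t0 (S.eC.symm ⟨i / 150, hC⟩) ⟨i % 150 / 30, hs⟩
        ((i % 30 - 16 : ℕ) : ZMod 2), ?_⟩
      show 150 * (S.eC (S.eC.symm ⟨i / 150, hC⟩)).val + 30 * (i % 150 / 30) +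
        (16 + ((i % 30 - 16 : ℕ) : ZMod 2).val) = i
      rw [hec, gxa_cast _ (by omega)]
      omega
    by_cases r2 : i % 30 < 22
    · refine ⟨V0.t1 (S.eC.symm ⟨i / 150, hC⟩) ⟨i % 150 / 30, hs⟩
        (((i % 30 - 18) / 2 : ℕ) : ZMod 2) (((i % 30 - 18) % 2 : ℕ) : ZMod 2), ?_⟩
      show 150 * (S.eC (S.eC.symm ⟨i / 150, hC⟩)).val + 30 * (i % 150 / 30) +
        (18 + ((((i % 30 - 18) / 2 : ℕ) : ZMod 2).val * 2 +
          (((i % 30 - 18) % 2 : ℕ) : ZMod 2).val)) = i
      rw [hec, gxa_cast _ (by omega), gxa_cast _ (by omega)]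
      omega
    · refine ⟨V0.t2 (S.eC.symm ⟨i / 150, hC⟩) ⟨i % 150 / 30, hs⟩
        (((i % 30 - 22) / 4 : ℕ) : ZMod 2) (((i % 30 - 22) / 2 % 2 : ℕ) : ZMod 2)
        (((i % 30 - 22) % 2 : ℕ) : ZMod 2), ?_⟩
      show 150 * (S.eC (S.eC.symm ⟨i / 150, hC⟩)).val + 30 * (i % 150 / 30) +
        (22 + ((((i % 30 - 22) / 4 : ℕ) : ZMod 2).val * 4 +
          (((i % 30 - 22) / 2 % 2 : ℕ) : ZMod 2).val * 2 +
          (((i % 30 - 22) % 2 : ℕ) : ZMod 2).val)) = i
      rw [hec, gxa_cast _ (by omega), gxa_cast _ (by omega), gxa_cast _ (by omega)]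
      omega
  by_cases h2 : i < 150 * S.nC + (20 * S.nC + 2) * S.nE
  · obtain ⟨j, rfl⟩ : ∃ j, i = 150 * S.nC + j := ⟨i - 150 * S.nC, by omega⟩
    have hj : j < (20 * S.nC + 2) * S.nE := by omega
    have hpos : 0 < 20 * S.nC + 2 := by
      omega
    have he : j / (20 * S.nC + 2) < S.nE := Nat.div_lt_of_lt_mul hj
    have hm : j % (20 * S.nC + 2) < 20 * S.nC + 2 := Nat.mod_lt _ hpos
    have hn : j % (20 * S.nC + 2) / 2 < 10 * S.nC + 1 := by omega
    refine ⟨V0.rl (S.eE.symm ⟨j / (20 * S.nC + 2), he⟩) ⟨j % (20 * S.nC + 2) / 2, hn⟩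
      ((j % (20 * S.nC + 2) % 2 : ℕ) : ZMod 2), ?_⟩
    have hee : (S.eE (S.eE.symm ⟨j / (20 * S.nC + 2), he⟩)).val = j / (20 * S.nC + 2) := by simp
    show 150 * S.nC + ((20 * S.nC + 2) * (S.eE (S.eE.symm ⟨j / (20 * S.nC + 2), he⟩)).val +
      2 * (j % (20 * S.nC + 2) / 2) + ((j % (20 * S.nC + 2) % 2 : ℕ) : ZMod 2).val) = 150 * S.nC + j
    rw [hee, gxa_cast _ (by omega)]
    have := Nat.div_add_mod j (20 * S.nC + 2)
    omega
  · have he : i - (150 * S.nC + (20 * S.nC + 2) * S.nE) < S.nE := by omega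
    refine ⟨V0.tp (S.eE.symm ⟨_, he⟩), ?_⟩
    have hee : (S.eE (S.eE.symm ⟨_, he⟩)).val = i - (150 * S.nC + (20 * S.nC + 2) * S.nE) := by simp
    show 150 * S.nC + (20 * S.nC + 2) * S.nE + (S.eE (S.eE.symm ⟨_, he⟩)).val = i
    rw [hee]
    omega

end Crest.Agent.WLX.GX
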