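import Crest.Agent.WL.GraphX
import Crest.Agent.WLX.Auto

/-!
# Row 290: the graph `X S b` on vertex numbers (definitions)

Views of core vertices (`kd` kind, `vc` check, `vs` port, `vr` number inside the port block `< 30`, `ve` bit,
`vn` position on the rail, `vx` value), numeric versions on `i = X.idx S v`, step predicate.
-/

set_option autoImplicit false

namespace Crest.Agent.WLX.GX

open Crest.Agent.WL

section views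

variable {S : Sys}

def kd : V0 S → ℕ
  | V0.co _ _ _ => 0
  | V0.t0 _ _ _ => 0
  | V0.t1 _ _ _ _ => 0
  | V0.t2 _ _ _ _ _ => 0
  | V0.rl _ _ _ => 1
  | V0.tp _ => 2

def vc : V0 S → ℕ
  | V0.co c _ _ => (S.eC c).val
  | V0.t0 c _ _ => (S.eC c).val
  | V0.t1 c _ _ _ => (S.eC c).val
  | V0.t2 c _ _ _ _ => (S.eC c).val
  | V0.rl _ _ _ => 0
  | V0.tp _ => 0

def vs : V0 S → ℕ
  | V0.co _ _ s => s.val
  | V0.t0 _ s _ => s.val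
  | V0.t1 _ s _ _ => s.val
  | V0.t2 _ s _ _ _ => s.val
  | V0.rl _ _ _ => 0
  | V0.tp _ => 0

def vr : V0 S → ℕ
  | V0.co _ a _ => (a 0).val * 8 + (a 1).val * 4 + (a 2).val * 2 + (a 3).val
  | V0.t0 _ _ x => 16 + x.val
  | V0.t1 _ _ x y => 18 + (x.val * 2 + y.val)
  | V0.t2 _ _ x y z => 22 + (x.val * 4 + y.val * 2 + z.val)
  | V0.rl _ _ _ => 0
  | V0.tp _ => 0

def ve : V0 S → ℕ
  | V0.co _ _ _ => 0
  | V0.t0 _ _ _ => 0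
  | V0.t1 _ _ _ _ => 0
  | V0.t2 _ _ _ _ _ => 0
  | V0.rl e _ _ => (S.eE e).val
  | V0.tp e => (S.eE e).val

def vn : V0 S → ℕ
  | V0.co _ _ _ => 0
  | V0.t0 _ _ _ => 0
  | V0.t1 _ _ _ _ => 0
  | V0.t2 _ _ _ _ _ => 0
  | V0.rl _ n _ => n.val
  | V0.tp _ => 0

def vx : V0 S → ℕ
  | V0.co _ _ _ => 0
  | V0.t0 _ _ _ => 0
  | V0.t1 _ _ _ _ => 0
  | V0.t2 _ _ _ _ _ => 0
  | V0.rl _ _ x => x.val
  | V0.tp _ => 0

end views

/-! ## numeric versions -/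

def nkd (nC nE i : ℕ) : ℕ :=
  if i < 150 * nC then 0 else if i < 150 * nC + (20 * nC + 2) * nE then 1 else 2

def nvc (nC i : ℕ) : ℕ := if i < 150 * nC then i / 150 else 0
def nvs (nC i : ℕ) : ℕ := if i < 150 * nC then i % 150 / 30 else 0
def nvr (nC i : ℕ) : ℕ := if i < 150 * nC then i % 30 else 0
def nve (nC nE i : ℕ) : ℕ :=
  if i < 150 * nC then 0 else if i < 150 * nC + (20 * nC + 2) * nE then (i - 150 * nC) / (20 * nC + 2)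
  else i - (150 * nC + (20 * nC + 2) * nE)
def nvn (nC nE i : ℕ) : ℕ :=
  if i < 150 * nC then 0 else if i < 150 * nC + (20 * nC + 2) * nE then (i - 150 * nC) % (20 * nC + 2) / 2
  else 0
def nvx (nC nE i : ℕ) : ℕ :=
  if i < 150 * nC then 0 else if i < 150 * nC + (20 * nC + 2) * nE then (i - 150 * nC) % (20 * nC + 2) % 2
  else 0

open Classical in
/-- value of slot `s` for the core number `r`; `B c`: the right-hand side of the check `c` is `1` -/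
noncomputable def fullN (B : ℕ → Prop) (c r s : ℕ) : ℕ :=
  if s = 0 then r / 8 % 2 else if s = 1 then r / 4 % 2 else if s = 2 then r / 2 % 2
  else if s = 3 then r % 2
  else ((if B c then 1 else 0) + (r / 8 % 2 + r / 4 % 2 + r / 2 % 2 + r % 2)) % 2

/-- oriented edges of the core in terms of the views -/
def stepV (AL : ℕ → Prop) (SL : ℕ → ℕ → ℕ → Prop) (B : ℕ → Prop)
    (k c s r e n x k' c' s' r' e' n' x' : ℕ) : Prop :=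
  (k = 0 ∧ k' = 0 ∧ c = c' ∧ AL c ∧
    ((r < 16 ∧ r' = r ∧ s' = s + 1) ∨
     (22 ≤ r ∧ r' < 16 ∧ s = s' ∧ fullN B c r' s = (r - 22) / 4 ∧
        fullN B c r' ((s + 1) % 5) = (r - 22) / 2 % 2 ∧ fullN B c r' ((s + 2) % 5) = (r - 22) % 2) ∨
     (18 ≤ r ∧ r < 22 ∧ 22 ≤ r' ∧ s = s' ∧ r - 18 = (r' - 22) / 2) ∨
     (16 ≤ r ∧ r < 18 ∧ 18 ≤ r' ∧ r' < 22 ∧ s = s' ∧ r - 16 = (r' - 18) / 2))) ∨
  (k = 1 ∧ k' = 0 ∧ 16 ≤ r' ∧ r' < 18 ∧ AL c' ∧ SL c' s' e ∧ n = 2 * (5 * c' + s') ∧ x = r' - 16) ∨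
  (k = 1 ∧ k' = 1 ∧ e = e' ∧ x = x' ∧ n' = n + 1) ∨
  (k = 2 ∧ k' = 1 ∧ e = e' ∧ n' = 0)

def stepN (nC nE : ℕ) (AL : ℕ → Prop) (SL : ℕ → ℕ → ℕ → Prop) (B : ℕ → Prop) (i j : ℕ) : Prop :=
  stepV AL SL B (nkd nC nE i) (nvc nC i) (nvs nC i) (nvr nC i) (nve nC nE i) (nvn nC nE i)
    (nvx nC nE i) (nkd nC nE j) (nvc nC j) (nvs nC j) (nvr nC j) (nve nC nE j) (nvn nC nE j)
    (nvx nC nE j)

/-- junk -/
def junkV (AL : ℕ → Prop) (k c : ℕ) : Prop := k = 0 ∧ ¬ AL c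

open Classical in
/-- length of the mark in terms of the views -/
noncomputable def lenV (nC nE : ℕ) (AL : ℕ → Prop) (SL : ℕ → ℕ → ℕ → Prop) (k c s r e n : ℕ) : ℕ :=
  if k = 0 ∧ r < 16 ∧ AL c ∧ s = 0 then 3 + c
  else if k = 0 ∧ 16 ≤ r ∧ r < 18 ∧ AL c ∧ ¬ (∃ e' < nE, SL c s e') then
    3 + nC + (10 * nC + 1) * nE + (2 * (5 * c + s) + (r - 16))
  else if k = 1 ∧ n % 2 = 1 then 3 + nC + ((10 * nC + 1) * e + n)
  else 0

noncomputable def lenN (nC nE : ℕ) (AL : ℕ → Prop) (SL : ℕ → ℕ → ℕ → Prop) (i : ℕ) : ℕ :=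
  lenV nC nE AL SL (nkd nC nE i) (nvc nC i) (nvs nC i) (nvr nC i) (nve nC nE i) (nvn nC nE i)

/-- `M + 3` -/
def M3 (nC nE : ℕ) : ℕ := 2 * (3 + 11 * nC + (10 * nC + 1) * nE) + 3

/-- number of vertices -/
def NX (nC nE : ℕ) : ℕ := (150 * nC + (20 * nC + 2) * nE + nE) * M3 nC nE

/-- oriented edges of the whole graph, vertex `i * M3 + j` -/
noncomputable def stepXN (nC nE : ℕ) (AL : ℕ → Prop) (SL : ℕ → ℕ → ℕ → Prop) (B : ℕ → Prop)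
    (i j i' j' : ℕ) : Prop :=
  (j = 0 ∧ j' = 0 ∧ stepN nC nE AL SL B i i') ∨
  (i = i' ∧ j = 1 ∧ j' = 2) ∨
  (i' = i + 1 ∧ j = 2 ∧ j' = 1) ∨
  (i = i' ∧ j = 0 ∧ j' = 1 ∧ (junkV AL (nkd nC nE i) (nvc nC i) ∨ nkd nC nE i = 2)) ∨
  (i = i' ∧ j = 0 ∧ j' = 3 ∧ 0 < lenN nC nE AL SL i) ∨
  (i = i' ∧ j = 2 ∧ j' = 3 + lenN nC nE AL SL i) ∨
  (i = i' ∧ 3 ≤ j ∧ j' = j + 1 ∧ j' ≠ 3 + lenN nC nE AL SL i)

/-- adjacency on numbers -/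
noncomputable def adjN (nC nE : ℕ) (AL : ℕ → Prop) (SL : ℕ → ℕ → ℕ → Prop) (B : ℕ → Prop) (u v : ℕ) :
    Prop :=
  stepXN nC nE AL SL B (u / M3 nC nE) (u % M3 nC nE) (v / M3 nC nE) (v % M3 nC nE) ∨
  stepXN nC nE AL SL B (v / M3 nC nE) (v % M3 nC nE) (u / M3 nC nE) (u % M3 nC nE)

end Crest.Agent.WLX.GX
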