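import Crest.Agent.WLX.Pad
import Crest.Agent.WLD.Diag

/-!
# Row 290: EXPTIME-hardness from the rejection / acceptance problem of table machines
-/

set_option autoImplicit false

namespace Crest.Agent.WLX

open Crest.Agent.CHR Crest.CountHier Crest.Agent.WLM Crest.Agent.WLD

/-- REJECTION within exponential time reduces to `L` (for every fixed table `T`). -/
def HardNeg (L : Set W) : Prop :=
  ∀ T : Tab, T.Ok → ∀ d : ℕ, ∃ f : W → W, CHR.PolyTime f ∧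
    ∀ x, ∃ t : ℕ, 2 ^ ((x.length + d) ^ d) ≤ t ∧ (f x ∈ L ↔ ¬ T.Acc x t)

/-- ACCEPTANCE within exponential time reduces to `L` (for every fixed table `T`). -/
def HardPos (L : Set W) : Prop :=
  ∀ T : Tab, T.Ok → ∀ d : ℕ, ∃ f : W → W, CHR.PolyTime f ∧
    ∀ x, ∃ t : ℕ, 2 ^ ((x.length + d) ^ d) ≤ t ∧ (f x ∈ L ↔ T.Acc x t)

theorem hard_arith (K C : ℕ) : ∃ d : ℕ, ∀ n : ℕ,
    C * 2 ^ (n ^ K) + C * n + C ≤ 2 ^ ((n + d) ^ d) := by
  refine ⟨K + 3 * C + 3, fun n => ?_⟩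
  set d := K + 3 * C + 3 with hd
  have h1 : C * 2 ^ (n ^ K) + C * n + C ≤ 2 ^ (n ^ K + n + 3 * C) := by
    have a1 : C ≤ 2 ^ C := Nat.lt_two_pow_self.le
    have a2 : n ≤ 2 ^ n := Nat.lt_two_pow_self.le
    have a3 : 1 ≤ 2 ^ (n ^ K) := Nat.one_le_two_pow
    have a4 : 1 ≤ 2 ^ n := Nat.one_le_two_pow
    rcases Nat.eq_zero_or_pos C with h0 | h0
    · rw [h0]; simp
    · have a5 : 3 ≤ 2 ^ (2 * C) := by
        calc 3 ≤ 2 ^ 2 := by norm_num
          _ ≤ 2 ^ (2 * C) := Nat.pow_le_pow_right (by norm_num) (by omega)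
      have e : 2 ^ (n ^ K + n + 3 * C) = (2 ^ (n ^ K) * 2 ^ n) * (2 ^ C * 2 ^ (2 * C)) := by
        rw [← pow_add, ← pow_add, ← pow_add]
        congr 1
        ring
      rw [e]
      have b1 : 2 ^ (n ^ K) ≤ 2 ^ (n ^ K) * 2 ^ n := Nat.le_mul_of_pos_right _ (by omega)
      have b2 : n ≤ 2 ^ (n ^ K) * 2 ^ n := a2.trans (Nat.le_mul_of_pos_left _ (by omega))
      have b3 : 1 ≤ 2 ^ (n ^ K) * 2 ^ n := Nat.one_le_iff_ne_zero.2 (by positivity)
      calc C * 2 ^ (n ^ K) + C * n + C = C * (2 ^ (n ^ K) + n + 1) := by ring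
        _ ≤ C * (3 * (2 ^ (n ^ K) * 2 ^ n)) := Nat.mul_le_mul_left _ (by omega)
        _ = (2 ^ (n ^ K) * 2 ^ n) * (C * 3) := by ring
        _ ≤ (2 ^ (n ^ K) * 2 ^ n) * (2 ^ C * 2 ^ (2 * C)) :=
            Nat.mul_le_mul_left _ (Nat.mul_le_mul a1 a5)
  refine h1.trans (Nat.pow_le_pow_right (by norm_num) ?_)
  have c0 : 1 ≤ n + d := by omega
  have c1 : (n + d) ^ (K + 2) ≤ (n + d) ^ d := Nat.pow_le_pow_right c0 (by omega)
  have c2 : n ^ K ≤ (n + d) ^ (K + 1) :=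
    (Nat.pow_le_pow_left (by omega) K).trans (Nat.pow_le_pow_right c0 (by omega))
  have c3 : n + d ≤ (n + d) ^ (K + 1) := by
    calc n + d = (n + d) ^ 1 := (pow_one _).symm
      _ ≤ (n + d) ^ (K + 1) := Nat.pow_le_pow_right c0 (by omega)
  have c4 : (n + d) ^ (K + 2) = (n + d) ^ (K + 1) * (n + d) := pow_succ _ _
  have c5 : (n + d) ^ (K + 1) * 3 ≤ (n + d) ^ (K + 1) * (n + d) :=
    Nat.mul_le_mul_left _ (by omega)
  omega

/-- a structured program for a problem in EXPTIME -/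
theorem exp_prog (hTM : TM2Prop) {A : Set W} (hA : Crest.ExpTime.InEXP A) :
    ∃ (P : Prog) (g : W → Bool) (K C : ℕ), (∀ x, x ∈ A ↔ g x = true) ∧
      ∀ x : W, ∃ t ≤ C * 2 ^ (x.length ^ K) + C * x.length + C, Ev P (ini x) t (ini [g x]) := by
  obtain ⟨K, g, c, ⟨M, hM⟩, hg⟩ := hA
  obtain ⟨P, C, hP⟩ := hTM W _ g M
  refine ⟨P, g, K, C * (2 * c + 1), hg, fun x => ?_⟩
  obtain ⟨t, ht, hev⟩ := hP x
  refine ⟨t, ht.trans ?_, hev⟩
  have h1 : M.time x.length ≤ c * 2 ^ (x.length ^ K) + c := hM x.length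
  have e1 : ((Computability.encodingList Bool).encode x).length = x.length := rfl
  rw [e1]
  have h2 : C * M.time x.length ≤ C * (c * 2 ^ (x.length ^ K) + c) := Nat.mul_le_mul_left _ h1
  have h3 : 1 ≤ 2 ^ (x.length ^ K) := Nat.one_le_two_pow
  generalize 2 ^ (x.length ^ K) = X at *
  generalize M.time x.length = Y at *
  nlinarith [Nat.zero_le (C * c * x.length), Nat.zero_le (C * c * X), Nat.zero_le (C * X),
    Nat.zero_le (C * x.length)]

/-- table machine for a problem in EXPTIME -/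
theorem exp_tab (hTM : TM2Prop) {A : Set W} (hA : Crest.ExpTime.InEXP A) :
    ∃ (T : Tab) (d : ℕ), T.Ok ∧ ∀ x : W, ∀ t : ℕ, 2 ^ ((x.length + d) ^ d) ≤ t →
      (x ∈ A ↔ T.Acc x t) := by
  obtain ⟨P, g, K, C, hg, hP⟩ := exp_prog hTM hA
  obtain ⟨d, hd⟩ := hard_arith K (3 * C + 7)
  refine ⟨tabOf P, d, tabOf_ok P, fun x t ht => ?_⟩
  obtain ⟨t0, ht0, hev⟩ := hP x
  obtain ⟨h1, h2⟩ := tabOf_spec hev
  rw [hg x]
  cases hb : g x with
  | true =>
    rw [hb] at h1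
    refine ⟨fun _ => (h1 rfl).mono (le_trans ?_ ht), fun _ => rfl⟩
    have := hd x.length
    have h3 : 1 ≤ 2 ^ (x.length ^ K) := Nat.one_le_two_pow
    refine le_trans ?_ this
    generalize 2 ^ (x.length ^ K) = X at *
    nlinarith
  | false =>
    rw [hb] at h2
    exact ⟨fun h => by simp at h, fun h => absurd h (h2 rfl t)⟩

/-- the same for the complement -/
theorem exp_tab_not (hTM : TM2Prop) {A : Set W} (hA : Crest.ExpTime.InEXP A) :
    ∃ (T : Tab) (d : ℕ), T.Ok ∧ ∀ x : W, ∀ t : ℕ, 2 ^ ((x.length + d) ^ d) ≤ t →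
      (x ∈ A ↔ ¬ T.Acc x t) := by
  obtain ⟨P, g, K, C, hg, hP⟩ := exp_prog hTM hA
  have hR : UP (fun w => ¬ w = [true]) := (UP.eqS CHR.PT.id (CHR.PT.const [true])).not
  obtain ⟨R, r, hR⟩ := hR
  obtain ⟨d, hd⟩ := hard_arith K (3 * C + 3 * r.eval 1 + 7)
  refine ⟨tabOf (P ;; R), d, tabOf_ok _, fun x t ht => ?_⟩
  obtain ⟨t0, ht0, hev⟩ := hP x
  obtain ⟨t1, ht1, hev1⟩ := hR [g x]
  have ht1' : t1 ≤ r.eval 1 := by simpa using ht1
  obtain ⟨h1, h2⟩ := tabOf_spec (Ev.seq hev hev1)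
  rw [hg x]
  cases hb : g x with
  | false =>
    rw [hb] at h1
    simp only [Bool.false_eq_true, false_iff, not_not]
    refine (h1 (by simp)).mono (le_trans ?_ ht)
    have := hd x.length
    have h3 : 1 ≤ 2 ^ (x.length ^ K) := Nat.one_le_two_pow
    refine le_trans ?_ this
    generalize 2 ^ (x.length ^ K) = X at *
    nlinarith
  | true =>
    rw [hb] at h2
    exact ⟨fun _ => h2 (by simp) t, fun _ => rfl⟩

theorem expHard_of_neg (hTM : TM2Prop) {L : Set W} (h : HardNeg L) : Crest.ExpTime.EXPHard L := by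
  intro A hA
  obtain ⟨T, d, hT, hd⟩ := exp_tab_not hTM hA
  obtain ⟨f, hf, hfx⟩ := h T hT d
  refine ⟨f, hf.toTM, fun x => ?_⟩
  obtain ⟨t, ht, hx⟩ := hfx x
  rw [hx]
  exact hd x t ht

theorem expHard_of_pos (hTM : TM2Prop) {L : Set W} (h : HardPos L) : Crest.ExpTime.EXPHard L := by
  intro A hA
  obtain ⟨T, d, hT, hd⟩ := exp_tab hTM hA
  obtain ⟨f, hf, hfx⟩ := h T hT d
  refine ⟨f, hf.toTM, fun x => ?_⟩
  obtain ⟨t, ht, hx⟩ := hfx x
  rw [hx]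
  exact hd x t ht

end Crest.Agent.WLX
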