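import Crest.Agent.WLX.UNCode
import Crest.Agent.WLX.Alg
import Crest.Agent.WLX.Big

/-!
# Row 290, module A: reading graphs from strings, numeric versions of the graph predicates

CHUNK R290-X-MEM0 (all lemmas of this file).
-/

set_option autoImplicit false

namespace Crest.Agent.WLX

open Crest.Agent.CHR Crest.CountHier Crest.WLRefine Finset Classical

/-- length of the code of `n` -/
def cl (n : ℕ) : ℕ := (Crest.Enc.natCode n).length

/-- matrix entry `(u, v)` of the `n`-vertex graph whose matrix starts at position `o` of `w` -/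
def gm (w : W) (o n u v : ℕ) : Prop := w.getD (o + (u * n + v)) false = true

noncomputable def gr (w : W) (o n : ℕ) : Fin n → Fin n → Bool := fun u v => decide (gm w o n u v)

/-- the matrix given by the bits of the number `h` -/
def bm (P n h u v : ℕ) : Prop := h / pw P 2 (u * n + v) % 2 = 1

noncomputable def br (P n h : ℕ) : Fin n → Fin n → Bool := fun u v => decide (bm P n h u v)

def simpleN (n : ℕ) (A : ℕ → ℕ → Prop) : Prop := ∀ u < n, ∀ v < n, (A u v ↔ A v u) ∧ ¬ A u u

def degN (n : ℕ) (A : ℕ → ℕ → Prop) : Prop := ∀ u < n, ((range n).filter fun v => A u v).card ≤ 3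

def connN (P n : ℕ) (A : ℕ → ℕ → Prop) : Prop :=
  0 < n ∧ ∀ S < pw P 2 n, (∃ u < n, S / pw P 2 u % 2 = 1) → (∃ v < n, S / pw P 2 v % 2 ≠ 1) →
    ∃ u < n, ∃ v < n, S / pw P 2 u % 2 = 1 ∧ S / pw P 2 v % 2 ≠ 1 ∧ (A u v ∨ A v u)

def isoN (P n : ℕ) (A B : ℕ → ℕ → Prop) : Prop :=
  ∃ f < pw P n n, (∀ u < n, ∀ v < n, dig P n f u = dig P n f v → u = v) ∧
    ∀ u < n, ∀ v < n, (B (dig P n f u) (dig P n f v) ↔ A u v)

theorem Mem0.cl_eq (k : ℕ) : cl k = 2 * k.size + 2 := by
  unfold cl Crest.Enc.natCode
  rw [List.length_append, List.length_flatten, List.map_map, ← Nat.size_eq_bits_len]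
  have : (List.length ∘ fun b : Bool => [true, b]) = fun _ => 2 := by
    funext b; rfl
  rw [this]
  simp [mul_comm]

theorem cl_bound (k : ℕ) : k < 2 ^ cl k := by
  refine lt_of_lt_of_le (Nat.lt_size_self k) ?_
  rw [Mem0.cl_eq]
  exact Nat.pow_le_pow_right (by norm_num) (by omega)

/-- the relation on numbers of a Boolean matrix -/
def Mem0.rel {n : ℕ} (G : Fin n → Fin n → Bool) (u v : ℕ) : Prop :=
  ∃ (h : u < n) (h' : v < n), G ⟨u, h⟩ ⟨v, h'⟩ = true

theorem Mem0.rel_iff {n : ℕ} (G : Fin n → Fin n → Bool) (u v : Fin n) :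
    Mem0.rel G u v ↔ G u v = true := by
  constructor
  · rintro ⟨_, _, h⟩; exact h
  · intro h; exact ⟨u.2, v.2, h⟩

theorem Mem0.code_eq {n : ℕ} (G : Fin n → Fin n → Bool) :
    adjMatrixCode G = Crest.Enc.natCode n ++
      (List.range (n * n)).map (fun i => decide (Mem0.rel G (i / n) (i % n))) := by
  rw [← adjMatrixCode_eq n (Mem0.rel G)]
  congr 1
  funext u v
  by_cases h : G u v = true
  · rw [h, decide_eq_true ((Mem0.rel_iff G u v).2 h)]
  · have h' : ¬ Mem0.rel G u v := fun h' => h ((Mem0.rel_iff G u v).1 h')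
    rw [decide_eq_false h']
    simpa using h

theorem adjMatrixCode_length {n : ℕ} (G : Fin n → Fin n → Bool) :
    (adjMatrixCode G).length = cl n + n * n := by
  rw [Mem0.code_eq, List.length_append, List.length_map, List.length_range]
  rfl

/-- PROOF. `List.getD_append_right`, `adjMatrixCode_eq` with `A u v := ∃ h h', G ⟨u,h⟩ ⟨v,h'⟩ = true`. -/
theorem gr_read (pre post : W) {n : ℕ} (G : Fin n → Fin n → Bool) :
    gr (pre ++ adjMatrixCode G ++ post) (pre.length + cl n) n = G := by
  funext u v
  have hn : 0 < n := Nat.lt_of_le_of_lt (Nat.zero_le _) u.2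
  have hi : (u : ℕ) * n + v < n * n := by
    have h1 := u.2
    have h2 := v.2
    nlinarith
  have hget : (pre ++ adjMatrixCode G ++ post).getD
      (pre.length + cl n + ((u : ℕ) * n + v)) false = decide (Mem0.rel G u v) := by
    rw [Mem0.code_eq, List.append_assoc, List.append_assoc, List.getD_eq_getElem?_getD,
      Nat.add_assoc, List.getElem?_append_right (Nat.le_add_right _ _), Nat.add_sub_cancel_left,
      List.getElem?_append_right (by unfold cl; omega)]
    have : cl n + ((u : ℕ) * n + v) - (Crest.Enc.natCode n).length = (u : ℕ) * n + v := by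
      unfold cl; omega
    rw [this, List.getElem?_append_left (by simpa using hi), List.getElem?_map,
      List.getElem?_range hi]
    simp only [Option.map_some, Option.getD_some]
    have e1 : ((u : ℕ) * n + v) / n = u := by
      rw [Nat.mul_comm, Nat.mul_add_div hn, Nat.div_eq_of_lt v.2, Nat.add_zero]
    have e2 : ((u : ℕ) * n + v) % n = v := by
      rw [Nat.mul_comm, Nat.mul_add_mod, Nat.mod_eq_of_lt v.2]
    rw [e1, e2]
  have hg : gm (pre ++ adjMatrixCode G ++ post) (pre.length + cl n) n u v ↔ G u v = true := by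
    unfold gm
    rw [hget, decide_eq_true_iff, Mem0.rel_iff]
  unfold gr
  by_cases h : G u v = true
  · rw [h]
    exact decide_eq_true (hg.2 h)
  · rw [decide_eq_false (fun h' => h (hg.1 h'))]
    simpa using h

theorem simpleN_iff {n : ℕ} {A : ℕ → ℕ → Prop} {G : Fin n → Fin n → Bool}
    (h : ∀ u v : Fin n, A u v ↔ G u v = true) : simpleN n A ↔ IsSimple G := by
  constructor
  · intro H
    refine ⟨fun v w => ?_, fun v => ?_⟩
    · have := (H v v.2 w w.2).1
      rw [h v w, h w v] at this
      exact Bool.eq_iff_iff.2 this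
    · have := (H v v.2 v v.2).2
      rw [h v v] at this
      simpa using this
  · rintro ⟨H1, H2⟩ u hu v hv
    have e1 := h ⟨u, hu⟩ ⟨v, hv⟩
    have e2 := h ⟨v, hv⟩ ⟨u, hu⟩
    have e3 := h ⟨u, hu⟩ ⟨u, hu⟩
    simp only at e1 e2 e3
    refine ⟨?_, ?_⟩
    · rw [e1, e2, H1]
    · rw [e3, H2]
      simp

theorem degN_iff {n : ℕ} {A : ℕ → ℕ → Prop} {G : Fin n → Fin n → Bool}
    (h : ∀ u v : Fin n, A u v ↔ G u v = true) : degN n A ↔ MaxDegLeThree G := by
  have key : ∀ u : Fin n, ((range n).filter fun v => A u v).card =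
      (univ.filter fun w => G u w = true).card := by
    intro u
    rw [← Nat.Iio_eq_range, ← Fin.map_valEmbedding_univ, Finset.filter_map, Finset.card_map]
    congr 1
    ext w
    simp [h u w]
  constructor
  · intro H u
    have := H u u.2
    rw [key u] at this
    convert this using 2
  · intro H u hu
    have := H ⟨u, hu⟩
    rw [key ⟨u, hu⟩]
    convert this using 2

end Crest.Agent.WLX
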