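import Crest.Agent.WLX.Mem0
import Crest.Agent.WLX.AlgJ1

/-!
# Row 290, module A: numeric versions of connectedness, isomorphism, all matrices

CHUNK R290-X-MEM0B (all lemmas of this file).
-/

set_option autoImplicit false

namespace Crest.Agent.WLX

open Crest.Agent.CHR Crest.CountHier Crest.WLRefine Finset Classical

/-- PROOF. `connected_iff`; `pw P 2 u = 2 ^ u` for `u ≤ n`. -/
theorem connN_iff {P n : ℕ} (hP : 2 ^ n ≤ P) {A : ℕ → ℕ → Prop} {G : Fin n → Fin n → Bool}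
    (h : ∀ u v : Fin n, A u v ↔ G u v = true) : connN P n A ↔ (adjGraph G).Connected := by
  rw [connected_iff]
  have hp : ∀ i, i ≤ n → pw P 2 i = 2 ^ i := fun i hi => pw_eq (k := n) hP hi (by norm_num)
  unfold connN
  rw [hp n le_rfl]
  refine and_congr_right fun _ => forall_congr' fun S => forall_congr' fun hS => ?_
  have e1 : (∃ u < n, S / pw P 2 u % 2 = 1) ↔ (∃ u : Fin n, S / 2 ^ (u : ℕ) % 2 = 1) := by
    constructor
    · rintro ⟨u, hu, h1⟩
      rw [hp u hu.le] at h1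
      exact ⟨⟨u, hu⟩, h1⟩
    · rintro ⟨u, h1⟩
      refine ⟨u, u.2, ?_⟩
      rw [hp u u.2.le]
      exact h1
  have e2 : (∃ u < n, S / pw P 2 u % 2 ≠ 1) ↔ (∃ u : Fin n, S / 2 ^ (u : ℕ) % 2 ≠ 1) := by
    constructor
    · rintro ⟨u, hu, h1⟩
      rw [hp u hu.le] at h1
      exact ⟨⟨u, hu⟩, h1⟩
    · rintro ⟨u, h1⟩
      refine ⟨u, u.2, ?_⟩
      rw [hp u u.2.le]
      exact h1
  rw [e1, e2]
  refine forall_congr' fun _ => forall_congr' fun _ => ?_
  constructor
  · rintro ⟨u, hu, v, hv, h1, h2, h3⟩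
    rw [hp u hu.le] at h1
    rw [hp v hv.le] at h2
    refine ⟨⟨u, hu⟩, ⟨v, hv⟩, h1, h2, ?_⟩
    rcases h3 with h3 | h3
    · exact Or.inl ((h ⟨u, hu⟩ ⟨v, hv⟩).1 h3)
    · exact Or.inr ((h ⟨v, hv⟩ ⟨u, hu⟩).1 h3)
  · rintro ⟨u, v, h1, h2, h3⟩
    refine ⟨u, u.2, v, v.2, ?_, ?_, ?_⟩
    · rw [hp u u.2.le]; exact h1
    · rw [hp v v.2.le]; exact h2
    · rcases h3 with h3 | h3
      · exact Or.inl ((h u v).2 h3)
      · exact Or.inr ((h v u).2 h3)

/-- PROOF. functions `Fin n → Fin n` are the numbers `< n ^ n` (`finFunctionFinEquiv`; digits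
`f / n ^ u % n`, `pw P n u = n ^ u` for `u ≤ n`); injective = bijective. -/
theorem isoN_iff {P n : ℕ} (hP : n ^ n ≤ P) {A B : ℕ → ℕ → Prop} {G H : Fin n → Fin n → Bool}
    (h : ∀ u v : Fin n, A u v ↔ G u v = true) (h' : ∀ u v : Fin n, B u v ↔ H u v = true) :
    isoN P n A B ↔ AdjIso G H := by
  have hpn : pw P n n = n ^ n := min_eq_left hP
  unfold isoN
  rw [hpn]
  constructor
  · rintro ⟨f, hf, h1, h2⟩
    have hd : ∀ i : Fin n, dig P n f i = (finFunctionFinEquiv.symm (⟨f, hf⟩ : Fin (n ^ n)) i :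
      Fin n) := fun i => dig_eq hP ⟨f, hf⟩ i
    set φ := finFunctionFinEquiv.symm (⟨f, hf⟩ : Fin (n ^ n)) with hφ
    have hinj : Function.Injective φ := by
      intro u v huv
      apply Fin.ext
      apply h1 u u.2 v v.2
      rw [hd u, hd v, huv]
    refine ⟨Equiv.ofBijective φ (Finite.injective_iff_bijective.1 hinj), fun v w => ?_⟩
    have h3 := h2 v v.2 w w.2
    rw [hd v, hd w, h', h] at h3
    rw [Equiv.ofBijective_apply, Equiv.ofBijective_apply]
    exact Bool.eq_iff_iff.2 h3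
  · rintro ⟨e, he⟩
    set t := finFunctionFinEquiv (fun i => e i) with ht
    have hd : ∀ i : Fin n, dig P n t i = (e i : Fin n) := by
      intro i
      rw [dig_eq hP t i, ht, Equiv.symm_apply_apply]
    refine ⟨t, t.2, ?_, ?_⟩
    · intro u hu v hv huv
      have h3 := hd ⟨u, hu⟩
      have h4 := hd ⟨v, hv⟩
      simp only at h3 h4
      rw [h3, h4] at huv
      have := e.injective (Fin.ext huv)
      exact congrArg Fin.val this
    · intro u hu v hv
      have h3 := hd ⟨u, hu⟩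
      have h4 := hd ⟨v, hv⟩
      simp only at h3 h4
      rw [h3, h4, h', he]
      exact (h ⟨u, hu⟩ ⟨v, hv⟩).symm

/-- every matrix is given by the bits of a number `< 2 ^ (n * n)` -/
theorem exists_br {P n : ℕ} (hP : 2 ^ (n * n) ≤ P) (H : Fin n → Fin n → Bool) :
    ∃ h < pw P 2 (n * n), br P n h = H := by
  have hp : ∀ i, i ≤ n * n → pw P 2 i = 2 ^ i := fun i hi => pw_eq (k := n * n) hP hi (by norm_num)
  rcases Nat.eq_zero_or_pos n with hn | hn
  · subst hn
    refine ⟨0, ?_, ?_⟩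
    · rw [hp _ le_rfl]; norm_num
    · funext u; exact u.elim0
  · have hdiv : ∀ i : Fin (n * n), (i : ℕ) / n < n := fun i => Nat.div_lt_of_lt_mul i.2
    have hmod : ∀ i : Fin (n * n), (i : ℕ) % n < n := fun i => Nat.mod_lt _ hn
    refine ⟨Nat.ofBits (fun i : Fin (n * n) => H ⟨i / n, hdiv i⟩ ⟨i % n, hmod i⟩), ?_, ?_⟩
    · rw [hp _ le_rfl]
      exact Nat.ofBits_lt_two_pow _
    · funext u v
      have hlt : (u : ℕ) * n + v < n * n := by
        have h1 : (u : ℕ) + 1 ≤ n := u.2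
        have h2 : ((u : ℕ) + 1) * n ≤ n * n := Nat.mul_le_mul_right n h1
        have h3 : (v : ℕ) < n := v.2
        nlinarith
      unfold br bm
      rw [hp _ hlt.le]
      set x := Nat.ofBits (fun i : Fin (n * n) => H ⟨i / n, hdiv i⟩ ⟨i % n, hmod i⟩) with hx
      have h0 : (x / 2 ^ ((u : ℕ) * n + v) % 2 = 1) ↔ x.testBit ((u : ℕ) * n + v) = true := by
        rw [Nat.testBit_eq_decide_div_mod_eq]
        exact (@decide_eq_true_iff _ (instDecidableEqNat _ _)).symm
      refine Bool.eq_iff_iff.2 ((@decide_eq_true_iff _ (propDecidable _)).trans (h0.trans ?_))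
      rw [hx, Nat.testBit_ofBits_lt _ _ hlt]
      have h1 : ((u : ℕ) * n + v) / n = u := by
        rw [mul_comm, Nat.mul_add_div hn, Nat.div_eq_of_lt v.2, add_zero]
      have h2 : ((u : ℕ) * n + v) % n = v := by
        rw [mul_comm, Nat.mul_add_mod, Nat.mod_eq_of_lt v.2]
      simp only [h1, h2]

end Crest.Agent.WLX
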