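import Crest.Agent.WLX.Mem0b
import Crest.Agent.WLX.AlgJ3
import Crest.Agent.WLX.AlgC

/-!
# Row 290, module A: the three languages by numeric predicates (correctness)

CHUNK R290-X-MEM1 (VD_iff, SD_iff).
-/

set_option autoImplicit false

namespace Crest.Agent.WLX

open Crest.Agent.CHR Crest.CountHier Crest.WLRefine Finset Classical

/-- start of the first matrix -/
def o1 (k n : ℕ) : ℕ := cl k + cl n
/-- start of the second matrix -/
def o2 (k n : ℕ) : ℕ := cl k + cl n + n * n + cl n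

/-- the two graphs in the string -/
def A2 (w : W) (k n g u v : ℕ) : Prop := gm w (if g = 0 then o1 k n else o2 k n) n u v

def VD (w : W) (B k n : ℕ) : Prop :=
  2 ≤ k ∧ w = Crest.Enc.natCode k ++ adjMatrixCode (gr w (o1 k n) n) ++
      adjMatrixCode (gr w (o2 k n) n) ∧
    simpleN n (gm w (o1 k n) n) ∧ simpleN n (gm w (o2 k n) n) ∧
    JDec B n (min k (n + 2)) (A2 w k n)

def SD (w : W) (B k n : ℕ) : Prop :=
  VD w B k n ∧ connN B n (gm w (o1 k n) n) ∧ connN B n (gm w (o2 k n) n) ∧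
    degN n (gm w (o1 k n) n) ∧ degN n (gm w (o2 k n) n)

/-- graph in the string and graph given by the number `h` -/
def A3 (w : W) (B k n h g u v : ℕ) : Prop := if g = 0 then gm w (o1 k n) n u v else bm B n h u v

def WD (w : W) (B k n : ℕ) : Prop :=
  1 ≤ k ∧ 0 < n ∧ w = Crest.Enc.natCode k ++ adjMatrixCode (gr w (o1 k n) n) ∧
    simpleN n (gm w (o1 k n) n) ∧
    ∃ k' < n + 3, 1 ≤ k' ∧ k' ≤ k ∧ ∀ h < pw B 2 (n * n), simpleN n (bm B n h) →
      ((k' = 1 ∧ CDec n (A3 w B k n h)) ∨ (k' ≠ 1 ∧ JDec B n k' (A3 w B k n h))) →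
        isoN B n (gm w (o1 k n) n) (bm B n h)

theorem gr_iff (w : W) (o n : ℕ) (u v : Fin n) : gm w o n u v ↔ gr w o n u v = true := by
  simp [gr]

theorem br_iff (P n h : ℕ) (u v : Fin n) : bm P n h u v ↔ br P n h u v = true := by
  simp [br]

theorem mem1_pow_le_B {w : W} {B n e : ℕ} (hB : 2 ^ ((w.length + 2) ^ 2) ≤ B)
    (hn : n < w.length + 1) (he : e ≤ n + 2) : n ^ e ≤ B := by
  refine le_trans ?_ hB
  calc n ^ e ≤ (2 ^ n) ^ e := Nat.pow_le_pow_left Nat.lt_two_pow_self.le e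
    _ = 2 ^ (n * e) := by rw [← pow_mul]
    _ ≤ 2 ^ ((w.length + 2) ^ 2) := by
        refine Nat.pow_le_pow_right (by norm_num) ?_
        rw [sq]
        exact Nat.mul_le_mul (by omega) (by omega)

private theorem two_pow_le_B {w : W} {B n : ℕ} (hB : 2 ^ ((w.length + 2) ^ 2) ≤ B)
    (hn : n < w.length + 1) : 2 ^ n ≤ B := by
  refine le_trans (Nat.pow_le_pow_right (by norm_num) ?_) hB
  nlinarith

private theorem VD_iff_aux {w : W} {B k n : ℕ} (hB : 2 ^ ((w.length + 2) ^ 2) ≤ B)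
    (hn : n < w.length + 1) : VD w B k n ↔ 2 ≤ k ∧ w = Crest.Enc.natCode k ++
      adjMatrixCode (gr w (o1 k n) n) ++ adjMatrixCode (gr w (o2 k n) n) ∧
      IsSimple (gr w (o1 k n) n) ∧ IsSimple (gr w (o2 k n) n) ∧
      JEquiv k (gr w (o1 k n) n) (gr w (o2 k n) n) := by
  unfold VD
  rw [simpleN_iff (gr_iff w (o1 k n) n), simpleN_iff (gr_iff w (o2 k n) n)]
  constructor
  · rintro ⟨h1, h2, h3, h4, h5⟩
    refine ⟨h1, h2, h3, h4, ?_⟩
    rw [JEquiv_min (by omega)]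
    refine (JDec_iff (by omega) (mem1_pow_le_B hB hn (min_le_right _ _)) ?_ ?_).1 h5
    · intro u v; unfold A2; rw [if_pos rfl]; exact gr_iff _ _ _ u v
    · intro u v; unfold A2; rw [if_neg (by norm_num)]; exact gr_iff _ _ _ u v
  · rintro ⟨h1, h2, h3, h4, h5⟩
    refine ⟨h1, h2, h3, h4, ?_⟩
    rw [JEquiv_min (by omega)] at h5
    refine (JDec_iff (by omega) (mem1_pow_le_B hB hn (min_le_right _ _)) ?_ ?_).2 h5
    · intro u v; unfold A2; rw [if_pos rfl]; exact gr_iff _ _ _ u v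
    · intro u v; unfold A2; rw [if_neg (by norm_num)]; exact gr_iff _ _ _ u v

private theorem read2 {w : W} {k n : ℕ} {G H : Fin n → Fin n → Bool}
    (hw : w = Crest.Enc.natCode k ++ adjMatrixCode G ++ adjMatrixCode H) :
    gr w (o1 k n) n = G ∧ gr w (o2 k n) n = H := by
  constructor
  · have := gr_read (Crest.Enc.natCode k) (adjMatrixCode H) G
    rw [← hw] at this
    exact this
  · have := gr_read (Crest.Enc.natCode k ++ adjMatrixCode G) [] H
    rw [List.append_nil, ← hw, List.length_append, adjMatrixCode_length] at this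
    have e : o2 k n = (Crest.Enc.natCode k).length + (cl n + n * n) + cl n := by
      unfold o2
      rw [← add_assoc]
      rfl
    rw [e]
    exact this

private theorem bounds2 {w : W} {k n : ℕ} {G H : Fin n → Fin n → Bool}
    (hw : w = Crest.Enc.natCode k ++ adjMatrixCode G ++ adjMatrixCode H) :
    k < 2 ^ ((w.length + 2) ^ 2) ∧ n < w.length + 1 := by
  have hl : w.length = cl k + (cl n + n * n) + (cl n + n * n) := by
    rw [hw, List.length_append, List.length_append, adjMatrixCode_length, adjMatrixCode_length]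
    rfl
  constructor
  · refine lt_of_lt_of_le (cl_bound k) (Nat.pow_le_pow_right (by norm_num) ?_)
    nlinarith
  · have : n ≤ n * n := Nat.le_mul_self n
    omega

/-- PROOF. `→`: `n = m` by `JEquiv.card`; `k < 2 ^ cl k ≤ B`, `n ≤ |w|` (`adjMatrixCode_length`);
the read graphs are the given ones (`gr_read` with `pre = natCode k`, and with
`pre = natCode k ++ adjMatrixCode G`, `post = []`); `JEquiv_min`, `JDec_iff`. `←`: the same backwards. -/
theorem VD_iff {w : W} {N B : ℕ} (hN : 2 ^ ((w.length + 2) ^ 2) ≤ N)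
    (hB : 2 ^ ((w.length + 2) ^ 2) ≤ B) :
    w ∈ varDimEquivLang ↔ ∃ k < N, ∃ n < w.length + 1, VD w B k n := by
  constructor
  · rintro ⟨k, n, m, G, H, hk, hG, hH, hE, hw⟩
    obtain rfl := JEquiv.card (by omega) hE
    obtain ⟨h1, h2⟩ := bounds2 hw
    refine ⟨k, lt_of_lt_of_le h1 hN, n, h2, ?_⟩
    rw [VD_iff_aux hB h2]
    obtain ⟨e1, e2⟩ := read2 hw
    rw [e1, e2]
    exact ⟨hk, hw, hG, hH, hE⟩
  · rintro ⟨k, -, n, hn, h⟩
    rw [VD_iff_aux hB hn] at h
    obtain ⟨h1, h2, h3, h4, h5⟩ := h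
    exact ⟨k, n, n, _, _, h1, h3, h4, h5, h2⟩

/-- PROOF. as `VD_iff`, with `connN_iff`, `degN_iff` (`2 ^ n ≤ 2 ^ |w| ≤ B`). -/
theorem SD_iff {w : W} {N B : ℕ} (hN : 2 ^ ((w.length + 2) ^ 2) ≤ N)
    (hB : 2 ^ ((w.length + 2) ^ 2) ≤ B) :
    w ∈ subcubicVarDimEquivLang ↔ ∃ k < N, ∃ n < w.length + 1, SD w B k n := by
  constructor
  · rintro ⟨k, n, G, H, hk, hn, ⟨hG1, hG2, hG3⟩, ⟨hH1, hH2, hH3⟩, hE, hw⟩
    obtain ⟨h1, h2⟩ := bounds2 hw
    refine ⟨k, lt_of_lt_of_le h1 hN, n, h2, ?_⟩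
    unfold SD
    obtain ⟨e1, e2⟩ := read2 hw
    rw [VD_iff_aux hB h2, connN_iff (two_pow_le_B hB h2) (gr_iff w (o1 k n) n),
      connN_iff (two_pow_le_B hB h2) (gr_iff w (o2 k n) n),
      degN_iff (gr_iff w (o1 k n) n), degN_iff (gr_iff w (o2 k n) n), e1, e2]
    exact ⟨⟨hk, hw, hG1, hH1, hE⟩, hG2, hH2, hG3, hH3⟩
  · rintro ⟨k, -, n, hn, h⟩
    unfold SD at h
    have h0 : 0 < n := h.2.1.1
    rw [VD_iff_aux hB hn, connN_iff (two_pow_le_B hB hn) (gr_iff w (o1 k n) n),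
      connN_iff (two_pow_le_B hB hn) (gr_iff w (o2 k n) n),
      degN_iff (gr_iff w (o1 k n) n), degN_iff (gr_iff w (o2 k n) n)] at h
    obtain ⟨⟨h1, h2, h3, h4, h5⟩, h6, h7, h8, h9⟩ := h
    exact ⟨k, n, _, _, h1, h0, ⟨h3, h6, h8⟩, ⟨h4, h7, h9⟩, h5, h2⟩

end Crest.Agent.WLX
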