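import Crest.Agent.WLX.Mem1

/-!
# Row 290, module A: correctness of the algorithm for the Weisfeiler-Leman dimension

CHUNK R290-X-MEM2 (all lemmas of this file).
-/

set_option autoImplicit false

namespace Crest.Agent.WLX

open Crest.Agent.CHR Crest.CountHier Crest.WLRefine Finset Classical

private theorem ident_iff {w : W} {B k n k' : ℕ} (hB : 2 ^ ((w.length + 2) ^ 2) ≤ B)
    (hn : n < w.length + 1) (hk' : k' < n + 3) (h1 : 1 ≤ k') :
    (∀ h < pw B 2 (n * n), simpleN n (bm B n h) →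
      ((k' = 1 ∧ CDec n (A3 w B k n h)) ∨ (k' ≠ 1 ∧ JDec B n k' (A3 w B k n h))) →
        isoN B n (gm w (o1 k n) n) (bm B n h)) ↔ Identifies k' (gr w (o1 k n) n) := by
  have hnn : 2 ^ (n * n) ≤ B := by
    refine le_trans (Nat.pow_le_pow_right (by norm_num) ?_) hB
    nlinarith
  have hiso : n ^ n ≤ B := mem1_pow_le_B hB hn (by omega)
  have hA0 : ∀ h, ∀ u v : Fin n, A3 w B k n h 0 u v ↔ gr w (o1 k n) n u v = true := by
    intro h u v
    unfold A3
    rw [if_pos rfl]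
    exact gr_iff _ _ _ u v
  have hA1 : ∀ h, ∀ u v : Fin n, A3 w B k n h 1 u v ↔ br B n h u v = true := by
    intro h u v
    unfold A3
    rw [if_neg (by norm_num)]
    exact br_iff _ _ _ u v
  have hWL : ∀ h, ((k' = 1 ∧ CDec n (A3 w B k n h)) ∨ (k' ≠ 1 ∧ JDec B n k' (A3 w B k n h))) ↔
      WLEquiv k' (gr w (o1 k n) n) (br B n h) := by
    intro h
    unfold WLEquiv
    by_cases hk1 : k' = 1
    · rw [if_pos hk1, CDec_iff (hA0 h) (hA1 h)]
      simp [hk1]
    · rw [if_neg hk1, JDec_iff h1 (mem1_pow_le_B hB hn (by omega)) (hA0 h) (hA1 h)]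
      simp [hk1]
  rw [Identifies_iff h1]
  constructor
  · intro H G' hG' hE
    obtain ⟨h, hh, hhG⟩ := exists_br hnn G'
    have h2 := H h hh
    rw [simpleN_iff (br_iff B n h), hWL h,
      isoN_iff hiso (gr_iff w (o1 k n) n) (br_iff B n h), hhG] at h2
    exact h2 hG' hE
  · intro H h hh hs hE
    rw [simpleN_iff (br_iff B n h)] at hs
    rw [hWL h] at hE
    rw [isoN_iff hiso (gr_iff w (o1 k n) n) (br_iff B n h)]
    exact H _ hs hE

/-- PROOF. `ident_min`, `Identifies_iff`, `exists_br` (`n * n ≤ |w|`), `CDec_iff`, `JDec_iff`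
(`n ^ k' ≤ n ^ (n + 2) ≤ 2 ^ (n * (n + 2)) ≤ B`), `isoN_iff`, `simpleN_iff`, `gr_read`. -/
theorem WD_iff {w : W} {N B : ℕ} (hN : 2 ^ ((w.length + 2) ^ 2) ≤ N)
    (hB : 2 ^ ((w.length + 2) ^ 2) ≤ B) :
    w ∈ wlDimLeLang ↔ ∃ k < N, ∃ n < w.length + 1, WD w B k n := by
  constructor
  · rintro ⟨k, n, G, hk, hn, hG, hI, hw⟩
    have hl : w.length = cl k + (cl n + n * n) := by
      rw [hw, List.length_append, adjMatrixCode_length]
      rfl
    have hnw : n < w.length + 1 := by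
      have : n ≤ n * n := Nat.le_mul_self n
      omega
    have hkN : k < 2 ^ ((w.length + 2) ^ 2) := by
      refine lt_of_lt_of_le (cl_bound k) (Nat.pow_le_pow_right (by norm_num) ?_)
      nlinarith
    have hr : gr w (o1 k n) n = G := by
      have := gr_read (Crest.Enc.natCode k) [] G
      rw [List.append_nil, ← hw] at this
      exact this
    refine ⟨k, lt_of_lt_of_le hkN hN, n, hnw, hk, hn, ?_, ?_, ?_⟩
    · rw [hr]; exact hw
    · rw [simpleN_iff (gr_iff w (o1 k n) n), hr]; exact hG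
    · obtain ⟨k', h1, h2, h3, h4⟩ := (ident_min G).1 hI
      refine ⟨k', h1, h2, h3, ?_⟩
      rw [ident_iff hB hnw h1 h2, hr]
      exact h4
  · rintro ⟨k, -, n, hnw, hk, hn, hw, hs, k', h1, h2, h3, h4⟩
    rw [simpleN_iff (gr_iff w (o1 k n) n)] at hs
    rw [ident_iff hB hnw h1 h2] at h4
    exact ⟨k, n, _, hk, hn, hs, ⟨k', h2, h3, h4⟩, hw⟩

end Crest.Agent.WLX
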