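import Crest.Agent.WLX.UN
import Crest.Agent.CHR.Compile
import Crest.Prelude.Def_ExpTime

/-!
# Row 290, module A: exponential padding, program level

CHUNK R290-X-PADA (all lemmas of this file).
-/

set_option autoImplicit false

namespace Crest.Agent.WLX

open Crest.Agent.CHR Crest.CountHier

/-- iteration with an arbitrary bound `M` on the sizes of the states.
PROOF. copy of the proof of `PT.iter` (`Crest/Agent/CHR/Comb.lean`), the program there is
`cpy B ;; C ;; mv 0 (B + 1) ;; mv (B + 2) 0 ;; I ;; .loop (B + 1) (.pop (B + 1) ;; P)`; only the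
time bound changes: `(polynomial in |w|) + |c w| * (p.eval M + 2) + 1`. -/
theorem iterTime {s i c : W → W} (hs : PolyTime s) (hi : PolyTime i) (hc : PolyTime c) :
    ∃ (P : Prog) (q1 q2 : Polynomial ℕ), ∀ (M : ℕ) (w : W),
      (∀ k ≤ (c w).length, (s^[k] (i w)).length ≤ M) →
        ∃ t ≤ q1.eval w.length * (q2.eval M + 1),
          Ev P (ini w) t (ini (s^[(c w).length] (i w))) := by
  have hcb := hc.pb
  obtain ⟨C, U, hU, hC⟩ := PolyTime_iff.1 hc
  obtain ⟨I, V, hV, hI⟩ := PolyTime_iff.1 hi
  obtain ⟨P, p, hP⟩ := hs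
  set B := max C.maxReg (max I.maxReg P.maxReg) with hB
  -- the loop
  have hloop : ∀ (l : W) (x : W) (M : ℕ), (∀ k ≤ l.length, (s^[k] x).length ≤ M) →
      ∃ t ≤ l.length * (p.eval M + 2) + 1,
        Ev (.loop (B + 1) (.pop (B + 1) ;; P)) (st B x l [] []) t
          (st B (s^[l.length] x) [] [] []) := by
    intro l
    induction l with
    | nil =>
      intro x M _
      exact ⟨1, by simp, Ev.loop_done (by simp)⟩
    | cons b l ih =>
      intro x M hM
      obtain ⟨t1, ht1, h1⟩ := hP x
      have hx : x.length ≤ M := by simpa using hM 0 (by simp)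
      have ht1' : t1 ≤ p.eval M := ht1.trans (polyEval_mono p hx)
      obtain ⟨t2, ht2, h2⟩ := ih (s x) M (fun k hk => by
        have := hM (k + 1) (by simpa using hk)
        simpa [Function.iterate_succ_apply] using this)
      have e1 : Ev (.pop (B + 1)) (st B x (b :: l) [] []) 1 (st B x l [] []) := by
        simpa using Ev.pop (B + 1) (st B x (b :: l) [] [])
      have e2 := h1.frame_st (le_trans (le_max_right _ _) (le_max_right _ _) : P.maxReg ≤ B)
        l [] []
      refine ⟨(1 + t1) + t2 + 1, ?_, ?_⟩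
      · have : (b :: l).length * (p.eval M + 2) = l.length * (p.eval M + 2) + (p.eval M + 2) := by
          rw [List.length_cons]; ring
        omega
      · have h3 := Ev.loop_step (r := B + 1) (by simp) (Ev.seq e1 e2) h2
        simpa [Function.iterate_succ_apply] using h3
  have c4 := PB.const 4
  have c1 := PB.const 1
  have hF : PB (fun w => ((9 * w.length + 2) + (U w + ((4 * (c w).length + 1) +
      ((4 * w.length + 1) + (V w + 1))))) + 3 * (c w).length) :=
    ((((PB.const 9).mul PB.len).add (PB.const 2)).add (hU.add (((c4.mul hcb).add c1).add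
      (((c4.mul PB.len).add c1).add (hV.add c1))))).add ((PB.const 3).mul hcb)
  obtain ⟨q1, hq1⟩ := hF
  refine ⟨cpy B ;; C ;; mv 0 (B + 1) ;; mv (B + 2) 0 ;; I ;; .loop (B + 1) (.pop (B + 1) ;; P),
    q1, p, fun M w hM => ?_⟩
  obtain ⟨Z, hZ, hL⟩ := hloop (c w).reverse (i w) M (fun k hk => hM k (by simpa using hk))
  simp only [List.length_reverse] at hZ hL
  refine ⟨(9 * w.length + 2) + (U w + ((4 * (c w).length + 1) + ((4 * w.length + 1) +
      (V w + Z)))), ?_, ?_⟩
  · have h1 := hq1 w
    beta_reduce at h1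
    have h2 : (c w).length * p.eval M ≤ q1.eval w.length * p.eval M :=
      Nat.mul_le_mul_right _ (by omega)
    have h3 : (c w).length * (p.eval M + 2) = (c w).length * p.eval M + 2 * (c w).length := by
      ring
    have h4 : q1.eval w.length * (p.eval M + 1) = q1.eval w.length * p.eval M +
        q1.eval w.length := by ring
    omega
  · rw [← st_ini B w, ← st_ini B (s^[(c w).length] (i w))]
    have e1 := ev_cpy B w []
    have e2 := (hC w).frame_st (le_max_left _ _ : C.maxReg ≤ B) [] w.reverse []
    have e3 := ev_mv01 B (c w) [] w.reverse []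
    have e4 := ev_mv20 B [] (c w).reverse w.reverse []
    have e5 := (hI w).frame_st (le_trans (le_max_left _ _) (le_max_right _ _) : I.maxReg ≤ B)
      (c w).reverse [] []
    simp only [List.append_nil, List.reverse_reverse, List.length_reverse] at e1 e2 e3 e4 e5
    exact Ev.seq e1 (Ev.seq e2 (Ev.seq e3 (Ev.seq e4 (Ev.seq e5 hL))))

/-- PROOF. as in `PolyTime.toTM_aux` (`Crest/Agent/CHR/Compile.lean`), with
`Turing.TM2ComputableInTime` of time `fun n => (c+1) * 2 ^ (n ^ K) + (c+1)` instead of a polynomial;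
see `Crest.DTime.InDTIME`, `Crest.DTime.TimeBoundComputable`. -/
theorem InEXP_of_time {P : Prog} {p : W → Bool} {K c : ℕ}
    (h : ∀ w, ∃ t ≤ c * 2 ^ (w.length ^ K) + c, Ev P (ini w) t (ini [p w])) :
    Crest.ExpTime.InEXP {w | p w = true} := by
  choose t ht hev using h
  refine ⟨K, p, c + 1, ⟨⟨⟨Comp.tm P, Equiv.refl _, Equiv.refl _⟩,
    fun n => (c + 1) * 2 ^ (n ^ K) + (c + 1), ?_⟩, fun n => le_rfl⟩, fun x => Iff.rfl⟩
  intro w
  refine ⟨⟨t w + 1, ?_⟩, ?_⟩
  · have := Comp.outputs P (hev w)
    have e1 : List.map (Equiv.refl Bool).invFun w = w := by simp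
    have e2 : List.map (Equiv.refl Bool).invFun (Computability.encodeBool (p w)) =
        Computability.encodeBool (p w) := by simp
    exact (congrArg (fun z : List Bool => (flip bind (Comp.tm P).step)^[t w + 1]
      (some (Turing.initList (Comp.tm P) z))) e1).trans
      (this.trans (congrArg (fun z : List Bool => some (Turing.haltList (Comp.tm P) z)) e2.symm))
  · have h1 := ht w
    have h2 : t w + 1 ≤ (c + 1) * 2 ^ (w.length ^ K) + (c + 1) := by
      have h3 : c * 2 ^ (w.length ^ K) ≤ (c + 1) * 2 ^ (w.length ^ K) :=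
        Nat.mul_le_mul_right _ (Nat.le_succ c)
      omega
    exact h2

end Crest.Agent.WLX
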