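import Crest.Agent.WLX.SUDef

/-!
# Row 290: letters of the finite system in numbers

CHUNK R290-X-SUA (all lemmas of this file).
-/

set_option autoImplicit false

namespace Crest.Agent.WLX.SU

open Crest.Agent.WLH Crest.Agent.WLM Crest.Agent.WL

theorem cl_eq (T : Tab) (κ p x : ℕ) : WLH.cl T κ p x = clS (fldT T) T.length κ p x := by
  unfold WLH.cl clS
  rfl

theorem clok_iff (T : Tab) (κ p x : ℕ) : WLH.clok T κ p x ↔ clokN (fldT T) κ p x := Iff.rfl

theorem sua_mod {n x : ℕ} (y : ℕ) (h : x < n) : (x + n * y) % n = x := by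
  rw [Nat.add_mul_mod_self_left, Nat.mod_eq_of_lt h]

theorem sua_div {n x : ℕ} (y : ℕ) (h : x < n) : (x + n * y) / n = y := by
  rw [Nat.add_mul_div_left _ _ (by omega), Nat.div_eq_of_lt h, zero_add]

/-- PROOF. division with remainder, repeatedly (`Nat.add_mul_div_left`, `Nat.add_mul_mod_self_left`). -/
theorem gnum_dec {L N b : ℕ} (κ : Fin 14) (p x : Fin (L + 6)) (j : Fin N) (h : Fin 9)
    (t t' s u : Fin (b + 1)) :
    gu b (gnum (.g κ p x j h t t' s u : GLet L N b)) = u ∧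
    gs b (gnum (.g κ p x j h t t' s u : GLet L N b)) = s ∧
    gt' b (gnum (.g κ p x j h t t' s u : GLet L N b)) = t' ∧
    gt b (gnum (.g κ p x j h t t' s u : GLet L N b)) = t ∧
    gh b (gnum (.g κ p x j h t t' s u : GLet L N b)) = h ∧
    gj N b (gnum (.g κ p x j h t t' s u : GLet L N b)) = j ∧
    gx L N b (gnum (.g κ p x j h t t' s u : GLet L N b)) = x ∧
    gp L N b (gnum (.g κ p x j h t t' s u : GLet L N b)) = p ∧
    gκ L N b (gnum (.g κ p x j h t t' s u : GLet L N b)) = κ ∧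
    gnum (.g κ p x j h t t' s u : GLet L N b) < bG L N b := by
  refine ⟨?_, ?_, ?_, ?_, ?_, ?_, ?_, ?_, ?_, ?_⟩
  · simp only [gu, gnum, sua_mod _ u.isLt]
  · simp only [gs, gnum, sua_div _ u.isLt, sua_mod _ s.isLt]
  · simp only [gt', gnum, sua_div _ u.isLt, sua_div _ s.isLt, sua_mod _ t'.isLt]
  · simp only [gt, gnum, sua_div _ u.isLt, sua_div _ s.isLt, sua_div _ t'.isLt, sua_mod _ t.isLt]
  · simp only [gh, gq, gnum, sua_div _ u.isLt, sua_div _ s.isLt, sua_div _ t'.isLt,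
      sua_div _ t.isLt, sua_mod _ h.isLt]
  · simp only [gj, gq, gnum, sua_div _ u.isLt, sua_div _ s.isLt, sua_div _ t'.isLt,
      sua_div _ t.isLt, sua_div _ h.isLt, sua_mod _ j.isLt]
  · simp only [gx, gq, gnum, sua_div _ u.isLt, sua_div _ s.isLt, sua_div _ t'.isLt,
      sua_div _ t.isLt, sua_div _ h.isLt, sua_div _ j.isLt, sua_mod _ x.isLt]
  · simp only [gp, gq, gnum, sua_div _ u.isLt, sua_div _ s.isLt, sua_div _ t'.isLt,
      sua_div _ t.isLt, sua_div _ h.isLt, sua_div _ j.isLt, sua_div _ x.isLt, sua_mod _ p.isLt]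
  · simp only [gκ, gq, gnum, sua_div _ u.isLt, sua_div _ s.isLt, sua_div _ t'.isLt,
      sua_div _ t.isLt, sua_div _ h.isLt, sua_div _ j.isLt, sua_div _ x.isLt, sua_div _ p.isLt]
  · exact ((pE (pE (pE (pE (pE (pE (pE (pE (Equiv.refl (Fin 14)) (L + 6)) (L + 6)) N)
      9) (b + 1)) (b + 1)) (b + 1)) (b + 1)) ((((((((κ, p), x), j), h), t), t'), s), u)).isLt

theorem gq_eq {L N b : ℕ} (κ : Fin 14) (p x : Fin (L + 6)) (j : Fin N) (h : Fin 9)
    (t t' s u : Fin (b + 1)) :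
    gq b (gnum (.g κ p x j h t t' s u : GLet L N b)) =
      h + 9 * (j + N * (x + (L + 6) * (p + (L + 6) * κ))) := by
  simp only [gq, gnum, sua_div _ u.isLt, sua_div _ s.isLt, sua_div _ t'.isLt,
      sua_div _ t.isLt]

theorem roleN_eq (h : Fin 9) (i : Fin 3) : roleN h i = role h i := by
  revert h i
  decide

theorem olN_eq {L N b : ℕ} (h i : Fin 3) : olN L N b h i = vnum (ol h i : VLet L N b) := by
  fin_cases h <;> fin_cases i <;> simp [olN, ol, vnum]

theorem sua_seld {b : ℕ} (k : ℕ) (t t' s u : Fin (b + 1)) :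
    seldN k t t' s u = (seld k t t' s u).val := by
  unfold seldN seld
  split_ifs <;> rfl

theorem sua_fl {L N b : ℕ} (k i a c : ℕ) (t t' s u : Fin (b + 1)) :
    flN L b k i a c t t' s u = vnum (fl k i a c t t' s u : VLet L N b) := by
  simp only [flN, fl, vnum, sua_seld, Fin.val_ofNat]

theorem sua_rl (T : Tab) {N b : ℕ} (ρ : Fin 7) (κ : Fin 14) (p x : Fin (T.length + 6)) (j : Fin N)
    (t t' s u : Fin (b + 1)) :
    rlN (fldT T) T.length N b ρ κ p x j t t' s u = vnum (rl T ρ κ p x j t t' s u) := by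
  fin_cases ρ
  · simp only [rlN, rl, ← cl_eq]
    exact sua_fl _ _ _ _ t t' s u
  · simp only [rlN, rl, ← cl_eq]
    exact sua_fl _ _ _ _ t t' s u
  · simp only [rlN, rl, ← cl_eq]
    exact sua_fl _ _ _ _ t t' s u
  · rfl
  · rfl
  · rfl
  · rfl

/-- PROOF. `cl_eq`, `gnum_dec`, `roleN_eq`, `olN_eq`. -/
theorem prjN_eq (T : Tab) {N b : ℕ} (i : Fin 3) (a : GLet T.length N b) :
    prjN (fldT T) T.length N b i (gnum a) = vnum (prj T i a) := by
  rcases a with ⟨κ, p, x, j, h, t, t', s, u⟩ | ⟨h⟩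
  · obtain ⟨h1, h2, h3, h4, h5, h6, h7, h8, h9, h10⟩ := gnum_dec κ p x j h t t' s u
    unfold prjN
    rw [if_pos h10, h1, h2, h3, h4, h5, h6, h7, h8, h9, roleN_eq]
    exact sua_rl T _ κ p x j t t' s u
  · unfold prjN
    have e : gnum (.o h : GLet T.length N b) = bG T.length N b + h := rfl
    rw [e, if_neg (by omega), Nat.add_sub_cancel_left]
    exact olN_eq h i

end Crest.Agent.WLX.SU
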