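import Crest.Agent.WLX.SUA

/-!
# Row 290: closed names, allowed label pairs, odd gate in numbers

CHUNK R290-X-SUB (all lemmas of this file; the lemmas of `SUA.lean` may be used as black boxes).
-/

set_option autoImplicit false

namespace Crest.Agent.WLX.SU

open Crest.Agent.WLH Crest.Agent.WLM Crest.Agent.WL

private theorem subDigLt {r n a m : ℕ} (hr : r < n) (ha : a < m) : r + n * a < m * n := by
  have h1 : n * a + n ≤ n * m := by
    have := Nat.mul_le_mul_left n (Nat.succ_le_of_lt ha)
    rwa [Nat.mul_succ] at this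
  rw [Nat.mul_comm m n]
  omega

private theorem subDivDig {r n a : ℕ} (hr : r < n) : (r + n * a) / n = a := by
  rw [Nat.add_mul_div_left _ _ (by omega : 0 < n), Nat.div_eq_of_lt hr, Nat.zero_add]

theorem closed_iff {L N b : ℕ} (i : Fin 3) (v : VLet L N b) :
    closedVN L N b i (vnum v) ↔ closedN i (vname v) := by
  have hone : ∀ w : VLet L N b, vnum w = bV L b + cV L N b → w = .one := fun w hw =>
    vnum_inj (hw.trans rfl)
  rcases v with ⟨k, i', x, y⟩ | ⟨κ, p, x, j, h, t, t', s, u⟩ | _ | _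
  · have hlt : vnum (.fact k i' x y : VLet L N b) < bV L b := by
      unfold bV vnum
      exact subDigLt y.isLt (subDigLt x.isLt (subDigLt i'.isLt k.isLt))
    have hne : vnum (.fact k i' x y : VLet L N b) ≠ bV L b + cV L N b := by
      intro hc; have := hone _ hc; cases this
    have hk : vnum (.fact k i' x y : VLet L N b) / (b + 1) / (b + 1) / (L + 6) = k := by
      unfold vnum
      rw [subDivDig y.isLt, subDivDig x.isLt, subDivDig i'.isLt]
    unfold closedVN
    rw [hk]
    simp only [vname, closedN]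
    constructor
    · rintro (⟨_, h1, h2⟩ | h1)
      · exact ⟨Fin.ext h2, Fin.ext h1⟩
      · exact absurd h1 hne
    · rintro ⟨h1, h2⟩
      exact Or.inl ⟨hlt, by rw [h2]; rfl, by rw [h1]; rfl⟩
  · have hne : vnum (.fresh κ p x j h t t' s u : VLet L N b) ≠ bV L b + cV L N b := by
      intro hc; have := hone _ hc; cases this
    have hge : bV L b ≤ vnum (.fresh κ p x j h t t' s u : VLet L N b) := Nat.le_add_right _ _
    constructor
    · rintro (⟨h1, -⟩ | h1)
      · exact absurd h1 (Nat.not_lt.2 hge)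
      · exact absurd h1 hne
    · intro hf; exact hf.elim
  · constructor
    · intro _; exact (rfl : true = true)
    · intro _; exact Or.inr rfl
  · constructor
    · rintro (⟨h1, -⟩ | h1)
      · exact absurd h1 (Nat.not_lt.2 (Nat.le_add_right _ _))
      · exact absurd (hone _ h1) (by simp)
    · intro hf; exact absurd (show false = true from hf) (by simp)

theorem okNN_iff (T : Tab) {N b : ℕ} (m : ℕ) (a : GLet T.length N b) :
    okNN (fldT T) T.length N b m (gnum a) ↔ okN T m a := by
  rcases a with ⟨κ, p, x, j, h, t, t', s, u⟩ | ⟨h⟩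
  · obtain ⟨-, -, h3, h4, -, h6, h7, h8, h9, h10⟩ := gnum_dec (L := T.length) κ p x j h t t' s u
    unfold okNN
    rw [h3, h4, h6, h7, h8, h9, ← clok_iff]
    simp only [okN]
    constructor
    · rintro (h | h)
      · omega
      · exact h
    · exact Or.inr
  · unfold okNN
    simp only [okN, gnum, iff_true]
    exact Or.inl (Nat.le_add_right _ _)

theorem gnN_iff {L N b : ℕ} (a a' : GLet L N b) :
    ((gnum a < bG L N b ∧ gnum a' < bG L N b ∧ gq b (gnum a) = gq b (gnum a')) ∨
      (bG L N b ≤ gnum a ∧ gnum a = gnum a')) ↔ gn a = gn a' := by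
  rcases a with ⟨κ, p, x, j, h, t, t', s, u⟩ | ⟨h⟩ <;>
    rcases a' with ⟨κ₁, p₁, x₁, j₁, h₁, t₁, t₁', s₁, u₁⟩ | ⟨h₁⟩
  · obtain ⟨-, -, -, -, a5, a6, a7, a8, a9, a10⟩ := gnum_dec (L := L) κ p x j h t t' s u
    obtain ⟨-, -, -, -, b5, b6, b7, b8, b9, b10⟩ := gnum_dec (L := L) κ₁ p₁ x₁ j₁ h₁ t₁ t₁' s₁ u₁
    simp only [gn]
    constructor
    · rintro (⟨-, -, hq⟩ | ⟨hc, -⟩)
      · have e5 : h = h₁ := Fin.ext (by rw [← a5, ← b5]; unfold gh; rw [hq])
        have e6 : j = j₁ := Fin.ext (by rw [← a6, ← b6]; unfold gj; rw [hq])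
        have e7 : x = x₁ := Fin.ext (by rw [← a7, ← b7]; unfold gx; rw [hq])
        have e8 : p = p₁ := Fin.ext (by rw [← a8, ← b8]; unfold gp; rw [hq])
        have e9 : κ = κ₁ := Fin.ext (by rw [← a9, ← b9]; unfold gκ; rw [hq])
        rw [e5, e6, e7, e8, e9]
      · omega
    · intro he
      simp only [Sum.inl.injEq, Prod.mk.injEq] at he
      obtain ⟨rfl, rfl, rfl, rfl, rfl⟩ := he
      exact Or.inl ⟨a10, b10, by rw [gq_eq, gq_eq]⟩
  · obtain ⟨-, -, -, -, a5, a6, a7, a8, a9, a10⟩ := gnum_dec (L := L) κ p x j h t t' s u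
    simp only [gn]
    constructor
    · rintro (⟨-, hc, -⟩ | ⟨hc, -⟩)
      · exact absurd hc (by simp only [gnum]; omega)
      · omega
    · intro he; cases he
  · obtain ⟨-, -, -, -, b5, b6, b7, b8, b9, b10⟩ := gnum_dec (L := L) κ₁ p₁ x₁ j₁ h₁ t₁ t₁' s₁ u₁
    simp only [gn]
    constructor
    · rintro (⟨hc, -⟩ | ⟨-, hc⟩)
      · exact absurd hc (by simp only [gnum]; omega)
      · exact absurd (gnum_inj hc) (by simp)
    · intro he; cases he
  · simp only [gn]
    constructor
    · rintro (⟨hc, -⟩ | ⟨-, hc⟩)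
      · exact absurd hc (by simp only [gnum]; omega)
      · have := gnum_inj hc
        simpa using this
    · intro he
      simp only [Sum.inr.injEq] at he
      subst he
      exact Or.inr ⟨by simp only [gnum]; omega, rfl⟩

/-- PROOF. two proper letters have the same name iff `gq` agrees (`gq_eq`, uniqueness of the
digits from `gnum_dec`); `clok_iff`. -/
theorem okRow_iff (T : Tab) {N b : ℕ} (m : ℕ) (a a' : GLet T.length N b) :
    okRowN (fldT T) T.length N b m (gnum a) (gnum a') ↔ okRow T m a a' := by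
  have hinj : gnum a = gnum a' ↔ a = a' := ⟨gnum_inj, fun h => by rw [h]⟩
  unfold okRowN okRow
  rw [gnN_iff, okNN_iff, okNN_iff, hinj]

theorem odd_iff {L N b : ℕ} (a : GLet L N b) : gnum a = bG L N b + 2 ↔ oddN (gn a) := by
  rcases a with ⟨κ, p, x, j, h, t, t', s, u⟩ | ⟨h⟩
  · obtain ⟨-, -, -, -, -, -, -, -, -, h10⟩ := gnum_dec (L := L) κ p x j h t t' s u
    simp only [gn, oddN, iff_false]
    omega
  · simp only [gn, oddN, gnum]
    constructor
    · intro hh; exact Fin.ext (by omega)
    · intro hh; rw [hh]; rfl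

end Crest.Agent.WLX.SU
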