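import Crest.Agent.WLX.SUB

/-!
# Row 290: checks, bits, slots in numbers

CHUNK R290-X-SUC (all lemmas of this file; the lemmas of `SUA.lean`, `SUB.lean` may be used as black boxes).
-/

set_option autoImplicit false

namespace Crest.Agent.WLX.SU

open Crest.Agent.WLH Crest.Agent.WLM Crest.Agent.WL

private theorem add_mul_mod' {r n : ℕ} (q : ℕ) (h : r < n) : (r + n * q) % n = r := by
  rw [Nat.add_mul_mod_self_left, Nat.mod_eq_of_lt h]

private theorem add_mul_div' {r n : ℕ} (q : ℕ) (h : r < n) : (r + n * q) / n = q := by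
  rw [Nat.add_mul_div_left _ _ (by omega), Nat.div_eq_of_lt h, Nat.zero_add]

private theorem eBC_val {L N b : ℕ} (x : Cl' N) (m : Fin (N + 1)) (a a' : GLet L N b) :
    (eBC L N b (((x, m), a), a')).val =
      gnum a' + nG L N b * (gnum a + nG L N b * (m.val + (N + 1) * (eCol N x).val)) := by
  rw [← eG_val, ← eG_val]
  rfl

theorem dec_check {L N b : ℕ} (x : Cl' N) (m : Fin (N + 1)) (a a' : GLet L N b) :
    cc L N b (eBC L N b (((x, m), a), a')).val = (eCol N x).val ∧
    cm L N b (eBC L N b (((x, m), a), a')).val = m ∧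
    ca L N b (eBC L N b (((x, m), a), a')).val = gnum a ∧
    ca' L N b (eBC L N b (((x, m), a), a')).val = gnum a' := by
  have h1 := gnum_lt a
  have h2 := gnum_lt a'
  have h3 := m.isLt
  rw [eBC_val]
  unfold cc cm ca ca'
  rw [add_mul_div' _ h2, add_mul_div' _ h1, add_mul_div' _ h3, add_mul_mod' _ h1,
    add_mul_mod' _ h2, add_mul_mod' _ h3]
  exact ⟨rfl, rfl, rfl, rfl⟩

/-- numbers of the bits -/
theorem eBE_h {L N b : ℕ} (i : Fin 3) (j : Fin (N + 3)) (m : Fin (N + 1)) (a a' : GLet L N b) :
    (eBE L N b (Sum.inl ((((i, j), m), a), a'))).val = hN L N b i j m (gnum a) (gnum a') := by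
  rw [← eG_val, ← eG_val]
  rfl

theorem eBE_o {L N b : ℕ} (i : Fin 3) (m : Fin (N + 1)) (v v' : VLet L N b) :
    (eBE L N b (Sum.inr (Sum.inl (((i, m), v), v')))).val = oN L N b i m (vnum v) (vnum v') := by
  rw [← eV_val, ← eV_val]
  rfl

theorem eBE_v {L N b : ℕ} (x : Cl' N) (k : Fin N) (a : GLet L N b) :
    (eBE L N b (Sum.inr (Sum.inr ((x, k), a)))).val = vN L N b (eCol N x).val k (gnum a) := by
  rw [← eG_val]
  rfl

/-- number of a slot -/
private def osl {L N b : ℕ} : Option (BE L N b) → ℕ
  | none => 0
  | some e => (eBE L N b e).val + 1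

private theorem slotV_3 (ac : ℕ → ℕ → ℕ) (L N b col m a a' : ℕ) :
    slotV ac L N b col m a a' 3 = if 0 < m then vN L N b col (m - 1) a + 1 else 0 := rfl

private theorem slotV_4 (ac : ℕ → ℕ → ℕ) (L N b col m a a' : ℕ) :
    slotV ac L N b col m a a' 4 = if m < N then vN L N b col m a' + 1 else 0 := rfl

private theorem slotV_col {ac : ℕ → ℕ → ℕ} {L N b m a a' : ℕ} (s : ℕ) (h3 : s ≠ 3) (h4 : s ≠ 4) :
    slotV ac L N b 0 m a a' s =
      hN L N b (if s = 0 then 0 else if s = 1 then 1 else 2) 0 m a a' + 1 := by
  unfold slotV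
  rw [if_neg h3, if_neg h4, if_pos rfl]

private theorem slotV_0 {ac : ℕ → ℕ → ℕ} {L N b m a a' col : ℕ} (h : col ≠ 0) :
    slotV ac L N b col m a a' 0 =
      hN L N b ((col - 1) / (N + 3)) ((col - 1) % (N + 3)) m a a' + 1 := by
  unfold slotV
  rw [if_neg (by omega), if_neg (by omega), if_neg h, if_pos rfl]

private theorem slotV_1 {ac : ℕ → ℕ → ℕ} {L N b m a a' col : ℕ} (h : col ≠ 0) :
    slotV ac L N b col m a a' 1 =
      (if (col - 1) % (N + 3) + 1 < N + 3 then
        hN L N b ((col - 1) / (N + 3)) ((col - 1) % (N + 3) + 1) m a a' + 1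
      else if closedVN L N b ((col - 1) / (N + 3)) (prjN ac L N b ((col - 1) / (N + 3)) a) then 0
      else oN L N b ((col - 1) / (N + 3)) m (prjN ac L N b ((col - 1) / (N + 3)) a)
        (prjN ac L N b ((col - 1) / (N + 3)) a') + 1) := by
  unfold slotV
  rw [if_neg (by omega), if_neg (by omega), if_neg h, if_neg (by omega), if_pos rfl]

private theorem slotV_2 {ac : ℕ → ℕ → ℕ} {L N b m a a' col : ℕ} (h : col ≠ 0) :
    slotV ac L N b col m a a' 2 = 0 := by
  unfold slotV
  rw [if_neg (by omega), if_neg (by omega), if_neg h, if_neg (by omega), if_neg (by omega)]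

private theorem slotV_eq (T : Tab) {N b : ℕ} (x : Cl' N) (m : Fin (N + 1))
    (a a' : GLet T.length N b) (s : Fin 5) :
    slotV (fldT T) T.length N b (eCol N x).val m.val (gnum a) (gnum a') s.val =
      osl (bslot T N b (((x, m), a), a') s) := by
  have hm := m.isLt
  by_cases hs3 : s = 3
  · subst hs3
    rw [bslot3]
    refine (slotV_3 _ _ _ _ _ _ _ _).trans ?_
    by_cases h : 0 < m.val
    · rw [if_pos h, dif_pos h]
      show _ = (eBE _ _ _ _).val + 1
      rw [eBE_v]
    · rw [if_neg h, dif_neg h]
      rfl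
  · by_cases hs4 : s = 4
    · subst hs4
      rw [bslot4]
      refine (slotV_4 _ _ _ _ _ _ _ _).trans ?_
      by_cases h : m.val < N
      · rw [if_pos h, dif_pos h]
        show _ = (eBE _ _ _ _).val + 1
        rw [eBE_v]
      · rw [if_neg h, dif_neg h]
        rfl
    · rcases x with _ | ⟨i, j⟩
      · rw [eCol_none]
        have h3 : s.val ≠ 3 := fun h => hs3 (Fin.ext h)
        have h4 : s.val ≠ 4 := fun h => hs4 (Fin.ext h)
        rw [slotV_col s.val h3 h4]
        have hlt := s.isLt
        have hb : bslot T N b (((none, m), a), a') s =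
            some (Sum.inl ((((if s = 0 then 0 else if s = 1 then 1 else 2, ⟨0, by omega⟩), m), a),
              a')) := by
          show (if s = 3 then _ else if s = 4 then _ else _) = _
          rw [if_neg hs3, if_neg hs4]
        rw [hb]
        show _ = (eBE _ _ _ _).val + 1
        rw [eBE_h]
        have hi : ((if s = 0 then 0 else if s = 1 then 1 else 2 : Fin 3)).val =
            (if s.val = 0 then 0 else if s.val = 1 then 1 else 2) := by
          fin_cases s <;> rfl
        rw [hi]
      · have hcol : (eCol N (some (i, j))).val = (j : ℕ) + (N + 3) * i + 1 := eCol_some N i j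
        have h0 : (eCol N (some (i, j))).val ≠ 0 := by omega
        have hd : ((eCol N (some (i, j))).val - 1) / (N + 3) = i := by
          rw [hcol, Nat.add_sub_cancel, add_mul_div' _ j.isLt]
        have hmod : ((eCol N (some (i, j))).val - 1) % (N + 3) = j := by
          rw [hcol, Nat.add_sub_cancel, add_mul_mod' _ j.isLt]
        have hlt := s.isLt
        have hs : s.val = 0 ∨ s.val = 1 ∨ s.val = 2 := by
          have h3 : s.val ≠ 3 := fun h => hs3 (Fin.ext h)
          have h4 : s.val ≠ 4 := fun h => hs4 (Fin.ext h)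
          omega
        rcases hs with hs | hs | hs
        · have hs' : s = 0 := Fin.ext hs
          subst hs'
          refine (slotV_0 h0).trans ?_
          rw [hd, hmod]
          show _ = (eBE _ _ _ (Sum.inl ((((i, j), m), a), a'))).val + 1
          rw [eBE_h]
        · have hs' : s = 1 := Fin.ext hs
          subst hs'
          rw [bslot1]
          refine (slotV_1 h0).trans ?_
          rw [hd, hmod]
          by_cases h1 : j.val + 1 < N + 3
          · rw [if_pos h1, dif_pos h1]
            show _ = (eBE _ _ _ _).val + 1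
            rw [eBE_h]
          · rw [if_neg h1, dif_neg h1, prjN_eq, prjN_eq]
            by_cases h2 : closedN i (vname (prj T i a))
            · rw [if_pos h2, if_pos ((closed_iff i (prj T i a)).2 h2)]
              rfl
            · rw [if_neg h2, if_neg (fun h => h2 ((closed_iff i (prj T i a)).1 h))]
              show _ = (eBE _ _ _ _).val + 1
              rw [eBE_o]
        · have hs' : s = 2 := Fin.ext hs
          subst hs'
          refine (slotV_2 h0).trans ?_
          rfl

/-- PROOF. `slotV` computes the number of `bslot`: prove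
`slotV .. (eCol N x).val m (gnum a) (gnum a') s = match bslot T N b (((x, m), a), a') s with
| none => 0 | some e => (eBE .. e).val + 1` (`eBE_h`, `eBE_o`, `eBE_v`, `prjN_eq`, `closed_iff`, `eCol_none`,
`eCol_some`), then injectivity of `eBE`. -/
theorem slot_iff (T : Tab) {N b : ℕ} (c : BC T.length N b) (s : Fin 5) (e : BE T.length N b) :
    SLN (fldT T) T.length N b (eBC T.length N b c).val s (eBE T.length N b e).val ↔
      bslot T N b c s = some e := by
  obtain ⟨⟨⟨x, m⟩, a⟩, a'⟩ := c
  obtain ⟨h1, h2, h3, h4⟩ := dec_check (L := T.length) (b := b) x m a a'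
  unfold SLN slotN
  rw [h1, h2, h3, h4, slotV_eq]
  rcases hb : bslot T N b (((x, m), a), a') s with _ | e'
  · constructor
    · intro h
      exact absurd h (Nat.succ_ne_zero _).symm
    · intro h
      cases h
  · constructor
    · intro h
      have h5 : (eBE T.length N b e').val + 1 = (eBE T.length N b e).val + 1 := h
      have h6 : e' = e := (eBE T.length N b).injective (Fin.ext (by omega))
      rw [h6]
    · intro h
      have h6 : e' = e := Option.some.inj h
      rw [h6]
      rfl

end Crest.Agent.WLX.SU
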