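import Crest.Agent.WLH.FinSys
import Crest.Agent.WLX.Glue

/-!
# Row 290: the finite system `bsys T N b` in numbers (definitions)

`ac f p` = field `f` of the instruction `p` (`f = 0..5`: kd, rg, bt, l0, l1, l2), `L` = length of the table.
Gate letters are numbers `a < nG L N b` (`gnum`), variable letters `v < nV L N b` (`vnum`), checks `c`
(`eBC`), bits `e` (`eBE`).
-/

set_option autoImplicit false

namespace Crest.Agent.WLX.SU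

open Crest.Agent.WLH Crest.Agent.WLM Crest.Agent.WL

def clokN (ac : ℕ → ℕ → ℕ) (κ p x : ℕ) : Prop :=
  κ = 0 ∨ κ = 1 ∨ (κ = 2 ∧ ac 0 p = 1) ∨ (κ = 3 ∧ ac 0 p = 1) ∨
  (κ = 4 ∧ 1 ≤ ac 0 p ∧ x ≠ ac 1 p) ∨ (κ = 5 ∧ 1 ≤ ac 0 p ∧ x ≠ ac 1 p) ∨
  (κ = 6 ∧ ac 0 p = 2) ∨ (κ = 7 ∧ ac 0 p = 2) ∨ (κ = 8 ∧ ac 0 p = 2) ∨
  (κ = 9 ∧ ac 0 p = 2 ∧ ac 0 x = 1) ∨ (κ = 10 ∧ ac 0 p = 2) ∨ (κ = 11 ∧ ac 0 p = 2) ∨
  κ = 12 ∨ (κ = 13 ∧ p < 6)

/-- the clause `(κ, p, x)` -/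
def clS (ac : ℕ → ℕ → ℕ) (L κ p x : ℕ) : Cl :=
  if κ = 0 then ⟨0, 0, 0, 0, 0, 0, 0, 0, 2, 0, 0, 0⟩
  else if κ = 1 then ⟨0, 0, 0, 0, 0, 0, 0, 0, 4, x, 0, 0⟩
  else if κ = 2 then ⟨2, p, 1, 0, 2, p, 1, 0, 2, ac 3 p, 4, 0⟩
  else if κ = 3 then ⟨2, p, 1, 0, 2, p, 1, 0, 3, ac 1 p, 4, 1⟩
  else if κ = 4 then ⟨2, p, 1, 0, 3, x, 1, 2, 3, x, 4, 2⟩
  else if κ = 5 then ⟨2, p, 1, 0, 4, x, 1, 0, 4, x, 4, 0⟩
  else if κ = 6 then ⟨2, p, 1, 0, 4, ac 1 p, 1, 0, 2, ac 3 p, 4, 0⟩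
  else if κ = 7 then ⟨2, p, 1, 0, 4, ac 1 p, 1, 0, 4, ac 1 p, 4, 0⟩
  else if κ = 8 then ⟨2, p, 1, 0, 3, ac 1 p, 1, 2, 5, p, 1, 2⟩
  else if κ = 9 then ⟨5, p, 1, 2, 2, x, 2, 0, 2, if ac 2 x = 1 then ac 5 p else ac 4 p, 4, 0⟩
  else if κ = 10 then ⟨5, p, 1, 2, 3, ac 1 p, 2, 3, 3, ac 1 p, 4, 3⟩
  else if κ = 11 then ⟨5, p, 1, 2, 4, ac 1 p, 2, 0, 4, ac 1 p, 4, 0⟩
  else if κ = 12 then ⟨2, L, 1, 0, 2, L, 1, 0, 1, 0, 0, 0⟩
  else ⟨1, 0, 0, 0, 1, 0, 0, 0, p, x, 2, 3⟩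

def seldN (k t t' s u : ℕ) : ℕ :=
  if k = 0 then 0 else if k = 1 then t else if k = 2 then s else if k = 3 then u else t'

/-- number of `fl k i a c t t' s u` -/
def flN (L b k i a c t t' s u : ℕ) : ℕ :=
  seldN c t t' s u + (b + 1) * (seldN a t t' s u + (b + 1) * (i % (L + 6) + (L + 6) * (k % 6)))

/-- number of `fresh κ p x j h t t' s u` -/
def freshN (L N b κ p x j h t t' s u : ℕ) : ℕ :=
  bV L b + (u + (b + 1) * (s + (b + 1) * (t' + (b + 1) * (t + (b + 1) * (h + 3 * (j + N * (x +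
      (L + 6) * (p + (L + 6) * κ))))))))

def roleN (h i : ℕ) : ℕ :=
  ([0, 3, 6, 0, 6, 3, 3, 3, 3, 1, 4, 6, 1, 6, 4, 4, 4, 4, 3, 5, 6, 4, 6, 5, 2, 5, 5] :
    List ℕ).getD (3 * h + i) 6

def rlN (ac : ℕ → ℕ → ℕ) (L N b ρ κ p x j t t' s u : ℕ) : ℕ :=
  if ρ = 0 then flN L b (clS ac L κ p x).Xk (clS ac L κ p x).Xi (clS ac L κ p x).x1
    (clS ac L κ p x).x2 t t' s u
  else if ρ = 1 then flN L b (clS ac L κ p x).Yk (clS ac L κ p x).Yi (clS ac L κ p x).y1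
    (clS ac L κ p x).y2 t t' s u
  else if ρ = 2 then flN L b (clS ac L κ p x).Zk (clS ac L κ p x).Zi (clS ac L κ p x).z1
    (clS ac L κ p x).z2 t t' s u
  else if ρ = 3 then freshN L N b κ p x j 0 t t' s u
  else if ρ = 4 then freshN L N b κ p x j 1 t t' s u
  else if ρ = 5 then freshN L N b κ p x j 2 t t' s u
  else bV L b + cV L N b

def olN (L N b h i : ℕ) : ℕ :=
  if ([0, 1, 2, 0, 2, 1, 2, 1, 1] : List ℕ).getD (3 * h + i) 0 = 0 then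
    (b + 1) * ((b + 1) * (L + 6))
  else if ([0, 1, 2, 0, 2, 1, 2, 1, 1] : List ℕ).getD (3 * h + i) 0 = 1 then
    bV L b + (cV L N b + 1)
  else bV L b + cV L N b

/-! decoding of gate letters -/

def gu (b a : ℕ) : ℕ := a % (b + 1)
def gs (b a : ℕ) : ℕ := a / (b + 1) % (b + 1)
def gt' (b a : ℕ) : ℕ := a / (b + 1) / (b + 1) % (b + 1)
def gt (b a : ℕ) : ℕ := a / (b + 1) / (b + 1) / (b + 1) % (b + 1)
/-- number of the name -/
def gq (b a : ℕ) : ℕ := a / (b + 1) / (b + 1) / (b + 1) / (b + 1)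
def gh (b a : ℕ) : ℕ := gq b a % 9
def gj (N b a : ℕ) : ℕ := gq b a / 9 % N
def gx (L N b a : ℕ) : ℕ := gq b a / 9 / N % (L + 6)
def gp (L N b a : ℕ) : ℕ := gq b a / 9 / N / (L + 6) % (L + 6)
def gκ (L N b a : ℕ) : ℕ := gq b a / 9 / N / (L + 6) / (L + 6)

/-- number of `prj T i a` -/
def prjN (ac : ℕ → ℕ → ℕ) (L N b i a : ℕ) : ℕ :=
  if a < bG L N b then
    rlN ac L N b (roleN (gh b a) i) (gκ L N b a) (gp L N b a) (gx L N b a) (gj N b a) (gt b a)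
      (gt' b a) (gs b a) (gu b a)
  else olN L N b (a - bG L N b) i

/-- the name of the variable letter number `v` is closed on page `i` -/
def closedVN (L N b i v : ℕ) : Prop :=
  (v < bV L b ∧ i = 0 ∧ v / (b + 1) / (b + 1) / (L + 6) = 0) ∨ v = bV L b + cV L N b

instance (L N b i v : ℕ) : Decidable (closedVN L N b i v) := by unfold closedVN; infer_instance

def okNN (ac : ℕ → ℕ → ℕ) (L N b m a : ℕ) : Prop :=
  bG L N b ≤ a ∨
    (clokN ac (gκ L N b a) (gp L N b a) (gx L N b a) ∧ sok b (gj N b a) m (gt b a) (gt' b a))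

def okRowN (ac : ℕ → ℕ → ℕ) (L N b m a a' : ℕ) : Prop :=
  ((a < bG L N b ∧ a' < bG L N b ∧ gq b a = gq b a') ∨ (bG L N b ≤ a ∧ a = a')) ∧
  okNN ac L N b (m - 1) a ∧ okNN ac L N b (min m (N - 1)) a' ∧ (m = 0 → a = a') ∧ (m = N → a = a')

/-! decoding of checks -/

def ca' (L N b c : ℕ) : ℕ := c % nG L N b
def ca (L N b c : ℕ) : ℕ := c / nG L N b % nG L N b
def cm (L N b c : ℕ) : ℕ := c / nG L N b / nG L N b % (N + 1)
def cc (L N b c : ℕ) : ℕ := c / nG L N b / nG L N b / (N + 1)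

def hN (L N b i j m a a' : ℕ) : ℕ :=
  a' + nG L N b * (a + nG L N b * (m + (N + 1) * (j + (N + 3) * i)))

def oN (L N b i m v v' : ℕ) : ℕ :=
  nBH L N b + (v' + nV L N b * (v + nV L N b * (m + (N + 1) * i)))

def vN (L N b col k a : ℕ) : ℕ := nBH L N b + (nBO L N b + (a + nG L N b * (k + N * col)))

/-- slot `s` of the check: `0` = nothing, `e + 1` = the bit `e`; arguments column, row, letters -/
def slotV (ac : ℕ → ℕ → ℕ) (L N b col m a a' s : ℕ) : ℕ :=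
  if s = 3 then (if 0 < m then vN L N b col (m - 1) a + 1 else 0)
  else if s = 4 then (if m < N then vN L N b col m a' + 1 else 0)
  else if col = 0 then hN L N b (if s = 0 then 0 else if s = 1 then 1 else 2) 0 m a a' + 1
  else if s = 0 then hN L N b ((col - 1) / (N + 3)) ((col - 1) % (N + 3)) m a a' + 1
  else if s = 1 then
    (if (col - 1) % (N + 3) + 1 < N + 3 then
      hN L N b ((col - 1) / (N + 3)) ((col - 1) % (N + 3) + 1) m a a' + 1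
    else if closedVN L N b ((col - 1) / (N + 3)) (prjN ac L N b ((col - 1) / (N + 3)) a) then 0
    else oN L N b ((col - 1) / (N + 3)) m (prjN ac L N b ((col - 1) / (N + 3)) a)
      (prjN ac L N b ((col - 1) / (N + 3)) a') + 1)
  else 0



def slotN (ac : ℕ → ℕ → ℕ) (L N b c s : ℕ) : ℕ :=
  slotV ac L N b (cc L N b c) (cm L N b c) (ca L N b c) (ca' L N b c) s

def SLN (ac : ℕ → ℕ → ℕ) (L N b c s e : ℕ) : Prop := slotN ac L N b c s = e + 1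

def ALN (ac : ℕ → ℕ → ℕ) (L N b c : ℕ) : Prop :=
  okRowN ac L N b (cm L N b c) (ca L N b c) (ca' L N b c)

def TWN (L N b c : ℕ) : Prop := cc L N b c = 0 ∧ cm L N b c = 0 ∧ ca L N b c = bG L N b + 2

def nEN (L N b : ℕ) : ℕ := nBH L N b + (nBO L N b + nBV L N b)

end Crest.Agent.WLX.SU
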