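import Crest.Agent.WLX.UNCode

/-!
# Row 290, module A: generic table iteration

CHUNK R290-X-RUN (all lemmas of this file).
A relation on `{0..L-1}` is stored as a bit table of length `L * L`.
-/

set_option autoImplicit false

namespace Crest.Agent.WLX

open Crest.Agent.CHR Crest.CountHier

open Classical in
/-- table of a relation on `{0..L-1}` -/
noncomputable def mkT (L : ℕ) (R : ℕ → ℕ → Prop) : W :=
  (List.range (L * L)).map fun i => decide (R (i / L) (i % L))

/-- relation read from a table -/
def rd (L : ℕ) (T : W) (a b : ℕ) : Prop := T.getD (a * L + b) false = true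

/-- iterate an operator on relations, on tables -/
noncomputable def runT (L : ℕ) (F : (ℕ → ℕ → Prop) → ℕ → ℕ → Prop) (R0 : ℕ → ℕ → Prop) (S : ℕ) : W :=
  (fun T => mkT L (F (rd L T)))^[S] (mkT L R0)

theorem rd_mkT {L : ℕ} (R : ℕ → ℕ → Prop) {a b : ℕ} (ha : a < L) (hb : b < L) :
    rd L (mkT L R) a b ↔ R a b := by
  classical
  have hL : 0 < L := lt_of_le_of_lt (Nat.zero_le _) ha
  have hi : a * L + b < L * L := by
    calc a * L + b < a * L + L := by omega
      _ = (a + 1) * L := by ring
      _ ≤ L * L := Nat.mul_le_mul_right _ ha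
  have h1 : (a * L + b) / L = a := by
    rw [show a * L + b = b + L * a by ring, Nat.add_mul_div_left _ _ hL, Nat.div_eq_of_lt hb,
      Nat.zero_add]
  have h2 : (a * L + b) % L = b := by
    rw [show a * L + b = b + L * a by ring, Nat.add_mul_mod_self_left, Nat.mod_eq_of_lt hb]
  unfold rd mkT
  rw [List.getD_eq_getElem?_getD, List.getElem?_map, List.getElem?_range hi]
  simp [h1, h2]

theorem mkT_length (L : ℕ) (R : ℕ → ℕ → Prop) : (mkT L R).length = L * L := by simp [mkT]

/-- if the operator only looks at indices `< L` -/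
theorem rd_runT {L : ℕ} {F : (ℕ → ℕ → Prop) → ℕ → ℕ → Prop} (R0 : ℕ → ℕ → Prop)
    (hF : ∀ R R' : ℕ → ℕ → Prop, (∀ a < L, ∀ b < L, (R a b ↔ R' a b)) →
      ∀ a < L, ∀ b < L, (F R a b ↔ F R' a b)) (S : ℕ) {a b : ℕ} (ha : a < L) (hb : b < L) :
    rd L (runT L F R0 S) a b ↔ (F^[S] R0) a b := by
  induction S generalizing a b with
  | zero => exact rd_mkT R0 ha hb
  | succ S ih =>
    unfold runT at ih ⊢
    rw [Function.iterate_succ_apply', Function.iterate_succ_apply', rd_mkT _ ha hb]
    exact hF _ _ (fun a ha b hb => ih ha hb) a ha b hb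

/-- PROOF. `PT.tab` with `N = L * L`, `P w i = R w (i / L w) (i % L w)`; compose `hR` with
`z ↦ pu (pu (fstB z) (i / L)) (i % L)`, `i = (sndB z).length`. -/
theorem PT.mkT {L : W → ℕ} {R : W → ℕ → ℕ → Prop} (hL : UN L)
    (hR : UP (fun z => R (fstB (fstB z)) (sndB (fstB z)).length (sndB z).length)) :
    PolyTime (fun w => WLX.mkT (L w) (R w)) := by
  have hP : UP (fun z => R (fstB z) ((sndB z).length / L (fstB z))
      ((sndB z).length % L (fstB z))) := by
    have hd : UN (fun z => (sndB z).length / L (fstB z)) := UN.var.div hL.fst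
    have hm : UN (fun z => (sndB z).length % L (fstB z)) := UN.var.mod hL.fst
    have hg : PolyTime (fun z => pairBits (pairBits (fstB z) (un ((sndB z).length / L (fstB z))))
        (un ((sndB z).length % L (fstB z)))) := CHR.PT.pair (CHR.PT.pair CHR.PT.fst hd) hm
    refine (hR.comp hg).congr fun z => ?_
    simp
  exact PT.tab (N := fun w => L w * L w) (P := fun w i => R w (i / L w) (i % L w)) (hL.mul hL) hP

/-- reading a table -/
theorem UP.rd {L a b : W → ℕ} {T : W → W} (hL : UN L) (hT : PolyTime T) (ha : UN a) (hb : UN b) :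
    UP (fun w => WLX.rd (L w) (T w) (a w) (b w)) :=
  UP.bit hT ((ha.mul hL).add hb)

/-- MAIN.  Context of the step: `pu (pu (pairBits w T) a) b`.
PROOF. `PT.iterS` with `s z = mkT (L (fstB z)) (F (fstB z) (rd (L (fstB z)) (sndB z)))` (`PT.mkT`
in the context `z`), all iterates have length `L w * L w` (polynomially bounded by `UN.bound`). -/
theorem PT.runT {L S : W → ℕ} {F : W → (ℕ → ℕ → Prop) → ℕ → ℕ → Prop} {R0 : W → ℕ → ℕ → Prop}
    (hL : UN L) (hS : UN S)
    (hR0 : UP (fun z => R0 (fstB (fstB z)) (sndB (fstB z)).length (sndB z).length))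
    (hF : UP (fun z => F (fstB (fstB (fstB z)))
      (WLX.rd (L (fstB (fstB (fstB z)))) (sndB (fstB (fstB z))))
      (sndB (fstB z)).length (sndB z).length)) :
    PolyTime (fun w => WLX.runT (L w) (F w) (R0 w) (S w)) := by
  obtain ⟨q, hq⟩ := hL.bound
  have hs : PolyTime (fun z => WLX.mkT (L (fstB z))
      (F (fstB z) (WLX.rd (L (fstB z)) (sndB z)))) :=
    PT.mkT (L := fun z => L (fstB z))
      (R := fun z => F (fstB z) (WLX.rd (L (fstB z)) (sndB z))) hL.fst hF
  have hi : PolyTime (fun w => WLX.mkT (L w) (R0 w)) := PT.mkT hL hR0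
  have e : ∀ w, (fun T => (fun z => WLX.mkT (L (fstB z))
      (F (fstB z) (WLX.rd (L (fstB z)) (sndB z)))) (pairBits w T)) =
      fun T => WLX.mkT (L w) (F w (WLX.rd (L w) T)) := by
    intro w
    funext T
    simp only [fstB_pairBits, sndB_pairBits]
  have hlen : ∀ w k, ((fun T => WLX.mkT (L w) (F w (WLX.rd (L w) T)))^[k]
      (WLX.mkT (L w) (R0 w))).length = L w * L w := by
    intro w k
    cases k with
    | zero => exact mkT_length _ _
    | succ k => rw [Function.iterate_succ_apply', mkT_length]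
  have h := PT.iterS hs hi hS (q * q) (fun w k _ => by
    rw [e, hlen, Polynomial.eval_mul]
    exact Nat.mul_le_mul (hq w) (hq w))
  refine PT.congr h fun w => ?_
  rw [e]
  rfl

end Crest.Agent.WLX
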