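import Crest.Agent.CHR.PT
import Crest.Agent.CHR.Defs
import Crest.Prelude.Def_WL

/-!
# Row 290, module A: polynomial time with unary numbers (closure library), basic part

`UN f`: the number-valued function `f : W → ℕ` is polynomial-time computable in unary.
`UP p`: the predicate `p : W → Prop` is polynomial-time decidable.
Bound variables: `pu w i = pairBits w (1^i)`.
-/

set_option autoImplicit false

namespace Crest.Agent.WLX

open Crest.Agent.CHR Crest.CountHier

/-- unary numeral -/
def un (n : ℕ) : W := List.replicate n true

@[simp] theorem un_length (n : ℕ) : (un n).length = n := by simp [un]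

/-- context extended by a unary number -/
def pu (w : W) (i : ℕ) : W := pairBits w (un i)

@[simp] theorem fstB_pu (w : W) (i : ℕ) : fstB (pu w i) = w := by simp [pu]
@[simp] theorem sndB_pu (w : W) (i : ℕ) : sndB (pu w i) = un i := by simp [pu]
@[simp] theorem sndB_pu_length (w : W) (i : ℕ) : (sndB (pu w i)).length = i := by simp

def UN (f : W → ℕ) : Prop := PolyTime (fun w => un (f w))

open Classical in
/-- polynomial-time decidable predicate -/
def UP (p : W → Prop) : Prop := PolyTimePred (fun w => decide (p w))

theorem UN.congr {f g : W → ℕ} (hf : UN f) (h : ∀ w, f w = g w) : UN g := by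
  have : g = f := by funext w; exact (h w).symm
  rw [this]; exact hf

theorem UP.congr {p q : W → Prop} (hp : UP p) (h : ∀ w, p w ↔ q w) : UP q := by
  have : q = p := by funext w; exact propext (h w).symm
  rw [this]; exact hp

theorem UN.comp {f : W → ℕ} {g : W → W} (hf : UN f) (hg : PolyTime g) : UN (fun w => f (g w)) :=
  PT.comp (g := fun w => un (f w)) hf hg

theorem UP.comp {p : W → Prop} {g : W → W} (hp : UP p) (hg : PolyTime g) :
    UP (fun w => p (g w)) :=
  PTP.comp hp hg

theorem UN.fst {f : W → ℕ} (hf : UN f) : UN (fun z => f (fstB z)) := hf.comp PT.fst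
theorem UP.fst {p : W → Prop} (hp : UP p) : UP (fun z => p (fstB z)) := hp.comp PT.fst

/-- length of a polynomial-time computable string -/
theorem UN.len {g : W → W} (hg : PolyTime g) : UN (fun w => (g w).length) := PT.ones hg

theorem UN.var : UN (fun z => (sndB z).length) := UN.len PT.snd

theorem UN.const (c : ℕ) : UN (fun _ => c) := PT.const (un c)

theorem UN.add {f g : W → ℕ} (hf : UN f) (hg : UN g) : UN (fun w => f w + g w) := by
  have h := PT.append hf hg
  refine PT.congr h fun w => ?_
  simp [un]

theorem UN.mul {f g : W → ℕ} (hf : UN f) (hg : UN g) : UN (fun w => f w * g w) := by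
  have h := PT.mulLen hf hg
  refine PT.congr h fun w => ?_
  simp [un]

theorem UN.sub {f g : W → ℕ} (hf : UN f) (hg : UN g) : UN (fun w => f w - g w) := by
  have h := PT.drop hf hg
  refine PT.congr h fun w => ?_
  simp [un]

theorem UP.not {p : W → Prop} (hp : UP p) : UP (fun w => ¬ p w) := by
  classical
  refine PTP.congr (PTP.not hp) fun w => ?_
  by_cases h : p w <;> simp [h]

theorem UP.and {p q : W → Prop} (hp : UP p) (hq : UP q) : UP (fun w => p w ∧ q w) := by
  classical
  refine PTP.congr (PTP.and hp hq) fun w => ?_
  by_cases h : p w <;> by_cases h' : q w <;> simp [h, h']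

theorem UP.or {p q : W → Prop} (hp : UP p) (hq : UP q) : UP (fun w => p w ∨ q w) := by
  classical
  refine PTP.congr (PTP.or hp hq) fun w => ?_
  by_cases h : p w <;> by_cases h' : q w <;> simp [h, h']

theorem UP.imp {p q : W → Prop} (hp : UP p) (hq : UP q) : UP (fun w => p w → q w) :=
  (hp.not.or hq).congr fun w => by tauto

theorem UP.iff {p q : W → Prop} (hp : UP p) (hq : UP q) : UP (fun w => p w ↔ q w) :=
  ((hp.imp hq).and (hq.imp hp)).congr fun w => by tauto

theorem UP.const (c : Prop) : UP (fun _ => c) := by
  classical
  exact PTP.const (decide c)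

open Classical in
theorem UN.ite {p : W → Prop} {f g : W → ℕ} (hp : UP p) (hf : UN f) (hg : UN g) :
    UN (fun w => if p w then f w else g w) := by
  have h := PTP.ite hp hf hg
  refine PT.congr h fun w => ?_
  by_cases h : p w <;> simp [h]

open Classical in
theorem PT.iteP {p : W → Prop} {f g : W → W} (hp : UP p) (hf : PolyTime f) (hg : PolyTime g) :
    PolyTime (fun w => if p w then f w else g w) := by
  have h := PTP.ite hp hf hg
  refine PT.congr h fun w => ?_
  by_cases h : p w <;> simp [h]

theorem UP.le {f g : W → ℕ} (hf : UN f) (hg : UN g) : UP (fun w => f w ≤ g w) := by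
  classical
  have h := PTP.lenLe hf hg
  refine PTP.congr h fun w => ?_
  simp

theorem UP.lt {f g : W → ℕ} (hf : UN f) (hg : UN g) : UP (fun w => f w < g w) :=
  (UP.le hg hf).not.congr fun w => by omega

theorem UP.eqN {f g : W → ℕ} (hf : UN f) (hg : UN g) : UP (fun w => f w = g w) :=
  ((UP.le hf hg).and (UP.le hg hf)).congr fun w => by omega

/-- equality of strings -/
theorem UP.eqS {f g : W → W} (hf : PolyTime f) (hg : PolyTime g) : UP (fun w => f w = g w) := by
  classical
  have h := PTP.eq hf hg
  refine PTP.congr h fun w => ?_
  simp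

/-- `T[i] = true` -/
theorem UP.bit {T : W → W} {i : W → ℕ} (hT : PolyTime T) (hi : UN i) :
    UP (fun w => (T w).getD (i w) false = true) := by
  have h1 : PolyTime (fun w => (T w).drop (i w)) := by
    refine PT.congr (PT.drop hT hi) fun w => by simp
  have h2 : PolyTime (fun w => ((T w).drop (i w)).take 1) := by
    refine PT.congr (PT.take h1 (PT.const [true])) fun w => by simp
  refine (UP.eqS h2 (PT.const [true])).congr fun w => ?_
  generalize T w = l
  generalize i w = j
  induction l generalizing j with
  | nil => simp
  | cons a l ih =>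
    cases j with
    | zero => simp
    | succ j => simpa using ih j

theorem UN.min {f g : W → ℕ} (hf : UN f) (hg : UN g) : UN (fun w => Min.min (f w) (g w)) :=
  (UN.ite (UP.le hf hg) hf hg).congr fun w => by
    split_ifs with h
    · omega
    · omega

theorem UN.max {f g : W → ℕ} (hf : UN f) (hg : UN g) : UN (fun w => Max.max (f w) (g w)) :=
  (UN.ite (UP.le hf hg) hg hf).congr fun w => by
    split_ifs with h
    · omega
    · omega

/-- every `UN` function is polynomially bounded -/
theorem UN.bound {f : W → ℕ} (hf : UN f) : ∃ q : Polynomial ℕ, ∀ w, f w ≤ q.eval w.length := by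
  obtain ⟨q, hq⟩ := PT.lenBound (PT.comp hf PT.id)
  exact ⟨q, fun w => by simpa using hq w⟩

end Crest.Agent.WLX
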