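import Crest.Agent.WLX.UN

/-!
# Row 290, module A: table building and bounded quantifiers

CHUNK R290-X-TAB (all lemmas of this file).
-/

set_option autoImplicit false

namespace Crest.Agent.WLX

open Crest.Agent.CHR Crest.CountHier

/-- PROOF. `PT.un` with the program `mv 0 1 ;; mv 1 2 ;; mv 2 0` (three moves reverse; see
`CHR/Prog.lean` `Ev.mv`, `CHR/Comb.lean` `ev_mv01`, `ev_mv12`, `ev_mv20` with `B = 0`). -/
theorem PT.reverse {f : W → W} (hf : PolyTime f) : PolyTime (fun w => (f w).reverse) := by
  have h : PolyTime (fun x : W => x.reverse) := by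
    refine PT.un (mv 0 (0 + 1) ;; mv (0 + 1) (0 + 2) ;; mv (0 + 2) 0) 15 1 fun x => ?_
    have h1 := ev_mv01 0 x [] [] []
    have h2 := ev_mv12 0 [] x.reverse [] []
    have h3 := ev_mv20 0 [] [] x []
    simp only [List.append_nil, List.reverse_reverse, List.length_reverse] at h1 h2 h3
    exact ⟨_, by rw [pow_one]; omega, Ev.seq h1 (Ev.seq h2 h3)⟩
  exact PT.comp h hf

private theorem ev_filterLoop (x c : W) : ∃ t ≤ 4 * x.length + 1,
    Ev (.loop 0 (.case 0 .skip (.pop 0) (.pop 0 ;; .push (0 + 1) true))) (st 0 x c [] []) t
      (st 0 [] ((x.filter (fun b => b)).reverse ++ c) [] []) := by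
  induction x generalizing c with
  | nil => exact ⟨1, by simp, (Ev.loop_done (by simp)).time (by simp)⟩
  | cons a x ih =>
    have p0 := Ev.pop 0 (st 0 (a :: x) c [] [])
    simp only [st_r0, st_u0, List.tail_cons] at p0
    cases a with
    | false =>
      obtain ⟨t, ht, h⟩ := ih c
      have h2 : Ev (.case 0 .skip (.pop 0) (.pop 0 ;; .push (0 + 1) true))
          (st 0 (false :: x) c [] []) (1 + 1) (st 0 x c [] []) :=
        Ev.case_false (l := x) (by simp) p0
      have h3 := Ev.loop_step (r := 0) (by simp) h2 h
      refine ⟨_, ?_, by simpa using h3⟩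
      simp only [List.length_cons]; omega
    | true =>
      obtain ⟨t, ht, h⟩ := ih (true :: c)
      have p1 := Ev.push (0 + 1) true (st 0 x c [] [])
      simp only [st_r1, st_u1] at p1
      have h2 : Ev (.case 0 .skip (.pop 0) (.pop 0 ;; .push (0 + 1) true))
          (st 0 (true :: x) c [] []) (1 + 1 + 1) (st 0 x (true :: c) [] []) :=
        Ev.case_true (l := x) (by simp) (Ev.seq p0 p1)
      have h3 := Ev.loop_step (r := 0) (by simp) h2 h
      refine ⟨_, ?_, by simpa using h3⟩
      simp only [List.length_cons]; omega

/-- PROOF. `PT.un` with `loop 0 (case 0 skip (pop 0) (pop 0 ;; push 1 true)) ;; mv 1 0`. -/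
theorem PT.filterTrue {f : W → W} (hf : PolyTime f) :
    PolyTime (fun w => (f w).filter (fun b => b)) := by
  have h : PolyTime (fun x : W => x.filter (fun b => b)) := by
    refine PT.un (.loop 0 (.case 0 .skip (.pop 0) (.pop 0 ;; .push (0 + 1) true)) ;;
      mv (0 + 1) 0) 9 1 fun x => ?_
    obtain ⟨t, ht, h1⟩ := ev_filterLoop x []
    have h2 := ev_mv10 0 [] (x.filter (fun b => b)).reverse [] []
    simp only [List.append_nil, List.reverse_reverse, List.length_reverse] at h1 h2
    have hl : (x.filter (fun b => b)).length ≤ x.length := List.length_filter_le _ _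
    exact ⟨_, by rw [pow_one]; omega, Ev.seq h1 h2⟩
  exact PT.comp h hf

private theorem len_pairBits (x y : W) : (pairBits x y).length = 2 * x.length + 1 + y.length := by
  induction x with
  | nil => simp [pairBits]; omega
  | cons b x ih => simp_all [pairBits]; omega

open Classical in
/-- the table of a predicate.
PROOF. `PT.iter` with the state `pairBits w acc`, step
`z ↦ pairBits (fstB z) (decide (P (fstB z) (sndB z).length) :: sndB z)` (here the index of the new
entry is `acc.length`), started at `pairBits w []`, number of steps `(un (N w)).length`; then `sndB`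
and `PT.reverse`.  Length bound: `2|w| + 1 + k`. -/
theorem PT.tab {N : W → ℕ} {P : W → ℕ → Prop} (hN : UN N)
    (hP : UP (fun z => P (fstB z) (sndB z).length)) :
    PolyTime (fun w => (List.range (N w)).map (fun i => decide (P w i))) := by
  set s : W → W := fun z =>
    pairBits (fstB z) ([decide (P (fstB z) (sndB z).length)] ++ sndB z) with hsdef
  have hs : PolyTime s := PT.pair PT.fst (PT.append hP PT.snd)
  have hi : PolyTime (fun w : W => pairBits w ([] : W)) := PT.pair PT.id (PT.const [])
  have key : ∀ (w : W) (k : ℕ), s^[k] (pairBits w []) =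
      pairBits w ((List.range k).map (fun i => decide (P w i))).reverse := by
    intro w k
    induction k with
    | zero => simp
    | succ k ih =>
      rw [Function.iterate_succ_apply', ih]
      simp [hsdef, List.range_succ]
  obtain ⟨q, hq⟩ := hN.bound
  have hit := PT.iter hs hi hN (2 * Polynomial.X + 1 + q) (fun w k hk => by
    rw [key, len_pairBits]
    rw [un_length] at hk
    have := hq w
    simp only [List.length_reverse, List.length_map, List.length_range, Polynomial.eval_add,
      Polynomial.eval_mul, Polynomial.eval_X, Polynomial.eval_ofNat, Polynomial.eval_one]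
    omega)
  refine PT.congr (PT.reverse (PT.comp PT.snd hit)) fun w => ?_
  rw [un_length, key]
  simp

/-- PROOF. `(∃ i < N, P) ↔ table ≠ table of False`. -/
theorem UP.ex {N : W → ℕ} {P : W → ℕ → Prop} (hN : UN N)
    (hP : UP (fun z => P (fstB z) (sndB z).length)) : UP (fun w => ∃ i < N w, P w i) := by
  classical
  have h0 : UP (fun z => (fun (_ : W) (_ : ℕ) => False) (fstB z) (sndB z).length) := UP.const False
  refine (UP.eqS (PT.tab hN hP) (PT.tab (P := fun _ _ => False) hN h0)).not.congr fun w => ?_
  constructor
  · intro h
    by_contra hc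
    push Not at hc
    refine h (List.map_congr_left fun i hi => ?_)
    have := hc i (List.mem_range.1 hi)
    simp [this]
  · rintro ⟨i, hi, hPi⟩ h
    have := (List.map_inj_left.1 h) i (List.mem_range.2 hi)
    simp [hPi] at this

theorem UP.all {N : W → ℕ} {P : W → ℕ → Prop} (hN : UN N)
    (hP : UP (fun z => P (fstB z) (sndB z).length)) : UP (fun w => ∀ i < N w, P w i) := by
  have h := (UP.ex hN (P := fun w i => ¬ P w i) hP.not).not
  refine h.congr fun w => ?_
  push Not
  rfl

open Classical in
/-- PROOF. length of `filterTrue` of the table. -/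
theorem UN.card {N : W → ℕ} {P : W → ℕ → Prop} (hN : UN N)
    (hP : UP (fun z => P (fstB z) (sndB z).length)) :
    UN (fun w => ((Finset.range (N w)).filter (fun i => P w i)).card) := by
  refine (UN.len (PT.filterTrue (PT.tab hN hP))).congr fun w => ?_
  rw [List.filter_map, List.length_map, Finset.card_def, Finset.filter_val, Finset.range_val,
    Multiset.range, Multiset.filter_coe, Multiset.coe_card]
  congr 1

end Crest.Agent.WLX
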